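import Vale.Agent.P233.H368.TauB
import Vale.Agent.P242.CDDefs

/-!
# P233, stage 3: the literal distortion coefficient `tauCoeff` in terms of `tauR`, and the ladder
for extended densities
-/

open Filter Topology Real Set
open scoped ENNReal

namespace Vale.Agent.P233.H368.Tau

/-- the literal `sigma` below the diameter bound -/
theorem sigma_eq {K N t θ : ℝ} (hN : 0 < N) (hθ : 0 ≤ θ) (ht : 0 ≤ t)
    (h : K * θ ^ 2 < N * π ^ 2) :
    P242.sigmaCoeff K N t θ = ENNReal.ofReal (sg t (K * θ ^ 2 / N)) := by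
  rw [← sigE_eq hN hθ ht h, P242.sigmaCoeff, sigE]
  simp only [mul_assoc]

theorem sigma_top {K N t θ : ℝ} (h : N * π ^ 2 ≤ K * θ ^ 2) : P242.sigmaCoeff K N t θ = ⊤ := by
  rw [P242.sigmaCoeff, if_pos h]

theorem tau_eq_tauE {K N t θ : ℝ} (hN : 1 < N) : P242.tauCoeff K N t θ = tauE K N t θ := by
  rw [P242.tauCoeff, tauE, P242.sigmaCoeff, sigE]
  have hN0 : N ≠ 0 := by linarith
  have e : (N - 1) / N = 1 - 1 / N := by field_simp
  rw [e]
  simp only [mul_assoc]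

/-- the literal `tau` below the diameter bound -/
theorem tau_eq {K N t θ : ℝ} (hN : 1 < N) (hθ : 0 ≤ θ) (ht0 : 0 ≤ t) (ht1 : t ≤ 1)
    (h : K * θ ^ 2 < (N - 1) * π ^ 2) :
    P242.tauCoeff K N t θ = ENNReal.ofReal (tauR K N t θ) := by
  rw [tau_eq_tauE hN, tauE_eq hN hθ ht0 ht1 h]

theorem tau_top {K N t θ : ℝ} (hN : 1 < N) (ht0 : 0 < t) (h : (N - 1) * π ^ 2 ≤ K * θ ^ 2) :
    P242.tauCoeff K N t θ = ⊤ := by
  rw [tau_eq_tauE hN, tauE_top hN ht0 h]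

/-- at `t = 0`, without any condition -/
theorem tau_zero {K N θ : ℝ} (hN : 1 < N) : P242.tauCoeff K N 0 θ = 0 := by
  have : (0 : ℝ) < 1 / N := by
    have : 0 < N := by linarith
    positivity
  rw [P242.tauCoeff, ENNReal.ofReal_zero, ENNReal.zero_rpow_of_pos this, zero_mul]

/-- at `t = 1` -/
theorem tau_one {K N θ : ℝ} (hN : 1 < N) (hθ : 0 ≤ θ) (h : K * θ ^ 2 < (N - 1) * π ^ 2) :
    P242.tauCoeff K N 1 θ = 1 := by
  rw [tau_eq hN hθ zero_le_one le_rfl h, tauR_one_left, ENNReal.ofReal_one]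

theorem tau_ne_zero {K N t θ : ℝ} (hN : 1 < N) (hθ : 0 ≤ θ) (ht0 : 0 < t) (ht1 : t ≤ 1) :
    P242.tauCoeff K N t θ ≠ 0 := by
  rcases lt_or_ge (K * θ ^ 2) ((N - 1) * π ^ 2) with h | h
  · rw [tau_eq hN hθ ht0.le ht1 h]
    exact (ENNReal.ofReal_pos.2 (tauR_pos ht0)).ne'
  · rw [tau_top hN ht0 h]; exact ENNReal.top_ne_zero

theorem tau_ne_top {K N t θ : ℝ} (hN : 1 < N) (hθ : 0 ≤ θ) (ht0 : 0 ≤ t) (ht1 : t ≤ 1)
    (h : K * θ ^ 2 < (N - 1) * π ^ 2) : P242.tauCoeff K N t θ ≠ ⊤ := by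
  rw [tau_eq hN hθ ht0 ht1 h]; exact ENNReal.ofReal_ne_top

/-- monotone in `K θ²` -/
theorem tau_mono {K K' N t θ θ' : ℝ} (hN : 1 < N) (hθ : 0 ≤ θ) (hθ' : 0 ≤ θ') (ht0 : 0 ≤ t)
    (ht1 : t ≤ 1) (hle : K * θ ^ 2 ≤ K' * θ' ^ 2) : P242.tauCoeff K N t θ ≤ P242.tauCoeff K' N t θ' := by
  rcases eq_or_lt_of_le ht0 with h0 | h0
  · rw [← h0, tau_zero hN]; exact zero_le
  rcases lt_or_ge (K' * θ' ^ 2) ((N - 1) * π ^ 2) with h | h
  · rw [tau_eq hN hθ ht0 ht1 (lt_of_le_of_lt hle h), tau_eq hN hθ' ht0 ht1 h]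
    exact ENNReal.ofReal_le_ofReal (tauR_mono hN ht0 ht1 hle h)
  · rw [tau_top hN h0 h]; exact le_top

/-- comparison in the dimension -/
theorem tau_dim {K N N' t θ : ℝ} (hN : 1 < N) (hNN : N ≤ N') (hθ : 0 ≤ θ) (ht0 : 0 < t)
    (ht1 : t ≤ 1) :
    P242.tauCoeff K N' t θ ≤ P242.tauCoeff K N t θ ^ (N / N') * ENNReal.ofReal t ^ (1 - N / N') := by
  have hN0 : 0 < N := by linarith
  have hN' : 0 < N' := by linarith
  have hp0 : 0 < N / N' := by positivity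
  have hp1 : 0 ≤ 1 - N / N' := by rw [sub_nonneg, div_le_one hN']; exact hNN
  rcases lt_or_ge (K * θ ^ 2) ((N - 1) * π ^ 2) with h | h
  · have h' : K * θ ^ 2 < (N' - 1) * π ^ 2 := by
      have : (N - 1) * π ^ 2 ≤ (N' - 1) * π ^ 2 :=
        mul_le_mul_of_nonneg_right (by linarith) (by positivity)
      linarith
    rw [tau_eq hN hθ ht0.le ht1 h, tau_eq (by linarith) hθ ht0.le ht1 h',
      ENNReal.ofReal_rpow_of_nonneg (tauR_nonneg ht0.le) hp0.le,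
      ENNReal.ofReal_rpow_of_nonneg ht0.le hp1,
      ← ENNReal.ofReal_mul (rpow_nonneg (tauR_nonneg ht0.le) _)]
    exact ENNReal.ofReal_le_ofReal (tauR_dim hN hNN ht0.le ht1 h)
  · rw [tau_top hN ht0 h, ENNReal.top_rpow_of_pos hp0, ENNReal.top_mul]
    · exact le_top
    · exact (ENNReal.rpow_pos (ENNReal.ofReal_pos.2 ht0) ENNReal.ofReal_ne_top).ne'

/-- power concavity for extended nonnegative numbers -/
theorem rpow_splitE {x y : ℝ≥0∞} {t p : ℝ} (ht0 : 0 < t) (ht1 : t < 1) (hp0 : 0 < p)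
    (hp1 : p ≤ 1) :
    x ^ p * ENNReal.ofReal (1 - t) ^ (1 - p) + y ^ p * ENNReal.ofReal t ^ (1 - p) ≤
      (x + y) ^ p := by
  rcases eq_or_ne x ⊤ with hx | hx
  · rw [hx, top_add, ENNReal.top_rpow_of_pos hp0]; exact le_top
  rcases eq_or_ne y ⊤ with hy | hy
  · rw [hy, add_top, ENNReal.top_rpow_of_pos hp0]; exact le_top
  have hs : 0 < 1 - t := by linarith
  have hq : 0 ≤ 1 - p := by linarith
  lift x to NNReal using hx
  lift y to NNReal using hy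
  have hx0 : (0 : ℝ) ≤ x := x.coe_nonneg
  have hy0 : (0 : ℝ) ≤ y := y.coe_nonneg
  have ex : (x : ℝ≥0∞) = ENNReal.ofReal x := by simp
  have ey : (y : ℝ≥0∞) = ENNReal.ofReal y := by simp
  rw [ex, ey, ← ENNReal.ofReal_add hx0 hy0, ENNReal.ofReal_rpow_of_nonneg hx0 hp0.le,
    ENNReal.ofReal_rpow_of_nonneg hy0 hp0.le, ENNReal.ofReal_rpow_of_nonneg hs.le hq,
    ENNReal.ofReal_rpow_of_nonneg ht0.le hq,
    ENNReal.ofReal_rpow_of_nonneg (add_nonneg hx0 hy0) hp0.le,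
    ← ENNReal.ofReal_mul (rpow_nonneg hx0 _), ← ENNReal.ofReal_mul (rpow_nonneg hy0 _),
    ← ENNReal.ofReal_add (mul_nonneg (rpow_nonneg hx0 _) (rpow_nonneg hs.le _))
      (mul_nonneg (rpow_nonneg hy0 _) (rpow_nonneg ht0.le _))]
  exact ENNReal.ofReal_le_ofReal (rpow_split hx0 hy0 ht0 ht1 hp0.le hp1)

/-- THE LADDER in extended form: the pointwise density inequality for `n` implies the one for
every real `N' ≥ n` -/
theorem ladderE {K n N' t θ : ℝ} {r a b : ℝ≥0∞} (hn : 1 < n) (hnN : n ≤ N') (ht0 : 0 < t)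
    (ht1 : t < 1) (hθ : 0 ≤ θ)
    (H : P242.tauCoeff K n (1 - t) θ * a ^ (-1 / n) + P242.tauCoeff K n t θ * b ^ (-1 / n) ≤
      r ^ (-1 / n)) :
    P242.tauCoeff K N' (1 - t) θ * a ^ (-1 / N') + P242.tauCoeff K N' t θ * b ^ (-1 / N') ≤
      r ^ (-1 / N') := by
  have hn0 : 0 < n := by linarith
  have hN' : 0 < N' := by linarith
  have hp0 : 0 < n / N' := by positivity
  have hp1 : n / N' ≤ 1 := by rw [div_le_one hN']; exact hnN
  have hs : 0 < 1 - t := by linarith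
  have e : ∀ z : ℝ≥0∞, (z ^ (-1 / n)) ^ (n / N') = z ^ (-1 / N') := by
    intro z
    rw [← ENNReal.rpow_mul]
    congr 1
    field_simp
  calc P242.tauCoeff K N' (1 - t) θ * a ^ (-1 / N') + P242.tauCoeff K N' t θ * b ^ (-1 / N')
      ≤ (P242.tauCoeff K n (1 - t) θ ^ (n / N') * ENNReal.ofReal (1 - t) ^ (1 - n / N')) *
          a ^ (-1 / N') +
        (P242.tauCoeff K n t θ ^ (n / N') * ENNReal.ofReal t ^ (1 - n / N')) * b ^ (-1 / N') :=
        add_le_add (mul_le_mul_left (tau_dim hn hnN hθ hs (by linarith)) _)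
          (mul_le_mul_left (tau_dim hn hnN hθ ht0 ht1.le) _)
    _ = (P242.tauCoeff K n (1 - t) θ * a ^ (-1 / n)) ^ (n / N') *
          ENNReal.ofReal (1 - t) ^ (1 - n / N') +
        (P242.tauCoeff K n t θ * b ^ (-1 / n)) ^ (n / N') * ENNReal.ofReal t ^ (1 - n / N') := by
        rw [ENNReal.mul_rpow_of_nonneg _ _ hp0.le, ENNReal.mul_rpow_of_nonneg _ _ hp0.le, e a, e b]
        ring
    _ ≤ (P242.tauCoeff K n (1 - t) θ * a ^ (-1 / n) + P242.tauCoeff K n t θ * b ^ (-1 / n)) ^ (n / N') :=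
        rpow_splitE ht0 ht1 hp0 hp1
    _ ≤ (r ^ (-1 / n)) ^ (n / N') := ENNReal.rpow_le_rpow H hp0.le
    _ = r ^ (-1 / N') := e r

theorem tau_le_of_nonpos {K N t θ : ℝ} (hN : 1 < N) (hθ : 0 ≤ θ) (ht0 : 0 ≤ t) (ht1 : t ≤ 1)
    (hK : K ≤ 0) : P242.tauCoeff K N t θ ≤ ENNReal.ofReal t := by
  have h : K * θ ^ 2 < (N - 1) * π ^ 2 := by
    have h1 : K * θ ^ 2 ≤ 0 := mul_nonpos_of_nonpos_of_nonneg hK (by positivity)
    have h2 : 0 < (N - 1) * π ^ 2 := mul_pos (by linarith) (by positivity)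
    linarith
  rw [tau_eq hN hθ ht0 ht1 h]
  exact ENNReal.ofReal_le_ofReal (tauR_le hN ht0 ht1 hK)

theorem le_tau_of_nonneg {K N t θ : ℝ} (hN : 1 < N) (hθ : 0 ≤ θ) (ht0 : 0 ≤ t) (ht1 : t ≤ 1)
    (hK : 0 ≤ K) : ENNReal.ofReal t ≤ P242.tauCoeff K N t θ := by
  rcases eq_or_lt_of_le ht0 with h0 | h0
  · rw [← h0, ENNReal.ofReal_zero]; exact zero_le
  rcases lt_or_ge (K * θ ^ 2) ((N - 1) * π ^ 2) with h | h
  · rw [tau_eq hN hθ ht0 ht1 h]
    exact ENNReal.ofReal_le_ofReal (le_tauR hN ht0 ht1 hK h)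
  · rw [tau_top hN h0 h]; exact le_top

theorem measurable_tau (K N t : ℝ) : Measurable (P242.tauCoeff K N t) := by
  have h : Measurable (P242.sigmaCoeff K (N - 1) t) := by
    unfold P242.sigmaCoeff
    refine Measurable.ite ?_ measurable_const ?_
    · exact measurableSet_le measurable_const (by fun_prop)
    refine Measurable.ite ?_ ?_ ?_
    · exact measurableSet_lt measurable_const (by fun_prop)
    · fun_prop
    refine Measurable.ite ?_ measurable_const ?_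
    · exact measurableSet_eq_fun (by fun_prop) measurable_const
    · fun_prop
  unfold P242.tauCoeff
  exact measurable_const.mul (h.pow_const _)

end Vale.Agent.P233.H368.Tau
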