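import Vale.Agent.P233.H368.RAH1
import Vale.Agent.P233.H368.RAK1
import Vale.Agent.P233.H982.RH3
import Vale.Agent.P233.H982.RH0

/-! P233, RCDA (helper368): H1 without hypotheses; K1S from H2a, H2b. -/

universe u

namespace Vale.Agent.P233.H368

open Vale.Agent.P233.RA

theorem blk_H1 : Blk_H1.{u} := RH1.blk_H1 H982.blk_H3a

theorem blk_K1S (h2a : Blk_H2a.{u}) (h2b : Blk_H2b.{u}) : Blk_K1S.{u} :=
  RK1.blk_K1S H982.blk_H0 h2a h2b

end Vale.Agent.P233.H368

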