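import Vale.Agent.P233.H368.Static

/-!
P233, block F2S (helper368): derivative of `t ↦ ∫ ρ_t <∇F,∇θ_t>`.
-/

open MeasureTheory Filter Topology
open scoped ENNReal NNReal

namespace Vale.Agent.P233

variable {M : Type*} [MeasurableSpace M] {m : Measure M} {C : Calc m}

namespace H368

/-- the integral of a product is continuous in `L²` -/
theorem tendsto_I_mul {ι : Type*} {F : Filter ι} {f g : ι → M →ₘ[m] ℝ} {f₀ g₀ : M →ₘ[m] ℝ}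
    (hf : ∀ᶠ i in F, MemLp (f i) 2 m) (hg : ∀ᶠ i in F, MemLp (g i) 2 m)
    (hf₀ : MemLp f₀ 2 m) (hg₀ : MemLp g₀ 2 m)
    (h1 : Tendsto (fun i => I ((f i - f₀) ^ 2)) F (𝓝 0))
    (h2 : Tendsto (fun i => I ((g i - g₀) ^ 2)) F (𝓝 0)) :
    Tendsto (fun i => I (f i * g i)) F (𝓝 (I (f₀ * g₀))) := by
  have h3 : Tendsto (fun i => √(I ((f i - f₀) ^ 2)) * √(I ((g i - g₀) ^ 2))
      + √(I ((f i - f₀) ^ 2)) * √(I (g₀ ^ 2)) + √(I (f₀ ^ 2)) * √(I ((g i - g₀) ^ 2)))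
      F (𝓝 (0 : ℝ)) := by
    have a1 : Tendsto (fun i => √(I ((f i - f₀) ^ 2))) F (𝓝 0) := by
      have := (Real.continuous_sqrt.tendsto 0).comp h1
      rwa [Real.sqrt_zero] at this
    have a2 : Tendsto (fun i => √(I ((g i - g₀) ^ 2))) F (𝓝 0) := by
      have := (Real.continuous_sqrt.tendsto 0).comp h2
      rwa [Real.sqrt_zero] at this
    have := ((a1.mul a2).add (a1.mul_const (√(I (g₀ ^ 2))))).add (a2.const_mul (√(I (f₀ ^ 2))))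
    simpa using this
  rw [tendsto_iff_dist_tendsto_zero]
  refine squeeze_zero' (Eventually.of_forall fun _ => dist_nonneg) ?_ h3
  filter_upwards [hf, hg] with i hfi hgi
  have e : f i * g i = (f i - f₀) * (g i - g₀) + (f i - f₀) * g₀ + f₀ * (g i - g₀) + f₀ * g₀ := by
    ring
  have m1 := mem_sub hfi hf₀
  have m2 := mem_sub hgi hg₀
  rw [Real.dist_eq, e, I_add (mem_add (mem_add (mem_mul_22 m1 m2) (mem_mul_22 m1 hg₀))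
    (mem_mul_22 hf₀ m2)) (mem_mul_22 hf₀ hg₀), add_sub_cancel_right,
    I_add (mem_add (mem_mul_22 m1 m2) (mem_mul_22 m1 hg₀)) (mem_mul_22 hf₀ m2),
    I_add (mem_mul_22 m1 m2) (mem_mul_22 m1 hg₀)]
  refine (abs_add_three _ _ _).trans ?_
  exact add_le_add (add_le_add (I_abs_le m1 m2) (I_abs_le m1 hg₀)) (I_abs_le hf₀ m2)

/-- `Γ F ·` is continuous from `W` to `L²` for Lipschitz `F` -/
theorem I_Γ_sq_le (hD : IsDir C) {F g : M →ₘ[m] ℝ} (hF : F ∈ C.W) {K : ℝ} (hK0 : 0 ≤ K)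
    (hK : ∀ᵐ x ∂m, C.Γ F F x ≤ K) (hg : g ∈ C.W) (hFt : MemLp (C.Γ F F) ∞ m) :
    I (C.Γ F g ^ 2) ≤ K * C.nrm2 g := by
  have h1 : I (C.Γ F g ^ 2) ≤ I (K • C.Γ g g) := by
    refine I_mono (mem_sq (hD.Γ_mem2 hF hFt hg)) (mem_smul _ (hD.mem1 _ hg)) ?_
    rw [le_iff_ae]
    filter_upwards [hD.Γ_cs_ae hF hg, hK, sq_ae (C.Γ F g), smul_ae (C.Γ g g) K,
      hD.Γ_nonneg_ae hg] with x a1 a2 a3 a4 a5
    rw [a3, a4]
    exact a1.trans (mul_le_mul_of_nonneg_right a2 a5)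
  rw [I_smul] at h1
  exact h1.trans (mul_le_mul_of_nonneg_left (hD.E_le_nrm2 g) hK0)

/-- a bound of `Γ F F` -/
theorem exists_bd {f : M →ₘ[m] ℝ} (hf : MemLp f ∞ m) : ∃ K : ℝ, 0 ≤ K ∧ ∀ᵐ x ∂m, f x ≤ K := by
  obtain ⟨K, hK⟩ := mem_top_iff.1 hf
  exact ⟨max K 0, le_max_right _ _, hK.mono fun x hx => (le_abs_self _).trans (hx.trans
    (le_max_left _ _))⟩

theorem tendsto_Γ (hD : IsDir C) {ι : Type*} {L : Filter ι} {F g₀ : M →ₘ[m] ℝ}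
    {g : ι → M →ₘ[m] ℝ} (hF : F ∈ C.W) (hFt : MemLp (C.Γ F F) ∞ m)
    (hg : ∀ᶠ i in L, g i ∈ C.W) (hg₀ : g₀ ∈ C.W)
    (h : Tendsto (fun i => C.nrm2 (g i - g₀)) L (𝓝 0)) :
    Tendsto (fun i => I ((C.Γ F (g i) - C.Γ F g₀) ^ 2)) L (𝓝 0) := by
  obtain ⟨K, hK0, hK⟩ := exists_bd hFt
  have h1 : Tendsto (fun i => K * C.nrm2 (g i - g₀)) L (𝓝 0) := by
    simpa using h.const_mul K
  refine squeeze_zero' (Eventually.of_forall fun i => I_sq_nonneg _) ?_ h1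
  filter_upwards [hg] with i hi
  rw [← hD.Γ_sub_right hF hi hg₀]
  exact I_Γ_sq_le hD hF hK0 hK (hD.sub_mem hi hg₀) hFt

/-- **Derivative** of `t ↦ ∫ ρ_t <∇F,∇θ_t>`: `ρ` has the derivative `ρ'` in `L²` and `θ` has the
derivative `θ'` in `W` at the time `t`, relative to the set `S`. -/
theorem hasDeriv_E (hD : IsDir C) {F : M →ₘ[m] ℝ} (hF : F ∈ C.W) (hFt : MemLp (C.Γ F F) ∞ m)
    {ρ θ : ℝ → M →ₘ[m] ℝ} {ρ' θ' : M →ₘ[m] ℝ} {S : Set ℝ} {t : ℝ}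
    (hρt : MemLp (ρ t) ∞ m) (hρ2 : ∀ s ∈ S, MemLp (ρ s - ρ t) 2 m) (hρ' : MemLp ρ' 2 m)
    (hθ : ∀ s ∈ S, θ s ∈ C.W) (hθt : θ t ∈ C.W) (hθ' : θ' ∈ C.W)
    (h1 : Tendsto (fun s => I (((s - t)⁻¹ • (ρ s - ρ t) - ρ') ^ 2)) (𝓝[S \ {t}] t) (𝓝 0))
    (h2 : Tendsto (fun s => C.nrm2 ((s - t)⁻¹ • (θ s - θ t) - θ')) (𝓝[S \ {t}] t) (𝓝 0)) :
    HasDerivWithinAt (fun s => I (ρ s * C.Γ F (θ s)))
      (I (ρ' * C.Γ F (θ t)) + I (ρ t * C.Γ F θ')) S t := by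
  rw [hasDerivWithinAt_iff_tendsto_slope]
  have hne : ∀ᶠ s in 𝓝[S \ {t}] t, s ∈ S \ {t} := self_mem_nhdsWithin
  have hst : Tendsto (fun s : ℝ => s - t) (𝓝[S \ {t}] t) (𝓝 0) := by
    have h3 : Tendsto (fun s : ℝ => s - t) (𝓝 t) (𝓝 (t - t)) := tendsto_id.sub_const t
    rw [sub_self] at h3
    exact h3.mono_left nhdsWithin_le_nhds
  -- the difference quotients
  have dρ : ∀ᶠ s in 𝓝[S \ {t}] t, MemLp ((s - t)⁻¹ • (ρ s - ρ t) : M →ₘ[m] ℝ) 2 m :=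
    hne.mono fun s hs => mem_smul _ (hρ2 s hs.1)
  have dθ : ∀ᶠ s in 𝓝[S \ {t}] t, (s - t)⁻¹ • (θ s - θ t) ∈ C.W :=
    hne.mono fun s hs => hD.smul_mem _ _ (hD.sub_mem (hθ s hs.1) hθt)
  -- `θ s → θ t` in `W`
  have cθ : Tendsto (fun s => C.nrm2 (θ s - θ t)) (𝓝[S \ {t}] t) (𝓝 0) := by
    have h3 : Tendsto (fun s => (s - t) ^ 2 * (2 * C.nrm2 ((s - t)⁻¹ • (θ s - θ t) - θ')
        + 2 * C.nrm2 θ')) (𝓝[S \ {t}] t) (𝓝 0) := by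
      have h4 := (hst.pow 2).mul ((h2.const_mul 2).add_const (2 * C.nrm2 θ'))
      simpa using h4
    refine squeeze_zero' (hne.mono fun s hs => hD.nrm2_nonneg (hD.sub_mem (hθ s hs.1) hθt)) ?_ h3
    filter_upwards [hne, dθ] with s hs hd
    have hs0 : s - t ≠ 0 := sub_ne_zero.2 hs.2
    have e1 : θ s - θ t = (s - t) • ((s - t)⁻¹ • (θ s - θ t)) := by
      rw [smul_smul, mul_inv_cancel₀ hs0, one_smul]
    have e2 : C.nrm2 (θ s - θ t) = (s - t) ^ 2 * C.nrm2 ((s - t)⁻¹ • (θ s - θ t)) := by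
      conv_lhs => rw [e1]
      have e3 : ∀ (c : ℝ) {g : M →ₘ[m] ℝ}, g ∈ C.W → C.nrm2 (c • g) = c ^ 2 * C.nrm2 g := by
        intro c g hg
        have e4 : (c • g) ^ 2 = (c ^ 2) • g ^ 2 := by
          simp only [Algebra.smul_def, map_pow]; ring
        rw [Calc.nrm2, Calc.nrm2, e4, I_smul, hD.E_smul c hg]; ring
      rw [e3 _ hd]
    rw [e2]
    refine mul_le_mul_of_nonneg_left ?_ (sq_nonneg _)
    have e5 := hD.nrm2_add_le (hD.sub_mem hd hθ') hθ'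
    rw [sub_add_cancel] at e5
    exact e5
  have cΓ := tendsto_Γ hD hF hFt (hne.mono fun s hs => hθ s hs.1) hθt cθ
  have cΓ' := tendsto_Γ hD hF hFt dθ hθ' h2
  -- first part
  have p1 : Tendsto (fun s => I (((s - t)⁻¹ • (ρ s - ρ t)) * C.Γ F (θ s))) (𝓝[S \ {t}] t)
      (𝓝 (I (ρ' * C.Γ F (θ t)))) :=
    tendsto_I_mul dρ (hne.mono fun s hs => hD.Γ_mem2 hF hFt (hθ s hs.1)) hρ'
      (hD.Γ_mem2 hF hFt hθt) h1 cΓ
  -- second part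
  obtain ⟨R, hR⟩ := mem_top_iff.1 hρt
  have p2 : Tendsto (fun s => I (ρ t * C.Γ F ((s - t)⁻¹ • (θ s - θ t)))) (𝓝[S \ {t}] t)
      (𝓝 (I (ρ t * C.Γ F θ'))) := by
    rw [tendsto_iff_dist_tendsto_zero]
    have h5 : Tendsto (fun s => √(R ^ 2 * I (C.Γ F F)) * √(C.nrm2 ((s - t)⁻¹ • (θ s - θ t) - θ')))
        (𝓝[S \ {t}] t) (𝓝 0) := by
      have h6 := (Real.continuous_sqrt.tendsto 0).comp h2
      rw [Real.sqrt_zero] at h6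
      simpa using h6.const_mul (√(R ^ 2 * I (C.Γ F F)))
    refine squeeze_zero' (Eventually.of_forall fun _ => dist_nonneg) ?_ h5
    filter_upwards [dθ] with s hd
    have hg := hD.sub_mem hd hθ'
    have e1 : I (ρ t * C.Γ F ((s - t)⁻¹ • (θ s - θ t))) - I (ρ t * C.Γ F θ')
        = I (ρ t * C.Γ F ((s - t)⁻¹ • (θ s - θ t) - θ')) := by
      rw [hD.Γ_sub_right hF hd hθ', mul_sub,
        I_sub (mem_mul_top hρt (hD.Γ_mem1 hF hd)) (mem_mul_top hρt (hD.Γ_mem1 hF hθ'))]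
    rw [Real.dist_eq, e1]
    set g := (s - t)⁻¹ • (θ s - θ t) - θ' with hgd
    -- `|∫ ρ Γ F g| ≤ sqrt (R² E F) sqrt (E g)`
    have e2 : |I (ρ t * C.Γ F g)| ≤ |R| * ∫ x, |C.Γ F g x| ∂m := by
      have e3 : |I (ρ t * C.Γ F g)| ≤ ∫ x, |(ρ t * C.Γ F g : M →ₘ[m] ℝ) x| ∂m :=
        abs_integral_le_integral_abs
      refine e3.trans ?_
      rw [← integral_const_mul]
      refine integral_mono_ae (int_of_mem (mem_mul_top hρt (hD.Γ_mem1 hF hg))).abs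
        ((int_of_mem (hD.Γ_mem1 hF hg)).abs.const_mul _) ?_
      filter_upwards [mul_ae (ρ t) (C.Γ F g), hR] with x a1 a2
      rw [a1, abs_mul]
      exact mul_le_mul_of_nonneg_right (a2.trans (le_abs_self _)) (abs_nonneg _)
    refine e2.trans ((mul_le_mul_of_nonneg_left (hD.int_abs_Γ_le hF hg) (abs_nonneg _)).trans ?_)
    rw [Real.sqrt_mul (sq_nonneg _), Real.sqrt_sq_eq_abs, mul_assoc]
    refine mul_le_mul_of_nonneg_left (mul_le_mul_of_nonneg_left ?_ (Real.sqrt_nonneg _))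
      (abs_nonneg _)
    exact Real.sqrt_le_sqrt (hD.E_le_nrm2 g)
  refine (p1.add p2).congr' ?_
  filter_upwards [hne] with s hs
  have hs1 := hθ s hs.1
  have hF1 := hD.Γ_mem2 hF hFt hs1
  rw [slope_def_field, smul_mul_assoc, I_smul, hD.Γ_smul_right _ hF (hD.sub_mem hs1 hθt),
    mul_smul_comm, I_smul, hD.Γ_sub_right hF hs1 hθt]
  have e1 : I (ρ s * C.Γ F (θ s)) - I (ρ t * C.Γ F (θ t))
      = I ((ρ s - ρ t) * C.Γ F (θ s)) + I (ρ t * (C.Γ F (θ s) - C.Γ F (θ t))) := by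
    have m1 : MemLp ((ρ s - ρ t) * C.Γ F (θ s) : M →ₘ[m] ℝ) 1 m := mem_mul_22 (hρ2 s hs.1) hF1
    have m2 : MemLp (ρ t * C.Γ F (θ s) : M →ₘ[m] ℝ) 1 m := mem_mul_top hρt (hD.Γ_mem1 hF hs1)
    have m3 : MemLp (ρ t * C.Γ F (θ t) : M →ₘ[m] ℝ) 1 m := mem_mul_top hρt (hD.Γ_mem1 hF hθt)
    have e2 : ρ s * C.Γ F (θ s) = (ρ s - ρ t) * C.Γ F (θ s) + ρ t * C.Γ F (θ s) := by ring
    rw [e2, I_add m1 m2, mul_sub, I_sub m2 m3]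
    ring
  rw [e1]
  field_simp

/-- **Identity**: the derivative of `∫ ρ <∇F,∇θ>` along the entropic flow. -/
theorem ident (hC : IsGamma C) {κ : ℝ} (hB : C.BEi κ) {F ρ l θ : M →ₘ[m] ℝ} {ε : ℝ}
    (hF : F ∈ C.W) (hp : C.RhoL ρ l) (hθ : θ ∈ C.TestI) :
    I (-(C.Γ (ρ - 1) θ + ρ * C.lap θ) * C.Γ F θ)
      + I (ρ * C.Γ F (-((2 : ℝ)⁻¹ • C.Γ θ θ) - (ε ^ 2 / 8) • Q C l))
      = C.wH1 F θ ρ + ε ^ 2 / 8 * -I (ρ * C.Γ F (Q C l)) := by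
  have hD := hC.toIsDir
  have hQ := Q_mem hC hB hp.l_mem
  have hrA : ρ - 1 ∈ C.A := hC.test_A hp.r_mem.1
  have hθA : θ ∈ C.A := hC.test_A hθ.1
  have hθθ : C.Γ θ θ ∈ C.A := hC.Γ_mem hB hθ.1 hθ.1
  have hρt : MemLp ρ ∞ m := by
    have := mem_add hrA.2 mem_top_one
    rwa [sub_add_cancel] at this
  have e1 : C.Γ F (-((2 : ℝ)⁻¹ • C.Γ θ θ) - (ε ^ 2 / 8) • Q C l)
      = -((2 : ℝ)⁻¹ • C.Γ F (C.Γ θ θ)) - (ε ^ 2 / 8) • C.Γ F (Q C l) := by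
    rw [hD.Γ_sub_right hF (hD.neg_mem (hD.A_smul _ hθθ).1) (hD.A_smul _ hQ).1,
      hD.Γ_neg_right hF (hD.A_smul _ hθθ).1, hD.Γ_smul_right _ hF hθθ.1,
      hD.Γ_smul_right _ hF hQ.1]
  have i1 : MemLp (ρ * C.Γ F (C.Γ θ θ) : M →ₘ[m] ℝ) 1 m :=
    mem_mul_top hρt (hD.Γ_mem1 hF hθθ.1)
  have i2 : MemLp (ρ * C.Γ F (Q C l) : M →ₘ[m] ℝ) 1 m := mem_mul_top hρt (hD.Γ_mem1 hF hQ.1)
  have e2 : ρ * (-((2 : ℝ)⁻¹ • C.Γ F (C.Γ θ θ)) - (ε ^ 2 / 8) • C.Γ F (Q C l))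
      = -((2 : ℝ)⁻¹ • (ρ * C.Γ F (C.Γ θ θ))) - (ε ^ 2 / 8) • (ρ * C.Γ F (Q C l)) := by
    simp only [Algebra.smul_def]; ring
  have e3 : -(C.Γ (ρ - 1) θ + ρ * C.lap θ) * C.Γ F θ
      = -(C.Γ F θ * (ρ * C.lap θ + C.Γ θ (ρ - 1))) := by
    rw [hD.symm _ hrA.1 _ hθA.1]; ring
  rw [e1, e2, I_sub (mem_neg (mem_smul _ i1)) (mem_smul _ i2), I_neg, I_smul, I_smul, e3, I_neg,
    Calc.wH1]
  ring

/-- **F2S, one level, integrated.** -/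
theorem integrated (hC : IsGamma C) {κ : ℝ} (hB : C.BEi κ) {F Λ : M →ₘ[m] ℝ} {ε : ℝ}
    (hF : F ∈ C.W) (hFt : MemLp (C.Γ F F) ∞ m) {ρ l θ : ℝ → M →ₘ[m] ℝ} {a b : ℝ} (hab : a ≤ b)
    (hp : ∀ t ∈ Set.Icc a b, C.RhoL (ρ t) (l t)) (hθ : ∀ t ∈ Set.Icc a b, θ t ∈ C.TestI)
    (dρ : ∀ t ∈ Set.Icc a b, Tendsto (fun s => I (((s - t)⁻¹ • (ρ s - ρ t)
      - -(C.Γ (ρ t - 1) (θ t) + ρ t * C.lap (θ t))) ^ 2)) (𝓝[Set.Icc a b \ {t}] t) (𝓝 0))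
    (dθ : ∀ t ∈ Set.Icc a b, Tendsto (fun s => C.nrm2 ((s - t)⁻¹ • (θ s - θ t)
      - (-((2 : ℝ)⁻¹ • C.Γ (θ t) (θ t)) - (ε ^ 2 / 8) • Q C (l t))))
      (𝓝[Set.Icc a b \ {t}] t) (𝓝 0))
    (hH : ∀ t ∈ Set.Icc a b, C.wH1 F (θ t) (ρ t) ≤ I (ρ t * Λ * C.Γ (θ t) (θ t)))
    {err : ℝ → ℝ} (herr : ∀ t ∈ Set.Icc a b, -I (ρ t * C.Γ F (Q C (l t))) ≤ err t)
    (ierr : IntervalIntegrable err volume a b)
    (iΛ : IntervalIntegrable (fun t => I (ρ t * Λ * C.Γ (θ t) (θ t))) volume a b) :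
    I (ρ b * C.Γ F (θ b)) - I (ρ a * C.Γ F (θ a))
      ≤ (∫ t in a..b, I (ρ t * Λ * C.Γ (θ t) (θ t))) + ε ^ 2 / 8 * ∫ t in a..b, err t := by
  have hD := hC.toIsDir
  have hr : ∀ t ∈ Set.Icc a b, ρ t - 1 ∈ C.A := fun t ht => hC.test_A (hp t ht).r_mem.1
  have hθA : ∀ t ∈ Set.Icc a b, θ t ∈ C.A := fun t ht => hC.test_A (hθ t ht).1
  have hρt : ∀ t ∈ Set.Icc a b, MemLp (ρ t) ∞ m := fun t ht => by
    have := mem_add (hr t ht).2 mem_top_one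
    rwa [sub_add_cancel] at this
  have hder : ∀ t ∈ Set.Icc a b, HasDerivWithinAt (fun s => I (ρ s * C.Γ F (θ s)))
      (C.wH1 F (θ t) (ρ t) + ε ^ 2 / 8 * -I (ρ t * C.Γ F (Q C (l t)))) (Set.Icc a b) t := by
    intro t ht
    have hθθ : C.Γ (θ t) (θ t) ∈ C.A := hC.Γ_mem hB (hθ t ht).1 (hθ t ht).1
    have hQ := Q_mem hC hB (hp t ht).l_mem
    rw [← ident hC hB hF (hp t ht) (hθ t ht)]
    refine hasDeriv_E hD hF hFt (hρt t ht) (fun s hs => ?_) ?_ (fun s hs => (hθA s hs).1)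
      (hθA t ht).1 ?_ (dρ t ht) (dθ t ht)
    · have e : ρ s - ρ t = (ρ s - 1) - (ρ t - 1) := by ring
      rw [e]
      exact mem_sub (hD.memLp _ (hr s hs).1) (hD.memLp _ (hr t ht).1)
    · refine mem_neg (mem_add (hD.Γ_mem2 (hr t ht).1 (hC.test_Γ_top (hp t ht).r_mem.1)
        (hθA t ht).1) (mem_mul_top (hρt t ht) ?_))
      exact hD.memLp _ (hC.testI_lap_A hB (hθ t ht)).1
    · exact hD.sub_mem (hD.neg_mem (hD.A_smul _ hθθ).1) (hD.A_smul _ hQ).1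
  have hle : ∀ t ∈ Set.Icc a b, C.wH1 F (θ t) (ρ t) + ε ^ 2 / 8 * -I (ρ t * C.Γ F (Q C (l t)))
      ≤ I (ρ t * Λ * C.Γ (θ t) (θ t)) + ε ^ 2 / 8 * err t := fun t ht =>
    add_le_add (hH t ht) (mul_le_mul_of_nonneg_left (herr t ht) (by positivity))
  have ii : IntervalIntegrable (fun t => I (ρ t * Λ * C.Γ (θ t) (θ t)) + ε ^ 2 / 8 * err t)
      volume a b := iΛ.add (ierr.const_mul _)
  have h1 := intervalIntegral.sub_le_integral_of_hasDeriv_right_of_le hab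
    (fun t ht => (hder t ht).continuousWithinAt) (fun t ht => ((hder t
      (Set.Ioo_subset_Icc_self ht)).mono_of_mem_nhdsWithin (Icc_mem_nhdsGT_of_mem
        ⟨ht.1.le, ht.2⟩)))
    ((intervalIntegrable_iff_integrableOn_Icc_of_le hab).1 ii)
    (fun t ht => hle t (Set.Ioo_subset_Icc_self ht))
  rw [intervalIntegral.integral_add iΛ (ierr.const_mul _),
    intervalIntegral.integral_const_mul] at h1
  exact h1

end H368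

end Vale.Agent.P233
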