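import Vale.Agent.P233.Gig.IfD

/-! P233, interface of part F2 (helper368): output of F2S, input of the metric glue (helper616,
helper933). Only definitions. -/

set_option linter.all false

open MeasureTheory Filter Topology Set
open scoped ENNReal NNReal

universe u

namespace Vale.Agent.P233.PF

open Vale.Agent.P233.PD

variable {M : Type u} [MetricSpace M] [MeasurableSpace M]

/-- The function `Λ` of `HessDist`. -/
noncomputable def Lam (κ : ℝ) (p : M) (R Λ₀ : ℝ) (y : M) : ℝ :=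
  open Classical in if dist p y < R then cs κ (dist p y) else Λ₀

/-- Along the curve `t ↦ Y t x`, `t ∈ (0,1]`, of constant speed `ℓ = d(q,x)/(1+s₀)`: the function
`f = md_κ(d_p)` (truncated at `R`) is absolutely continuous, and its a.e. derivative `g` satisfies
`g b - g a ≤ ∫_a^b Λ(Y_r x) ℓ² dr`. -/
def ConcAt (κ : ℝ) (p : M) (R Λ₀ : ℝ) (q : M) (s₀ : ℝ) (Y : ℝ → M → M) (x : M) : Prop :=
  ∃ g : ℝ → ℝ, (∀ a, 0 < a → a ≤ 1 → IntervalIntegrable g volume a 1) ∧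
    (∀ t ∈ Ioc (0 : ℝ) 1, mdr κ p R (Y t x) = mdr κ p R x - ∫ r in t..1, g r) ∧
    ∀ᵐ a, ∀ᵐ b, 0 < a → a < b → b < 1 →
      g b - g a ≤ ∫ r in a..b, Lam κ p R Λ₀ (Y r x) * (dist q x / (1 + s₀)) ^ 2

/-- OUTPUT OF F2S: radial flows of every centre `q`, along which `md_κ(d_p)` is concave in the
sense of `ConcAt`. -/
def HasConc (m : Measure M) (n κ : ℝ) : Prop :=
  ∀ (p : M) (R : ℝ), Adm κ R → ∃ Λ₀ : ℝ, ∀ R' > 0, ∃ K : ℝ, ∀ (q : M), ∀ s₀ ∈ Ioc (0 : ℝ) 1,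
    ∃ Y, Contr m q s₀ R' n K Y ∧ ∀ᵐ x ∂m, dist q x < R' → ConcAt κ p R Λ₀ q s₀ Y x

end Vale.Agent.P233.PF
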