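import Vale.Agent.P233.H368.Unif
import Vale.Agent.P233.H368.Deriv

/-!
P233, block F2S (helper368): limit along an arbitrary filter of the terms of the integrated
inequality, uniformly in time.
-/

open MeasureTheory Filter Topology Set
open scoped ENNReal NNReal

namespace Vale.Agent.P233

variable {M : Type*} [MeasurableSpace M] {m : Measure M} {C : Calc m}

namespace H368

variable {ι : Type*} {L : Filter ι} {a b : ℝ}

/-- the `L¹` norm -/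
noncomputable def n1 (f : M →ₘ[m] ℝ) : ℝ := ∫ x, |f x| ∂m

theorem n1_nonneg (f : M →ₘ[m] ℝ) : 0 ≤ n1 f := integral_nonneg fun _ => abs_nonneg _

/-- `|∫ ρ f| ≤ R ‖f‖₁` for `|ρ| ≤ R` -/
theorem I_mul_le {ρ f : M →ₘ[m] ℝ} {R : ℝ} (hρ : ∀ᵐ x ∂m, |ρ x| ≤ R) (hf : MemLp f 1 m) :
    |I (ρ * f)| ≤ R * n1 f := by
  have hρt : MemLp ρ ∞ m := mem_top_iff.2 ⟨R, hρ⟩
  have e3 : |I (ρ * f)| ≤ ∫ x, |(ρ * f : M →ₘ[m] ℝ) x| ∂m := abs_integral_le_integral_abs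
  refine e3.trans ?_
  rw [n1, ← integral_const_mul]
  refine integral_mono_ae (int_of_mem (mem_mul_top hρt hf)).abs
    ((int_of_mem hf).abs.const_mul _) ?_
  filter_upwards [mul_ae ρ f, hρ] with x a1 a2
  rw [a1, abs_mul]
  exact mul_le_mul_of_nonneg_right a2 (abs_nonneg _)

theorem n1_mono {f g : M →ₘ[m] ℝ} (hf : MemLp f 1 m) (hg : MemLp g 1 m)
    (h : ∀ᵐ x ∂m, |f x| ≤ |g x|) : n1 f ≤ n1 g :=
  integral_mono_ae (int_of_mem hf).abs (int_of_mem hg).abs h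

theorem n1_eq_I {f : M →ₘ[m] ℝ} (h : 0 ≤ f) : n1 f = I f :=
  integral_congr_ae ((nonneg_iff_ae.1 h).mono fun _ hx => abs_of_nonneg hx)

/-- Weak-* convergence uniform in time for time-dependent `L¹`-continuous integrands. -/
theorem unif_weak {ρ : ι → ℝ → M →ₘ[m] ℝ} {ρ₀ : ℝ → M →ₘ[m] ℝ} {R : ℝ} (hR0 : 0 ≤ R)
    (hR : ∀ i, ∀ t ∈ Icc a b, ∀ᵐ x ∂m, |ρ i t x| ≤ R) (hR₀ : ∀ t ∈ Icc a b, ∀ᵐ x ∂m, |ρ₀ t x| ≤ R)
    (h : ∀ f : M →ₘ[m] ℝ, MemLp f 1 m → UnifC L (fun i t => I (ρ i t * f))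
      (fun t => I (ρ₀ t * f)) a b)
    {f : ℝ → M →ₘ[m] ℝ} (hf : ∀ t ∈ Icc a b, MemLp (f t) 1 m)
    (hc : ∀ t ∈ Icc a b, Tendsto (fun s => n1 (f s - f t)) (𝓝[Icc a b] t) (𝓝 0)) :
    UnifC L (fun i t => I (ρ i t * f t)) (fun t => I (ρ₀ t * f t)) a b := by
  intro ε hε
  rcases isEmpty_or_nonempty (Icc a b) with he | ⟨⟨t₀, ht₀⟩⟩
  · exact Eventually.of_forall fun i t ht => (he.false ⟨t, ht⟩).elim
  -- neighbourhoods
  set δ : ℝ := ε / (3 * (R + 1)) with hδ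
  have hδ0 : 0 < δ := by positivity
  have hU : ∀ t ∈ Icc a b, ∃ U ∈ 𝓝[Icc a b] t, ∀ s ∈ U, n1 (f s - f t) < δ := by
    intro t ht
    exact ⟨_, (hc t ht).eventually_lt_const hδ0, fun s hs => hs⟩
  choose! U hU hU' using hU
  obtain ⟨T, hTs, hTc⟩ := (isCompact_Icc (a := a) (b := b)).elim_nhdsWithin_subcover U hU
  have h3 : ∀ᶠ i in L, ∀ s ∈ T, ∀ t ∈ Icc a b, |I (ρ i t * f s) - I (ρ₀ t * f s)| ≤ ε / 3 := by
    rw [Filter.eventually_all_finset]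
    intro s hs
    exact h (f s) (hf s (hTs s hs)) (ε / 3) (by positivity)
  filter_upwards [h3] with i hi t ht
  obtain ⟨s, hsT, hts⟩ := mem_iUnion₂.1 (hTc ht)
  have hsI := hTs s hsT
  have h4 := hU' s hsI t hts
  have hρi : MemLp (ρ i t) ∞ m := mem_top_iff.2 ⟨R, hR i t ht⟩
  have hρ0 : MemLp (ρ₀ t) ∞ m := mem_top_iff.2 ⟨R, hR₀ t ht⟩
  have e1 : I (ρ i t * f t) = I (ρ i t * (f t - f s)) + I (ρ i t * f s) := by
    rw [← I_add (mem_mul_top hρi (mem_sub (hf t ht) (hf s hsI))) (mem_mul_top hρi (hf s hsI))]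
    congr 1; ring
  have e2 : I (ρ₀ t * f t) = I (ρ₀ t * (f t - f s)) + I (ρ₀ t * f s) := by
    rw [← I_add (mem_mul_top hρ0 (mem_sub (hf t ht) (hf s hsI))) (mem_mul_top hρ0 (hf s hsI))]
    congr 1; ring
  have e3 := I_mul_le (hR i t ht) (mem_sub (hf t ht) (hf s hsI))
  have e4 := I_mul_le (hR₀ t ht) (mem_sub (hf t ht) (hf s hsI))
  have e5 : R * n1 (f t - f s) ≤ ε / 3 := by
    calc R * n1 (f t - f s) ≤ (R + 1) * δ :=
          mul_le_mul (by linarith) h4.le (n1_nonneg _) (by linarith)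
      _ = ε / 3 := by rw [hδ]; field_simp
  have e6 := hi s hsT t ht
  calc |I (ρ i t * f t) - I (ρ₀ t * f t)|
      = |I (ρ i t * (f t - f s)) + (I (ρ i t * f s) - I (ρ₀ t * f s))
          - I (ρ₀ t * (f t - f s))| := by rw [e1, e2]; ring_nf
    _ ≤ |I (ρ i t * (f t - f s))| + |I (ρ i t * f s) - I (ρ₀ t * f s)|
          + |I (ρ₀ t * (f t - f s))| :=
        (abs_sub _ _).trans (add_le_add (abs_add_le _ _) le_rfl)
    _ ≤ ε := by linarith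

/-- Cauchy-Schwarz with three weights, `w² ≤ w₁ w₂` -/
theorem cs3 (hD : IsDir C) {w w₁ w₂ f g : M →ₘ[m] ℝ} (hw : MemLp w ∞ m) (h₁ : 0 ≤ w₁)
    (h₁t : MemLp w₁ ∞ m) (h₂ : 0 ≤ w₂) (h₂t : MemLp w₂ ∞ m)
    (h : ∀ᵐ x ∂m, w x ^ 2 ≤ w₁ x * w₂ x) (hf : f ∈ C.W) (hg : g ∈ C.W) :
    |I (w * C.Γ f g)| ≤ √(I (w₁ * C.Γ f f)) * √(I (w₂ * C.Γ g g)) := by
  have ia : MemLp (w₁ * C.Γ f f : M →ₘ[m] ℝ) 1 m := mem_mul_top h₁t (hD.mem1 _ hf)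
  have ib : MemLp (w₂ * C.Γ g g : M →ₘ[m] ℝ) 1 m := mem_mul_top h₂t (hD.mem1 _ hg)
  have iab : MemLp (w * C.Γ f g : M →ₘ[m] ℝ) 1 m := mem_mul_top hw (hD.Γ_mem1 hf hg)
  have hsq : I (w * C.Γ f g) ^ 2 ≤ I (w₁ * C.Γ f f) * I (w₂ * C.Γ g g) := by
    refine disc_of_forall fun t => ?_
    have h1 : I (w₁ * C.Γ f f + (2 * t) • (w * C.Γ f g) + (t ^ 2) • (w₂ * C.Γ g g))
        = I (w₁ * C.Γ f f) + 2 * t * I (w * C.Γ f g) + t ^ 2 * I (w₂ * C.Γ g g) := by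
      rw [I_add (mem_add ia (mem_smul _ iab)) (mem_smul _ ib), I_add ia (mem_smul _ iab),
        I_smul, I_smul]
    rw [← h1]
    refine I_nonneg (nonneg_iff_ae.2 ?_)
    filter_upwards [hD.Γ_cs_ae hf hg, hD.Γ_nonneg_ae hf, hD.Γ_nonneg_ae hg, h,
      nonneg_iff_ae.1 h₁, nonneg_iff_ae.1 h₂, mul_ae w₁ (C.Γ f f), mul_ae w₂ (C.Γ g g),
      mul_ae w (C.Γ f g), smul_ae (w * C.Γ f g) (2 * t), smul_ae (w₂ * C.Γ g g) (t ^ 2),
      add_ae (w₁ * C.Γ f f + (2 * t) • (w * C.Γ f g)) ((t ^ 2) • (w₂ * C.Γ g g)),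
      add_ae (w₁ * C.Γ f f) ((2 * t) • (w * C.Γ f g))] with x a1 a2 a3 a4 a5 a6 b1 b2 b3 b4 b5 b6 b7
    rw [b6, b7, b5, b4, b1, b2, b3]
    set A := w₁ x * C.Γ f f x
    set B := w₂ x * C.Γ g g x
    set c := w x * C.Γ f g x
    have hA : 0 ≤ A := mul_nonneg a5 a2
    have hB : 0 ≤ B := mul_nonneg a6 a3
    have hc : c ^ 2 ≤ A * B := by
      calc c ^ 2 = w x ^ 2 * C.Γ f g x ^ 2 := by ring
        _ ≤ (w₁ x * w₂ x) * (C.Γ f f x * C.Γ g g x) :=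
            mul_le_mul a4 a1 (sq_nonneg _) (mul_nonneg a5 a6)
        _ = A * B := by ring
    have hc2 : |c| ≤ √A * √B := by
      rw [← Real.sqrt_mul hA]; exact Real.abs_le_sqrt hc
    have h5 : -(|t| * |c|) ≤ t * c := by
      rw [← abs_mul]; exact neg_abs_le _
    nlinarith [Real.sq_sqrt hA, Real.sq_sqrt hB, sq_nonneg (√A - |t| * √B), abs_nonneg t,
      mul_le_mul_of_nonneg_left hc2 (abs_nonneg t), sq_abs t]
  rw [← Real.sqrt_mul (I_nonneg (mul_nonneg h₁ (hD.nonneg _ hf)))]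
  exact Real.abs_le_sqrt hsq

/-- the integral of `w Γ(g,g)` for `w ∈ L¹`, `Γ(g,g) ≤ K` -/
theorem I_wΓ_le {w w' : M →ₘ[m] ℝ} (h1 : MemLp (w * w' : M →ₘ[m] ℝ) 1 m) (h0 : 0 ≤ w)
    (h2 : MemLp w 1 m) {K : ℝ} (hK : ∀ᵐ x ∂m, w' x ≤ K) : I (w * w') ≤ K * I w := by
  rw [← I_smul]
  refine I_mono h1 (mem_smul _ h2) (le_iff_ae.2 ?_)
  filter_upwards [mul_ae w w', smul_ae w K, nonneg_iff_ae.1 h0, hK] with x a1 a2 a3 a4
  rw [a1, a2, mul_comm]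
  exact mul_le_mul_of_nonneg_right a4 a3

theorem exists_sign (f : M →ₘ[m] ℝ) : ∃ σ : M →ₘ[m] ℝ, (∀ᵐ x ∂m, |σ x| ≤ 1) ∧
    ∀ᵐ x ∂m, σ x * f x = |f x| := by
  have hm : AEStronglyMeasurable (fun x => if 0 ≤ f x then (1 : ℝ) else -1) m :=
    (Measurable.ite (measurableSet_le measurable_const f.measurable) measurable_const
      measurable_const).aestronglyMeasurable
  refine ⟨AEEqFun.mk _ hm, ?_, ?_⟩
  · filter_upwards [AEEqFun.coeFn_mk _ hm] with x hx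
    rw [hx]; split_ifs <;> simp
  · filter_upwards [AEEqFun.coeFn_mk _ hm] with x hx
    rw [hx]
    split_ifs with h
    · rw [one_mul, abs_of_nonneg h]
    · rw [abs_of_neg (not_le.1 h)]; ring

/-- `‖w Γ(f,g)‖₁ ≤ (∫ w₁ Γ(f,f))^(1/2) (∫ w₂ Γ(g,g))^(1/2)` if `w² ≤ w₁ w₂` -/
theorem n1_cs3 (hD : IsDir C) {w w₁ w₂ f g : M →ₘ[m] ℝ} (hw : MemLp w ∞ m) (h₁ : 0 ≤ w₁)
    (h₁t : MemLp w₁ ∞ m) (h₂ : 0 ≤ w₂) (h₂t : MemLp w₂ ∞ m)
    (h : ∀ᵐ x ∂m, w x ^ 2 ≤ w₁ x * w₂ x) (hf : f ∈ C.W) (hg : g ∈ C.W) :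
    n1 (w * C.Γ f g) ≤ √(I (w₁ * C.Γ f f)) * √(I (w₂ * C.Γ g g)) := by
  obtain ⟨σ, hσ, hσ'⟩ := exists_sign (w * C.Γ f g)
  have σt : MemLp σ ∞ m := mem_top_iff.2 ⟨1, hσ⟩
  have e : n1 (w * C.Γ f g) = I ((σ * w) * C.Γ f g) := by
    unfold n1 I
    refine integral_congr_ae ?_
    filter_upwards [hσ', mul_ae (σ * w) (C.Γ f g), mul_ae σ w, mul_ae w (C.Γ f g)]
      with x a1 a2 a3 a4
    rw [a2, a3, ← a1, a4]; ring
  rw [e]
  refine (le_abs_self _).trans (cs3 hD (mem_mul_top σt hw) h₁ h₁t h₂ h₂t ?_ hf hg)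
  filter_upwards [h, hσ, mul_ae σ w] with x a1 a2 a3
  rw [a3, mul_pow]
  have : σ x ^ 2 ≤ 1 := by
    rw [← sq_abs]; exact pow_le_one₀ (abs_nonneg _) a2
  nlinarith [sq_nonneg (w x)]

theorem Γ_sub_sub (hD : IsDir C) {f g : M →ₘ[m] ℝ} (hf : f ∈ C.W) (hg : g ∈ C.W) :
    C.Γ f f - C.Γ g g = C.Γ (f - g) (f + g) := by
  rw [hD.Γ_sub_left hf hg (hD.add_mem _ hf _ hg), hD.Γ_add_right hf hf hg,
    hD.Γ_add_right hg hf hg, hD.symm g hg f hf]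
  abel

theorem Γ_add_le4 (hD : IsDir C) {f g : M →ₘ[m] ℝ} (hf : f ∈ C.W) (hg : g ∈ C.W) {K : ℝ}
    (h1 : ∀ᵐ x ∂m, C.Γ f f x ≤ K) (h2 : ∀ᵐ x ∂m, C.Γ g g x ≤ K) :
    ∀ᵐ x ∂m, C.Γ (f + g) (f + g) x ≤ 4 * K := by
  have e : C.Γ (f + g) (f + g) = C.Γ f f + (2 * (1 : ℝ)) • C.Γ f g + ((1 : ℝ) ^ 2) • C.Γ g g := by
    rw [← hD.Γ_expand 1 hf hg, one_smul]
  filter_upwards [hD.Γ_cs_ae hf hg, h1, h2, hD.Γ_nonneg_ae hf, hD.Γ_nonneg_ae hg,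
    add_ae (C.Γ f f + (2 * (1 : ℝ)) • C.Γ f g) (((1 : ℝ) ^ 2) • C.Γ g g),
    add_ae (C.Γ f f) ((2 * (1 : ℝ)) • C.Γ f g), smul_ae (C.Γ f g) (2 * 1),
    smul_ae (C.Γ g g) (1 ^ 2)] with x a1 a2 a3 a4 a5 b1 b2 b3 b4
  rw [e, b1, b2, b3, b4]
  nlinarith [sq_nonneg (C.Γ f g x), sq_nonneg (C.Γ f f x - C.Γ g g x), mul_nonneg a4 a5,
    abs_le_of_sq_le_sq' (show C.Γ f g x ^ 2 ≤ ((C.Γ f f x + C.Γ g g x) / 2) ^ 2 by
      nlinarith [sq_nonneg (C.Γ f f x - C.Γ g g x)]) (by linarith)]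

/-- Hypotheses on a family of entropic flows (potentials `u`, current velocities `∇θ`, densities
`ρ`) and its limit `u₀`, `ρ₀` on the time interval `[a,b]`, with a local weight `χ`. -/
structure LimHyp (C : Calc m) (L : Filter ι) (ρ θ u : ι → ℝ → M →ₘ[m] ℝ)
    (ρ₀ u₀ : ℝ → M →ₘ[m] ℝ) (χ : M →ₘ[m] ℝ) (R K a b : ℝ) : Prop where
  hR : 0 ≤ R
  hK : 0 ≤ K
  χ0 : 0 ≤ χ
  χ1 : MemLp χ 1 m
  χt : MemLp χ ∞ m
  ρ0 : ∀ i, ∀ t ∈ Icc a b, 0 ≤ ρ i t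
  ρR : ∀ i, ∀ t ∈ Icc a b, ∀ᵐ x ∂m, ρ i t x ≤ R
  ρ₀0 : ∀ t ∈ Icc a b, 0 ≤ ρ₀ t
  ρ₀R : ∀ t ∈ Icc a b, ∀ᵐ x ∂m, ρ₀ t x ≤ R
  θW : ∀ i, ∀ t ∈ Icc a b, θ i t ∈ C.W
  θK : ∀ i, ∀ t ∈ Icc a b, ∀ᵐ x ∂m, C.Γ (θ i t) (θ i t) x ≤ K
  uW : ∀ i, ∀ t ∈ Icc a b, u i t ∈ C.W
  uK : ∀ i, ∀ t ∈ Icc a b, ∀ᵐ x ∂m, C.Γ (u i t) (u i t) x ≤ K
  u₀W : ∀ t ∈ Icc a b, u₀ t ∈ C.W
  u₀K : ∀ t ∈ Icc a b, ∀ᵐ x ∂m, C.Γ (u₀ t) (u₀ t) x ≤ K
  /-- weak-* convergence of the densities, uniformly in time -/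
  weak : ∀ f : M →ₘ[m] ℝ, MemLp f 1 m → UnifC L (fun i t => I (ρ i t * f))
    (fun t => I (ρ₀ t * f)) a b
  /-- strong local convergence of the gradients, uniformly in time -/
  strong : UnifC L (fun i t => I (χ * C.Γ (u i t - u₀ t) (u i t - u₀ t))) (fun _ => 0) a b
  /-- `ε ∇L → 0` in `L²(ρ)` -/
  osm : UnifC L (fun i t => I (ρ i t * C.Γ (θ i t - u i t) (θ i t - u i t))) (fun _ => 0) a b
  /-- continuity in time of the limit -/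
  cont : ∀ t ∈ Icc a b, Tendsto (fun s => I (χ * C.Γ (u₀ s - u₀ t) (u₀ s - u₀ t)))
    (𝓝[Icc a b] t) (𝓝 0)

/-- from squares: if `|x_i(t)| ≤ K √(y_i(t))` and `y → 0` uniformly then `x → 0` uniformly -/
theorem unif_sqrt {x y : ι → ℝ → ℝ} {K : ℝ} (h : UnifC L y (fun _ => 0) a b)
    (h' : ∀ i, ∀ t ∈ Icc a b, |x i t| ≤ K * √(y i t)) : UnifC L x (fun _ => 0) a b := by
  intro ε hε
  have hpos : 0 < (ε / (|K| + 1)) ^ 2 := by positivity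
  filter_upwards [h _ hpos] with i hi t ht
  rw [sub_zero]
  have h1 := hi t ht
  rw [sub_zero] at h1
  have h2 : √(y i t) ≤ ε / (|K| + 1) := by
    rw [← Real.sqrt_sq (by positivity : 0 ≤ ε / (|K| + 1))]
    exact Real.sqrt_le_sqrt ((le_abs_self _).trans h1)
  calc |x i t| ≤ K * √(y i t) := h' i t ht
    _ ≤ (|K| + 1) * √(y i t) :=
        mul_le_mul_of_nonneg_right (by linarith [le_abs_self K]) (Real.sqrt_nonneg _)
    _ ≤ (|K| + 1) * (ε / (|K| + 1)) := mul_le_mul_of_nonneg_left h2 (by positivity)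
    _ = ε := by field_simp

variable {ρ θ u : ι → ℝ → M →ₘ[m] ℝ} {ρ₀ u₀ : ℝ → M →ₘ[m] ℝ} {χ : M →ₘ[m] ℝ} {R K : ℝ}

theorem LimHyp.ρt (H : LimHyp C L ρ θ u ρ₀ u₀ χ R K a b) (i : ι) {t : ℝ} (ht : t ∈ Icc a b) :
    MemLp (ρ i t) ∞ m :=
  mem_top_iff.2 ⟨R, by
    filter_upwards [H.ρR i t ht, nonneg_iff_ae.1 (H.ρ0 i t ht)] with x h1 h2
    rwa [abs_of_nonneg h2]⟩

theorem LimHyp.ρ₀t (H : LimHyp C L ρ θ u ρ₀ u₀ χ R K a b) {t : ℝ} (ht : t ∈ Icc a b) :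
    MemLp (ρ₀ t) ∞ m :=
  mem_top_iff.2 ⟨R, by
    filter_upwards [H.ρ₀R t ht, nonneg_iff_ae.1 (H.ρ₀0 t ht)] with x h1 h2
    rwa [abs_of_nonneg h2]⟩

/-- **quadratic term**: `∫ ρ w |∇θ|² → ∫ ρ₀ w |∇u₀|²` uniformly in time, for a local bounded
weight `w`, `|w| ≤ A χ`. -/
theorem LimHyp.quad (hD : IsDir C) (H : LimHyp C L ρ θ u ρ₀ u₀ χ R K a b) {w : M →ₘ[m] ℝ}
    {A : ℝ} (hA : 0 ≤ A) (hw : ∀ᵐ x ∂m, |w x| ≤ A * χ x) :
    UnifC L (fun i t => I (ρ i t * (w * C.Γ (θ i t) (θ i t))))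
      (fun t => I (ρ₀ t * (w * C.Γ (u₀ t) (u₀ t)))) a b := by
  have hχ0 := nonneg_iff_ae.1 H.χ0
  obtain ⟨X, hX⟩ := mem_top_iff.1 H.χt
  have wt : MemLp w ∞ m := mem_top_iff.2 ⟨A * X, by
    filter_upwards [hw, hX] with x h1 h2
    exact h1.trans (mul_le_mul_of_nonneg_left ((le_abs_self _).trans h2) hA)⟩
  have w1 : MemLp w 1 m := by
    refine mem_of_le (mem_smul A H.χ1) ?_
    filter_upwards [hw, smul_ae χ A, hχ0] with x h1 h2 h3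
    rw [h2, abs_of_nonneg (mul_nonneg hA h3)]
    exact h1
  have w2 : MemLp (w ^ 2 : M →ₘ[m] ℝ) 1 m := by rw [sq]; exact mem_mul_top wt w1
  have w2t : MemLp (w ^ 2 : M →ₘ[m] ℝ) ∞ m := by rw [sq]; exact mem_mul_top wt wt
  -- step 1 : replace `θ` by `u`
  have s1 : UnifC L (fun i t => I (ρ i t * (w * C.Γ (θ i t) (θ i t)))
      - I (ρ i t * (w * C.Γ (u i t) (u i t)))) (fun _ => 0) a b := by
    refine unif_sqrt (K := √(4 * K * (R * I (w ^ 2)))) H.osm fun i t ht => ?_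
    have hρt := H.ρt i ht
    have hθ := H.θW i t ht
    have hu := H.uW i t ht
    have e1 : I (ρ i t * (w * C.Γ (θ i t) (θ i t))) - I (ρ i t * (w * C.Γ (u i t) (u i t)))
        = I ((ρ i t * w) * C.Γ (θ i t - u i t) (θ i t + u i t)) := by
      rw [← I_sub (mem_mul_top hρt (mem_mul_top wt (hD.mem1 _ hθ)))
        (mem_mul_top hρt (mem_mul_top wt (hD.mem1 _ hu))), ← Γ_sub_sub hD hθ hu]
      congr 1; ring
    rw [e1]
    have e2 := cs3 hD (w := ρ i t * w) (w₁ := ρ i t) (w₂ := ρ i t * w ^ 2)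
      (mem_mul_top hρt wt) (H.ρ0 i t ht) hρt (mul_nonneg (H.ρ0 i t ht) (sq_nonneg' w))
      (mem_mul_top hρt w2t) (by
        filter_upwards [mul_ae (ρ i t) w, mul_ae (ρ i t) (w ^ 2), sq_ae w] with x b1 b2 b3
        rw [b1, b2, b3]; exact le_of_eq (by ring))
      (hD.sub_mem hθ hu) (hD.add_mem _ hθ _ hu)
    refine e2.trans ?_
    rw [mul_comm]
    refine mul_le_mul_of_nonneg_right (Real.sqrt_le_sqrt ?_) (Real.sqrt_nonneg _)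
    have e3 := I_wΓ_le (w := ρ i t * w ^ 2) (w' := C.Γ (θ i t + u i t) (θ i t + u i t))
      (mem_mul_top (mem_mul_top hρt w2t) (hD.mem1 _ (hD.add_mem _ hθ _ hu)))
      (mul_nonneg (H.ρ0 i t ht) (sq_nonneg' w)) (mem_mul_top hρt w2)
      (Γ_add_le4 hD hθ hu (H.θK i t ht) (H.uK i t ht))
    refine e3.trans (mul_le_mul_of_nonneg_left ?_ (by linarith [H.hK]))
    rw [← I_smul]
    refine I_mono (mem_mul_top hρt w2) (mem_smul _ w2) (le_iff_ae.2 ?_)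
    filter_upwards [mul_ae (ρ i t) (w ^ 2), smul_ae (w ^ 2) R, H.ρR i t ht, sq_ae w]
      with x b1 b2 b3 b4
    rw [b1, b2, b4]
    exact mul_le_mul_of_nonneg_right b3 (sq_nonneg _)
  -- step 2 : replace `u` by `u₀`
  have s2 : UnifC L (fun i t => I (ρ i t * (w * C.Γ (u i t) (u i t)))
      - I (ρ i t * (w * C.Γ (u₀ t) (u₀ t)))) (fun _ => 0) a b := by
    refine unif_sqrt (K := √(4 * K * ((A * R) ^ 2 * I χ))) H.strong fun i t ht => ?_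
    have hρt := H.ρt i ht
    have hu := H.uW i t ht
    have hu₀ := H.u₀W t ht
    have e1 : I (ρ i t * (w * C.Γ (u i t) (u i t))) - I (ρ i t * (w * C.Γ (u₀ t) (u₀ t)))
        = I ((ρ i t * w) * C.Γ (u i t - u₀ t) (u i t + u₀ t)) := by
      rw [← I_sub (mem_mul_top hρt (mem_mul_top wt (hD.mem1 _ hu)))
        (mem_mul_top hρt (mem_mul_top wt (hD.mem1 _ hu₀))), ← Γ_sub_sub hD hu hu₀]
      congr 1; ring
    rw [e1]
    have hAR : 0 ≤ (A * R) ^ 2 := sq_nonneg _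
    have e2 := cs3 hD (w := ρ i t * w) (w₁ := χ) (w₂ := (A * R) ^ 2 • χ)
      (mem_mul_top hρt wt) H.χ0 H.χt (smul_nonneg' hAR H.χ0) (mem_smul _ H.χt) (by
        filter_upwards [mul_ae (ρ i t) w, smul_ae χ ((A * R) ^ 2), hw, H.ρR i t ht, hχ0,
          nonneg_iff_ae.1 (H.ρ0 i t ht)] with x b1 b2 b3 b4 b5 b6
        rw [b1, b2]
        have c1 : |ρ i t x * w x| ≤ R * (A * χ x) := by
          rw [abs_mul, abs_of_nonneg b6]
          exact mul_le_mul b4 b3 (abs_nonneg _) H.hR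
        have c2 : (ρ i t x * w x) ^ 2 ≤ (R * (A * χ x)) ^ 2 := by
          rw [← sq_abs]; exact pow_le_pow_left₀ (abs_nonneg _) c1 2
        exact c2.trans (le_of_eq (by ring)))
      (hD.sub_mem hu hu₀) (hD.add_mem _ hu _ hu₀)
    refine e2.trans ?_
    rw [mul_comm]
    refine mul_le_mul_of_nonneg_right (Real.sqrt_le_sqrt ?_) (Real.sqrt_nonneg _)
    have e3 := I_wΓ_le (w := (A * R) ^ 2 • χ) (w' := C.Γ (u i t + u₀ t) (u i t + u₀ t))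
      (mem_mul_top (mem_smul _ H.χt) (hD.mem1 _ (hD.add_mem _ hu _ hu₀)))
      (smul_nonneg' hAR H.χ0) (mem_smul _ H.χ1)
      (Γ_add_le4 hD hu hu₀ (H.uK i t ht) (H.u₀K t ht))
    rwa [I_smul] at e3
  -- step 3 : weak convergence with the time dependent weight
  have s3 : UnifC L (fun i t => I (ρ i t * (w * C.Γ (u₀ t) (u₀ t))))
      (fun t => I (ρ₀ t * (w * C.Γ (u₀ t) (u₀ t)))) a b := by
    refine unif_weak H.hR (fun i t ht => ?_) (fun t ht => ?_) H.weak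
      (fun t ht => mem_mul_top wt (hD.mem1 _ (H.u₀W t ht))) (fun t ht => ?_)
    · filter_upwards [H.ρR i t ht, nonneg_iff_ae.1 (H.ρ0 i t ht)] with x h1 h2
      rwa [abs_of_nonneg h2]
    · filter_upwards [H.ρ₀R t ht, nonneg_iff_ae.1 (H.ρ₀0 t ht)] with x h1 h2
      rwa [abs_of_nonneg h2]
    · -- `L¹` continuity
      have hc := H.cont t ht
      have h5 : Tendsto (fun s => √(4 * K * (A ^ 2 * I χ)) *
          √(I (χ * C.Γ (u₀ s - u₀ t) (u₀ s - u₀ t)))) (𝓝[Icc a b] t) (𝓝 0) := by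
        have h6 := (Real.continuous_sqrt.tendsto 0).comp hc
        rw [Real.sqrt_zero] at h6
        simpa using h6.const_mul (√(4 * K * (A ^ 2 * I χ)))
      refine squeeze_zero' (Eventually.of_forall fun s => n1_nonneg _) ?_ h5
      filter_upwards [self_mem_nhdsWithin] with s hs
      have hus := H.u₀W s hs
      have hut := H.u₀W t ht
      have e1 : w * C.Γ (u₀ s) (u₀ s) - w * C.Γ (u₀ t) (u₀ t)
          = w * C.Γ (u₀ s - u₀ t) (u₀ s + u₀ t) := by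
        rw [← Γ_sub_sub hD hus hut]; ring
      rw [e1, mul_comm (√(4 * K * (A ^ 2 * I χ)))]
      have e2 := n1_cs3 hD (w := w) (w₁ := χ) (w₂ := A ^ 2 • χ) wt H.χ0 H.χt
        (smul_nonneg' (sq_nonneg A) H.χ0) (mem_smul _ H.χt) (by
          filter_upwards [hw, smul_ae χ (A ^ 2), hχ0] with x b1 b2 b3
          rw [b2]
          have c2 : w x ^ 2 ≤ (A * χ x) ^ 2 := by
            rw [← sq_abs]; exact pow_le_pow_left₀ (abs_nonneg _) b1 2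
          exact c2.trans (le_of_eq (by ring)))
        (hD.sub_mem hus hut) (hD.add_mem _ hus _ hut)
      refine e2.trans (mul_le_mul_of_nonneg_left (Real.sqrt_le_sqrt ?_) (Real.sqrt_nonneg _))
      have e3 := I_wΓ_le (w := A ^ 2 • χ) (w' := C.Γ (u₀ s + u₀ t) (u₀ s + u₀ t))
        (mem_mul_top (mem_smul _ H.χt) (hD.mem1 _ (hD.add_mem _ hus _ hut)))
        (smul_nonneg' (sq_nonneg A) H.χ0) (mem_smul _ H.χ1)
        (Γ_add_le4 hD hus hut (H.u₀K s hs) (H.u₀K t ht))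
      rwa [I_smul] at e3
  have s4 := (s1.add s2).add s3
  intro ε hε
  filter_upwards [s4 ε hε] with i hi t ht
  have := hi t ht
  simp only [zero_add] at this
  rw [show I (ρ i t * (w * C.Γ (θ i t) (θ i t))) - I (ρ i t * (w * C.Γ (u i t) (u i t)))
    + (I (ρ i t * (w * C.Γ (u i t) (u i t))) - I (ρ i t * (w * C.Γ (u₀ t) (u₀ t))))
    + I (ρ i t * (w * C.Γ (u₀ t) (u₀ t))) - I (ρ₀ t * (w * C.Γ (u₀ t) (u₀ t)))
    = I (ρ i t * (w * C.Γ (θ i t) (θ i t))) - I (ρ₀ t * (w * C.Γ (u₀ t) (u₀ t))) by ring] at this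
  exact this

/-- **linear term**: `∫ ρ <∇F,∇θ> → ∫ ρ₀ <∇F,∇u₀>` for a local Lipschitz function `F`
(`A χ` is at least `1` where `∇F ≠ 0`). -/
theorem LimHyp.lin (hD : IsDir C) (H : LimHyp C L ρ θ u ρ₀ u₀ χ R K a b) {F : M →ₘ[m] ℝ}
    (hF : F ∈ C.W) (hχF : ∀ g ∈ C.W, χ * C.Γ F g = C.Γ F g) {t : ℝ} (ht : t ∈ Icc a b) :
    Tendsto (fun i => I (ρ i t * C.Γ F (θ i t))) L (𝓝 (I (ρ₀ t * C.Γ F (u₀ t)))) := by
  have hu₀ := H.u₀W t ht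
  have z0 : UnifC L (fun i s => I (ρ i t * C.Γ F (u₀ t)) - I (ρ₀ t * C.Γ F (u₀ t)))
      (fun _ => 0) t t := by
    intro ε hε
    filter_upwards [H.weak (C.Γ F (u₀ t)) (hD.Γ_mem1 hF hu₀) ε hε] with i hi s _
    rw [sub_zero]; exact hi t ht
  have s1 : Tendsto (fun i => I (ρ i t * C.Γ F (θ i t)) - I (ρ i t * C.Γ F (u i t))) L (𝓝 0) := by
    have h1 : Tendsto (fun i => √(R * I (C.Γ F F)) *
        √(I (ρ i t * C.Γ (θ i t - u i t) (θ i t - u i t)))) L (𝓝 0) := by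
      have h6 := (Real.continuous_sqrt.tendsto 0).comp (H.osm.tendsto ht)
      rw [Real.sqrt_zero] at h6
      simpa using h6.const_mul (√(R * I (C.Γ F F)))
    refine squeeze_zero_norm' (Eventually.of_forall fun i => ?_) h1
    have hρt := H.ρt i ht
    have hθ := H.θW i t ht
    have hu := H.uW i t ht
    rw [Real.norm_eq_abs, ← I_sub (mem_mul_top hρt (hD.Γ_mem1 hF hθ))
      (mem_mul_top hρt (hD.Γ_mem1 hF hu)), ← mul_sub, ← hD.Γ_sub_right hF hθ hu]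
    have e2 := cs3 hD (w := ρ i t) (w₁ := ρ i t) (w₂ := ρ i t) hρt (H.ρ0 i t ht) hρt
      (H.ρ0 i t ht) hρt (Eventually.of_forall fun x => le_of_eq (sq _)) hF (hD.sub_mem hθ hu)
    refine e2.trans (mul_le_mul_of_nonneg_right (Real.sqrt_le_sqrt ?_) (Real.sqrt_nonneg _))
    rw [← I_smul]
    refine I_mono (mem_mul_top hρt (hD.mem1 _ hF)) (mem_smul _ (hD.mem1 _ hF)) (le_iff_ae.2 ?_)
    filter_upwards [mul_ae (ρ i t) (C.Γ F F), smul_ae (C.Γ F F) R, H.ρR i t ht,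
      hD.Γ_nonneg_ae hF] with x b1 b2 b3 b4
    rw [b1, b2]
    exact mul_le_mul_of_nonneg_right b3 b4
  have s2 : Tendsto (fun i => I (ρ i t * C.Γ F (u i t)) - I (ρ i t * C.Γ F (u₀ t))) L (𝓝 0) := by
    have h1 : Tendsto (fun i => √(R ^ 2 * I (χ * C.Γ F F)) *
        √(I (χ * C.Γ (u i t - u₀ t) (u i t - u₀ t)))) L (𝓝 0) := by
      have h6 := (Real.continuous_sqrt.tendsto 0).comp (H.strong.tendsto ht)
      rw [Real.sqrt_zero] at h6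
      simpa using h6.const_mul (√(R ^ 2 * I (χ * C.Γ F F)))
    refine squeeze_zero_norm' (Eventually.of_forall fun i => ?_) h1
    have hρt := H.ρt i ht
    have hu := H.uW i t ht
    have e1 : I (ρ i t * C.Γ F (u i t)) - I (ρ i t * C.Γ F (u₀ t))
        = I ((ρ i t * χ) * C.Γ F (u i t - u₀ t)) := by
      rw [← I_sub (mem_mul_top hρt (hD.Γ_mem1 hF hu))
        (mem_mul_top hρt (hD.Γ_mem1 hF hu₀)), ← mul_sub, ← hD.Γ_sub_right hF hu hu₀, mul_assoc,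
        hχF _ (hD.sub_mem hu hu₀)]
    rw [Real.norm_eq_abs, e1]
    have e2 := cs3 hD (w := ρ i t * χ) (w₁ := R ^ 2 • χ) (w₂ := χ) (mem_mul_top hρt H.χt)
      (smul_nonneg' (sq_nonneg R) H.χ0) (mem_smul _ H.χt) H.χ0 H.χt (by
        filter_upwards [mul_ae (ρ i t) χ, smul_ae χ (R ^ 2), H.ρR i t ht,
          nonneg_iff_ae.1 (H.ρ0 i t ht), nonneg_iff_ae.1 H.χ0] with x b1 b2 b3 b4 b5
        rw [b1, b2]
        have c2 : (ρ i t x * χ x) ^ 2 ≤ (R * χ x) ^ 2 :=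
          pow_le_pow_left₀ (mul_nonneg b4 b5) (mul_le_mul_of_nonneg_right b3 b5) 2
        exact c2.trans (le_of_eq (by ring))) hF (hD.sub_mem hu hu₀)
    refine e2.trans (mul_le_mul_of_nonneg_right (le_of_eq ?_) (Real.sqrt_nonneg _))
    rw [smul_mul_assoc, I_smul]
  have s3 : Tendsto (fun i => I (ρ i t * C.Γ F (u₀ t)) - I (ρ₀ t * C.Γ F (u₀ t))) L (𝓝 0) :=
    z0.tendsto ⟨le_rfl, le_rfl⟩
  have s4 := (s1.add s2).add s3
  rw [add_zero, add_zero] at s4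
  have s5 := s4.add_const (I (ρ₀ t * C.Γ F (u₀ t)))
  rw [zero_add] at s5
  refine s5.congr fun i => ?_
  ring

end H368

end Vale.Agent.P233
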