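import Vale.Agent.P233.H788.LipT
import Vale.Agent.P233.H886.KD2

/-! P233, RCDA (helper368): Taylor estimate of the heat flow in the sup norm. -/

set_option linter.all false

open MeasureTheory Filter Topology Set
open scoped ENNReal NNReal

universe u

namespace Vale.Agent.P233.H368

variable {M : Type u} [MeasurableSpace M] {m : Measure M} {C : Calc m}

/-- `s ↦ ∫ P_s f ψ` has the derivative `∫ P_s (Δf) ψ` on `[0,∞)` -/
theorem hasDeriv_I_P (hC : IsDir C) {f h ψ : M →ₘ[m] ℝ} (hfh : C.IsLap f h) (hψ : MemLp ψ 2 m)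
    {t : ℝ} (ht : 0 ≤ t) :
    HasDerivWithinAt (fun s => I (C.P s f * ψ)) (I (C.P t h * ψ)) (Ici 0) t := by
  have hf : MemLp f 2 m := hC.memLp f hfh.1
  have hh : MemLp h 2 m := hfh.2.1
  rw [hasDerivWithinAt_iff_tendsto_slope]
  have h1 := hC.P_derivD ht hfh
  have h2 : Tendsto (fun s => Real.sqrt (I (((s - t)⁻¹ • (C.P s f - C.P t f) - C.P t h) ^ 2))
      * Real.sqrt (I (ψ ^ 2))) (𝓝[Ici 0 \ {t}] t) (𝓝 0) := by
    have := (Real.continuous_sqrt.tendsto _).comp h1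
    rw [Real.sqrt_zero] at this
    simpa using this.mul_const (Real.sqrt (I (ψ ^ 2)))
  rw [tendsto_iff_dist_tendsto_zero]
  refine squeeze_zero' (Eventually.of_forall fun _ => dist_nonneg) ?_ h2
  filter_upwards [self_mem_nhdsWithin] with s hs
  have ms := hC.P_mem2 s hf
  have mt := hC.P_mem2 t hf
  have mh := hC.P_mem2 t hh
  have e1 : _root_.slope (fun s => I (C.P s f * ψ)) t s - I (C.P t h * ψ)
      = I (((s - t)⁻¹ • (C.P s f - C.P t f) - C.P t h) * ψ) := by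
    rw [sub_mul, I_sub (mem_mul_22 (mem_smul _ (mem_sub ms mt)) hψ) (mem_mul_22 mh hψ),
      smul_mul_assoc, I_smul, sub_mul, I_sub (mem_mul_22 ms hψ) (mem_mul_22 mt hψ)]
    rfl
  rw [Real.dist_eq, e1]
  exact I_abs_le (mem_sub (mem_smul _ (mem_sub ms mt)) mh) hψ

/-- a bound of the integral against `ψ` from a bound in the sup norm -/
theorem abs_I_le {F ψ : M →ₘ[m] ℝ} (hF : MemLp F 2 m) (h2 : MemLp ψ 2 m) (h1 : MemLp ψ 1 m)
    (h0 : 0 ≤ ψ) {L : ℝ} (hL : ∀ᵐ x ∂m, |F x| ≤ L) : |I (F * ψ)| ≤ L * I ψ := by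
  have m1 := mem_mul_22 hF h2
  rw [← I_smul]
  unfold I
  refine abs_integral_le_integral_abs.trans ?_
  refine integral_mono_ae (int_of_mem m1).abs (int_of_mem (mem_smul L h1)) ?_
  filter_upwards [mul_ae F ψ, smul_ae ψ L, hL, nonneg_iff_ae.1 h0] with x a1 a2 a3 a4
  simp only [a1, a2, abs_mul, abs_of_nonneg a4]
  exact mul_le_mul_of_nonneg_right a3 a4

/-- the heat flow is Lipschitz in time in the sup norm -/
theorem P_lip_sup (hC : IsDir C) {f h : M →ₘ[m] ℝ} (hfh : C.IsLap f h) {L : ℝ} (hL0 : 0 ≤ L)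
    (hL : ∀ᵐ x ∂m, |h x| ≤ L) {s t : ℝ} (hs : 0 ≤ s) (ht : 0 ≤ t) :
    ∀ᵐ x ∂m, |(C.P s f - C.P t f : M →ₘ[m] ℝ) x| ≤ L * |s - t| := by
  have hf : MemLp f 2 m := hC.memLp f hfh.1
  have hh : MemLp h 2 m := hfh.2.1
  refine H788.abs_le_const_of_forall_two (mem_sub (hC.P_mem2 s hf) (hC.P_mem2 t hf))
    (by positivity) fun ψ h0 h2 h1 _ => ?_
  have hb : ∀ r ∈ Ici (0 : ℝ), ‖I (C.P r h * ψ)‖ ≤ L * I ψ := fun r hr =>
    abs_I_le (hC.P_mem2 r hh) h2 h1 h0 (hC.P_bdd hr hh hL)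
  have h3 := Convex.norm_image_sub_le_of_norm_hasDerivWithin_le
    (f := fun s => I (C.P s f * ψ)) (f' := fun r => I (C.P r h * ψ)) (s := Ici (0 : ℝ))
    (fun r hr => hasDeriv_I_P hC hfh h2 hr) hb (convex_Ici 0) (mem_Ici.2 ht) (mem_Ici.2 hs)
  rw [Real.norm_eq_abs, Real.norm_eq_abs] at h3
  rw [sub_mul, I_sub (mem_mul_22 (hC.P_mem2 s hf) h2) (mem_mul_22 (hC.P_mem2 t hf) h2)]
  refine h3.trans (le_of_eq (by ring))

/-- **Taylor estimate in the sup norm** (both signs of `a`) -/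
theorem P_taylor (hC : IsDir C) {f h h' : M →ₘ[m] ℝ} (hfh : C.IsLap f h) (hhh : C.IsLap h h')
    {κ : ℝ} (hκ : ∀ᵐ x ∂m, |h' x| ≤ κ) {τ a : ℝ} (hτ : 0 ≤ τ) (ha : 0 ≤ τ + a) :
    ∀ᵐ x ∂m, |(C.P (τ + a) f - C.P τ f - a • C.P τ h) x| ≤ κ * a ^ 2 := by
  have hf : MemLp f 2 m := hC.memLp f hfh.1
  have hh : MemLp h 2 m := hfh.2.1
  -- without `0 ≤ κ` the space is null
  rcases lt_or_ge κ 0 with hκ0 | hκ0
  · filter_upwards [hκ] with x hx
    exact absurd ((abs_nonneg _).trans hx) (not_le.2 hκ0)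
  have hF : MemLp (C.P (τ + a) f - C.P τ f - a • C.P τ h : M →ₘ[m] ℝ) 2 m :=
    mem_sub (mem_sub (hC.P_mem2 _ hf) (hC.P_mem2 _ hf)) (mem_smul _ (hC.P_mem2 _ hh))
  refine H788.abs_le_const_of_forall_two hF (by positivity) fun ψ h0 h2 h1 _ => ?_
  have hψ0 : 0 ≤ I ψ := I_nonneg h0
  -- the interval between `τ` and `τ + a`
  set J : Set ℝ := uIcc τ (τ + a) with hJ
  have hJ0 : J ⊆ Ici 0 := by
    intro r hr
    have := hr.1
    exact mem_Ici.2 ((le_min hτ ha).trans this)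
  have hJa : ∀ r ∈ J, |r - τ| ≤ |a| := by
    intro r hr
    have h3 := abs_sub_left_of_mem_uIcc hr
    rw [add_sub_cancel_left] at h3
    exact h3
  have hd : ∀ r ∈ J, HasDerivWithinAt (fun s => I (C.P s f * ψ) - s * I (C.P τ h * ψ))
      (I (C.P r h * ψ) - I (C.P τ h * ψ)) J r := by
    intro r hr
    have h3 := (hasDeriv_I_P hC hfh h2 (hJ0 hr)).mono hJ0
    have h4 : HasDerivWithinAt (fun s : ℝ => s * I (C.P τ h * ψ)) (I (C.P τ h * ψ)) J r := by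
      simpa using ((hasDerivAt_id r).mul_const (I (C.P τ h * ψ))).hasDerivWithinAt
    exact h3.sub h4
  have hb : ∀ r ∈ J, ‖I (C.P r h * ψ) - I (C.P τ h * ψ)‖ ≤ κ * |a| * I ψ := by
    intro r hr
    have h3 := P_lip_sup hC hhh hκ0 hκ (hJ0 hr) hτ
    have h4 := abs_I_le (mem_sub (hC.P_mem2 r hh) (hC.P_mem2 τ hh)) h2 h1 h0 h3
    rw [sub_mul, I_sub (mem_mul_22 (hC.P_mem2 r hh) h2) (mem_mul_22 (hC.P_mem2 τ hh) h2)] at h4
    rw [Real.norm_eq_abs]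
    refine h4.trans (mul_le_mul_of_nonneg_right ?_ hψ0)
    exact mul_le_mul_of_nonneg_left (hJa r hr) hκ0
  have h3 := Convex.norm_image_sub_le_of_norm_hasDerivWithin_le hd hb (convex_uIcc τ (τ + a))
    left_mem_uIcc right_mem_uIcc
  rw [Real.norm_eq_abs, Real.norm_eq_abs, add_sub_cancel_left] at h3
  have e : I ((C.P (τ + a) f - C.P τ f - a • C.P τ h) * ψ)
      = (I (C.P (τ + a) f * ψ) - (τ + a) * I (C.P τ h * ψ))
        - (I (C.P τ f * ψ) - τ * I (C.P τ h * ψ)) := by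
    rw [sub_mul, sub_mul, smul_mul_assoc,
      I_sub (mem_sub (mem_mul_22 (hC.P_mem2 _ hf) h2) (mem_mul_22 (hC.P_mem2 _ hf) h2))
        (mem_smul _ (mem_mul_22 (hC.P_mem2 _ hh) h2)),
      I_sub (mem_mul_22 (hC.P_mem2 _ hf) h2) (mem_mul_22 (hC.P_mem2 _ hf) h2), I_smul]
    ring
  rw [e]
  refine h3.trans (le_of_eq ?_)
  have : |a| * |a| = a ^ 2 := by rw [← sq, sq_abs]
  calc κ * |a| * I ψ * |a| = κ * (|a| * |a|) * I ψ := by ring
    _ = κ * a ^ 2 * I ψ := by rw [this]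

end Vale.Agent.P233.H368
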