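import Vale.Agent.P233.RA.IfHK
import Vale.Agent.P233.H183.Unit
import Vale.Agent.P233.H886.CDelta

/-! P233, RCDA, block H1 (helper368): conservation of mass from the Laplacian comparison. -/

set_option linter.all false

open MeasureTheory Filter Topology Set
open scoped ENNReal NNReal MeasureTheory

universe u

namespace Vale.Agent.P233.H368.RH1

open Vale.Agent.P233.RA

section abs

variable {M : Type*} [MeasurableSpace M] {m : Measure M} {C : Calc m}

theorem hasDeriv (hC : IsDir C) {t : ℝ} {f g : M →ₘ[m] ℝ} (ht : 0 < t) (hf : MemLp f 2 m)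
    (hg : g ∈ C.W) :
    HasDerivAt (fun s => I (C.P s f * g)) (-(I (C.Γ g (C.P t f)))) t := by
  have ht2 : 0 < t / 2 := by linarith
  have h1 := hC.P_isLap ht2 hf
  have h2 := hC.P_hasDeriv_I ht2 h1 (hC.memLp g hg)
  have h3 : HasDerivAt (fun s => I (C.P (s - t / 2) (C.P (t / 2) f) * g))
      (I (C.P (t / 2) (C.lap (C.P (t / 2) f)) * g)) t := by
    have h2' : HasDerivAt (fun s => I (C.P s (C.P (t / 2) f) * g))
        (I (C.P (t / 2) (C.lap (C.P (t / 2) f)) * g)) (t - t / 2) := by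
      rw [show t - t / 2 = t / 2 by ring]; exact h2
    exact h2'.comp_sub_const t (t / 2)
  have e1 : I (C.P (t / 2) (C.lap (C.P (t / 2) f)) * g) = -(I (C.Γ g (C.P t f))) := by
    rw [← hC.P_lap_add ht2.le ht2 hf, show t / 2 + t / 2 = t by ring]
    have h4 := (hC.P_isLap ht hf).2.2 g hg
    have h5 : I (C.Γ (C.P t f) g) = -I (C.lap (C.P t f) * g) := h4
    rw [hC.symm g hg _ (hC.P_mem ht hf), h5, neg_neg]
  rw [e1] at h3
  refine h3.congr_of_eventuallyEq ?_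
  filter_upwards [lt_mem_nhds (show t / 2 < t by linarith)] with s hs
  rw [hC.P_P (by linarith) ht2.le hf, sub_add_cancel]

/-- core estimate -/
theorem core (hC : IsDir C) {f w : M →ₘ[m] ℝ} {δ N C₁ D t : ℝ} (hf : MemLp f 2 m)
    (hf1 : MemLp f 1 m) (f0 : 0 ≤ f) (hw : w ∈ C.W) (hδ : 0 ≤ δ) (hN : 0 ≤ N) (hC₁ : 0 ≤ C₁)
    (hw1 : ∀ᵐ x ∂m, -δ ≤ w x) (hw2 : ∀ᵐ x ∂m, w x ≤ 0)
    (hD : I (f * w) + δ * I f ≤ D * I f)
    (hLC : ∀ φ ∈ C.W, 0 ≤ φ → MemLp φ 1 m →
      -I (C.Γ w φ) ≤ N * I φ + C₁ * (I (φ * w) + δ * I φ)) (ht : 0 ≤ t) :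
    δ * (I f - I (C.P t f)) ≤ Real.exp (C₁ * t) * ((D + N * t) * I f) := by
  have hw2' : MemLp w 2 m := hC.memLp w hw
  have hIf : 0 ≤ I f := I_nonneg f0
  set G : ℝ → ℝ := fun s => I (C.P s f * w) + δ * I f with hG
  have hGc : Continuous G := (hC.P_cont_I hf hw2').add continuous_const
  have hGd : ∀ s, 0 < s → HasDerivAt G (-(I (C.Γ w (C.P s f)))) s := fun s hs =>
    (hasDeriv hC hs hf hw).add_const _
  have hGle : ∀ s, 0 < s → -(I (C.Γ w (C.P s f))) ≤ N * I f + C₁ * G s := by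
    intro s hs
    have a1 := hC.P_L1_nonneg hs.le hf hf1 f0
    refine (hLC _ (hC.P_mem hs hf) (hC.P_nonneg hs.le hf f0) a1.1).trans ?_
    have a2 : δ * I (C.P s f) ≤ δ * I f := mul_le_mul_of_nonneg_left a1.2 hδ
    have a3 : N * I (C.P s f) ≤ N * I f := mul_le_mul_of_nonneg_left a1.2 hN
    have a4 : C₁ * (I (C.P s f * w) + δ * I (C.P s f)) ≤ C₁ * G s :=
      mul_le_mul_of_nonneg_left (by simp only [hG]; linarith) hC₁
    linarith
  set H : ℝ → ℝ := fun s => Real.exp (-(C₁ * s)) * G s - N * I f * s with hH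
  have hHd : ∀ s, 0 < s → HasDerivAt H
      ((-C₁ * Real.exp (-(C₁ * s))) * G s + Real.exp (-(C₁ * s)) * (-(I (C.Γ w (C.P s f))))
        - N * I f) s := by
    intro s hs
    have b1 : HasDerivAt (fun s : ℝ => Real.exp (-(C₁ * s))) (-C₁ * Real.exp (-(C₁ * s))) s := by
      have := (((hasDerivAt_id s).const_mul C₁).neg).exp
      simp only [id, mul_one] at this
      rw [mul_comm] at this
      exact this
    have b2 := (b1.mul (hGd s hs)).sub ((hasDerivAt_id s).const_mul (N * I f))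
    simp only [id, mul_one] at b2
    exact b2
  have hHa : AntitoneOn H (Ici 0) := by
    refine antitoneOn_of_deriv_nonpos (convex_Ici 0) ?_ ?_ ?_
    · refine Continuous.continuousOn ?_
      exact ((Real.continuous_exp.comp (by fun_prop)).mul hGc).sub (by fun_prop)
    · rw [interior_Ici]
      exact fun s hs => (hHd s hs).differentiableAt.differentiableWithinAt
    · rw [interior_Ici]
      intro s hs
      rw [(hHd s hs).deriv]
      have b1 := hGle s hs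
      have b2 : 0 < Real.exp (-(C₁ * s)) := Real.exp_pos _
      have b3 : Real.exp (-(C₁ * s)) ≤ 1 := by
        rw [Real.exp_le_one_iff]
        have : 0 ≤ C₁ * s := mul_nonneg hC₁ (le_of_lt hs)
        linarith
      have b4 : Real.exp (-(C₁ * s)) * (-(I (C.Γ w (C.P s f))))
          ≤ Real.exp (-(C₁ * s)) * (N * I f + C₁ * G s) := mul_le_mul_of_nonneg_left b1 b2.le
      have b5 : Real.exp (-(C₁ * s)) * (N * I f) ≤ 1 * (N * I f) :=
        mul_le_mul_of_nonneg_right b3 (mul_nonneg hN hIf)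
      nlinarith
  have h1 : H t ≤ H 0 := hHa (mem_Ici.2 le_rfl) (mem_Ici.2 ht) ht
  have h2 : H 0 ≤ D * I f := by
    simp only [hH, hG, mul_zero, neg_zero, Real.exp_zero, one_mul, sub_zero]
    rw [hC.P_zero_time hf]; exact hD
  have h3 : Real.exp (-(C₁ * t)) * G t ≤ (D + N * t) * I f := by
    have : Real.exp (-(C₁ * t)) * G t - N * I f * t ≤ D * I f := h1.trans h2
    nlinarith
  have h4 : G t ≤ Real.exp (C₁ * t) * ((D + N * t) * I f) := by
    have := mul_le_mul_of_nonneg_left h3 (Real.exp_pos (C₁ * t)).le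
    rw [← mul_assoc, ← Real.exp_add, add_neg_cancel, Real.exp_zero, one_mul] at this
    exact this
  refine le_trans ?_ h4
  have a1 := hC.P_L1_nonneg ht hf hf1 f0
  have a0 := hC.P_nonneg ht hf f0
  have h5 : -(δ * I (C.P t f)) ≤ I (C.P t f * w) := by
    rw [← neg_mul, ← I_smul]
    refine I_mono (mem_smul _ a1.1) ?_ ?_
    · exact mem_mul_22 (hC.P_mem2 t hf) hw2'
    · rw [le_iff_ae]
      filter_upwards [smul_ae (C.P t f) (-δ), mul_ae (C.P t f) w, hw1, nonneg_iff_ae.1 a0]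
        with x b1 b2 b3 b4
      rw [b1, b2, mul_comm (C.P t f x)]
      exact mul_le_mul_of_nonneg_right b3 b4
  simp only [hG]
  linarith

end abs

section space

variable {M : Type u} [MetricSpace M] [MeasurableSpace M] [BorelSpace M] {m : Measure M}
  {n : ℕ} {K θ : ℝ}

omit [MeasurableSpace M] [BorelSpace M] in
theorem ww_lip {δ : ℝ} (hδ : 0 ≤ δ) (p : M) : LipschitzWith (√(2 * δ)).toNNReal (ww δ p) := by
  refine LipschitzWith.of_dist_le_mul fun x y => ?_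
  rw [Real.coe_toNNReal _ (Real.sqrt_nonneg _), Real.dist_eq]
  have h := (H886.cost_min (X := M) hδ).lip1 x y p
  have e : ww δ p x - ww δ p y = min (dist x p ^ 2 / 2) δ - min (dist y p ^ 2 / 2) δ := by
    unfold ww cc; ring
  rw [e]; exact h

omit [MeasurableSpace M] [BorelSpace M] in
theorem ww_zero {δ : ℝ} (hδ : 0 ≤ δ) (p x : M) (h : √(2 * δ) ≤ dist p x) : ww δ p x = 0 := by
  have h1 : √(2 * δ) ^ 2 = 2 * δ := Real.sq_sqrt (by positivity)
  have h2 : √(2 * δ) ^ 2 ≤ dist p x ^ 2 := pow_le_pow_left₀ (Real.sqrt_nonneg _) h 2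
  unfold ww cc
  rw [dist_comm x p, min_eq_right (by linarith), sub_self]

theorem ww_mem (hfin : ∀ (x : M) (r : ℝ), m (Metric.ball x r) < ∞) {δ : ℝ} (hδ : 0 ≤ δ) (p : M) :
    cl m (ww δ p) ∈ (sob m).A :=
  H183.cl_mem_A hfin (ww_lip hδ p) (fun x hx => ww_zero hδ p x hx)

theorem ww_ae {δ : ℝ} (hδ : 0 ≤ δ) (p : M) : ⇑(cl m (ww δ p)) =ᵐ[m] ww δ p :=
  H183.cl_cont (ww_lip hδ p).continuous

omit [MeasurableSpace M] [BorelSpace M] in
theorem ww_ge {δ : ℝ} (hδ : 0 ≤ δ) (p x : M) : -δ ≤ ww δ p x := by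
  unfold ww cc
  have : 0 ≤ min (dist x p ^ 2 / 2) δ := le_min (by positivity) hδ
  linarith

omit [MeasurableSpace M] [BorelSpace M] in
theorem ww_le {δ : ℝ} (p x : M) : ww δ p x ≤ 0 := by
  unfold ww cc
  have : min (dist x p ^ 2 / 2) δ ≤ δ := min_le_right _ _
  linarith

/-- (LC) in the form of `core` -/
theorem lc_form (hfin : ∀ (x : M) (r : ℝ), m (Metric.ball x r) < ∞) {p : M} {δ : ℝ} (hδ : 0 < δ)
    (h3 : ∀ φ ∈ (sob m).W, 0 ≤ φ → -I ((sob m).Γ (cl m (ww δ p)) φ) ≤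
      ∫ x in {x | gg p x < δ}, (n - 2 * K / 3 * gg p x) * φ x ∂m)
    (φ : M →ₘ[m] ℝ) (hφ : φ ∈ (sob m).W) (h0 : 0 ≤ φ) (h1 : MemLp φ 1 m) :
    -I ((sob m).Γ (cl m (ww δ p)) φ) ≤
      (n : ℝ) * I φ + 2 * |K| / 3 * (I (φ * cl m (ww δ p)) + δ * I φ) := by
  refine (h3 φ hφ h0).trans ?_
  have hw := ww_mem hfin hδ.le p
  have e1 : (n : ℝ) * I φ + 2 * |K| / 3 * (I (φ * cl m (ww δ p)) + δ * I φ) =
      I ((n : ℝ) • φ + (2 * |K| / 3) • (φ * cl m (ww δ p) + δ • φ)) := by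
    rw [I_add (mem_smul _ h1) (mem_smul _ (mem_add (mem_top_mul h1 hw.2) (mem_smul _ h1))),
      I_smul, I_smul, I_add (mem_top_mul h1 hw.2) (mem_smul _ h1), I_smul]
  rw [e1]
  set RHS : M →ₘ[m] ℝ := (n : ℝ) • φ + (2 * |K| / 3) • (φ * cl m (ww δ p) + δ • φ) with hRHS
  have hae : ∀ᵐ x ∂m, RHS x = (n + 2 * |K| / 3 * cc δ x p) * φ x ∧ 0 ≤ φ x := by
    filter_upwards [add_ae ((n : ℝ) • φ) ((2 * |K| / 3) • (φ * cl m (ww δ p) + δ • φ)),
      smul_ae φ (n : ℝ), smul_ae (φ * cl m (ww δ p) + δ • φ) (2 * |K| / 3),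
      add_ae (φ * cl m (ww δ p)) (δ • φ), mul_ae φ (cl m (ww δ p)), smul_ae φ δ,
      ww_ae (m := m) hδ.le p, nonneg_iff_ae.1 h0] with x a1 a2 a3 a4 a5 a6 a7 a8
    rw [a1, a2, a3, a4, a5, a6, a7]
    refine ⟨?_, a8⟩
    unfold ww
    ring
  have hint : Integrable RHS m := memLp_one_iff_integrable.1
    (mem_add (mem_smul _ h1) (mem_smul _ (mem_add (mem_top_mul h1 hw.2) (mem_smul _ h1))))
  have hcc : ∀ x, 0 ≤ cc δ x p := fun x => le_min (by positivity) hδ.le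
  have hS : MeasurableSet {x | gg p x < δ} := by
    have : Continuous (fun x => gg p x) := by unfold gg; fun_prop
    exact (isOpen_lt this continuous_const).measurableSet
  by_cases hi : IntegrableOn (fun x => (n - 2 * K / 3 * gg p x) * φ x) {x | gg p x < δ} m
  · rw [← integral_indicator hS]
    refine integral_mono_ae ((integrable_indicator_iff hS).2 hi) hint ?_
    filter_upwards [hae] with x hx
    rw [hx.1]
    by_cases hxS : x ∈ {x | gg p x < δ}
    · rw [indicator_of_mem hxS]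
      refine mul_le_mul_of_nonneg_right ?_ hx.2
      have e2 : cc δ x p = gg p x := by
        unfold cc gg; exact min_eq_left (le_of_lt hxS)
      rw [e2]
      have h5 : 0 ≤ gg p x := by unfold gg; positivity
      have h6 : -K ≤ |K| := neg_le_abs K
      nlinarith
    · rw [indicator_of_notMem hxS]
      exact mul_nonneg (add_nonneg (Nat.cast_nonneg n)
        (mul_nonneg (by positivity) (hcc x))) hx.2
  · rw [integral_undef hi]
    refine integral_nonneg_of_ae ?_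
    filter_upwards [hae] with x hx
    rw [hx.1]
    exact mul_nonneg (add_nonneg (Nat.cast_nonneg n) (mul_nonneg (by positivity) (hcc x))) hx.2

/-- mass conservation for bounded support -/
theorem mass_bs (hC : IsDir (sob m)) (hfin : ∀ (x : M) (r : ℝ), m (Metric.ball x r) < ∞)
    (h3 : ∀ (p : M) (δ : ℝ), 0 < δ → ∀ φ ∈ (sob m).W, 0 ≤ φ →
      -I ((sob m).Γ (cl m (ww δ p)) φ) ≤
        ∫ x in {x | gg p x < δ}, (n - 2 * K / 3 * gg p x) * φ x ∂m)
    {f : M →ₘ[m] ℝ} (hf : MemLp f 2 m) (hf1 : MemLp f 1 m) (f0 : 0 ≤ f) {p : M} {R t : ℝ}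
    (hR : ∀ᵐ x ∂m, R ≤ dist x p → f x = 0) (ht : 0 ≤ t) : I ((sob m).P t f) = I f := by
  refine le_antisymm (hC.P_L1_nonneg ht hf hf1 f0).2 ?_
  by_contra hlt
  push Not at hlt
  set a := I f - I ((sob m).P t f) with ha
  have ha0 : 0 < a := by rw [ha]; linarith
  set B := Real.exp (2 * |K| / 3 * t) * ((R ^ 2 / 2 + n * t) * I f) with hB
  have hB0 : 0 ≤ B := mul_nonneg (Real.exp_pos _).le
    (mul_nonneg (by positivity) (I_nonneg f0))
  have key : ∀ δ : ℝ, 0 < δ → δ * a ≤ B := by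
    intro δ hδ
    have hw := ww_mem hfin hδ.le p
    refine core hC hf hf1 f0 hw.1 hδ.le (Nat.cast_nonneg n) (by positivity) ?_ ?_ ?_
      (fun φ hφ h0 h1 => lc_form hfin hδ (h3 p δ hδ) φ hφ h0 h1) ht
    · filter_upwards [ww_ae (m := m) hδ.le p] with x hx
      rw [hx]; exact ww_ge hδ.le p x
    · filter_upwards [ww_ae (m := m) hδ.le p] with x hx
      rw [hx]; exact ww_le p x
    · rw [← I_smul, ← I_add (mem_top_mul hf1 hw.2) (mem_smul _ hf1), ← I_smul]
      refine I_mono (mem_add (mem_top_mul hf1 hw.2) (mem_smul _ hf1)) (mem_smul _ hf1) ?_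
      rw [le_iff_ae]
      filter_upwards [add_ae (f * cl m (ww δ p)) (δ • f), mul_ae f (cl m (ww δ p)), smul_ae f δ,
        smul_ae f (R ^ 2 / 2), ww_ae (m := m) hδ.le p, hR, nonneg_iff_ae.1 f0]
        with x a1 a2 a3 a4 a5 a6 a7
      rw [a1, a2, a3, a4, a5]
      by_cases hx : R ≤ dist x p
      · rw [a6 hx]; simp
      · push Not at hx
        have h1 : dist x p ^ 2 ≤ R ^ 2 := pow_le_pow_left₀ dist_nonneg hx.le 2
        have h2 : ww δ p x + δ ≤ R ^ 2 / 2 := by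
          unfold ww cc
          have : min (dist x p ^ 2 / 2) δ ≤ dist x p ^ 2 / 2 := min_le_left _ _
          linarith
        nlinarith
  have h1 := key (B / a + 1) (by positivity)
  have h2 : (B / a + 1) * a = B + a := by field_simp
  rw [h2] at h1
  linarith

/-- indicator of a ball -/
noncomputable def chi (m : Measure M) (p : M) (k : ℕ) : M →ₘ[m] ℝ :=
  cl m ((Metric.ball p k).indicator fun _ => (1 : ℝ))

theorem chi_ae (p : M) (k : ℕ) :
    ⇑(chi m p k) =ᵐ[m] (Metric.ball p k).indicator fun _ => (1 : ℝ) :=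
  H183.cl_ae ((measurable_const.indicator Metric.isOpen_ball.measurableSet).aestronglyMeasurable)

theorem chi_bd (p : M) (k : ℕ) : ∀ᵐ x ∂m, 0 ≤ chi m p k x ∧ chi m p k x ≤ 1 := by
  filter_upwards [chi_ae (m := m) p k] with x hx
  rw [hx]
  by_cases h : x ∈ Metric.ball p k
  · rw [indicator_of_mem h]; exact ⟨zero_le_one, le_rfl⟩
  · rw [indicator_of_notMem h]; exact ⟨le_rfl, zero_le_one⟩

theorem chi_top (p : M) (k : ℕ) : MemLp (chi m p k) ∞ m := by
  rw [mem_top_iff]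
  refine ⟨1, (chi_bd p k).mono fun x hx => ?_⟩
  rw [abs_of_nonneg hx.1]; exact hx.2

theorem chi_lim (p : M) : ∀ᵐ x ∂m, Tendsto (fun k : ℕ => chi m p k x) atTop (𝓝 1) := by
  have h : ∀ᵐ x ∂m, ∀ k : ℕ, chi m p k x = (Metric.ball p k).indicator (fun _ => (1 : ℝ)) x := by
    rw [ae_all_iff]; exact fun k => chi_ae p k
  filter_upwards [h] with x hx
  refine tendsto_const_nhds.congr' ?_
  filter_upwards [eventually_gt_atTop ⌈dist x p⌉₊] with k hk
  rw [hx k, indicator_of_mem]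
  rw [Metric.mem_ball]
  exact (Nat.le_ceil _).trans_lt (by exact_mod_cast hk)

theorem mass_nonneg [Nonempty M] (hC : IsDir (sob m))
    (hfin : ∀ (x : M) (r : ℝ), m (Metric.ball x r) < ∞)
    (h3 : ∀ (p : M) (δ : ℝ), 0 < δ → ∀ φ ∈ (sob m).W, 0 ≤ φ →
      -I ((sob m).Γ (cl m (ww δ p)) φ) ≤
        ∫ x in {x | gg p x < δ}, (n - 2 * K / 3 * gg p x) * φ x ∂m)
    {f : M →ₘ[m] ℝ} (hf : MemLp f 2 m) (hf1 : MemLp f 1 m) (f0 : 0 ≤ f) {t : ℝ} (ht : 0 ≤ t) :
    I ((sob m).P t f) = I f := by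
  obtain ⟨p⟩ := ‹Nonempty M›
  refine le_antisymm (hC.P_L1_nonneg ht hf hf1 f0).2 ?_
  have hk2 : ∀ k : ℕ, MemLp (chi m p k * f : M →ₘ[m] ℝ) 2 m := fun k =>
    mem_mul_top (chi_top p k) hf
  have hk1 : ∀ k : ℕ, MemLp (chi m p k * f : M →ₘ[m] ℝ) 1 m := fun k =>
    mem_mul_top (chi_top p k) hf1
  have hk0 : ∀ k : ℕ, 0 ≤ chi m p k * f := fun k => by
    rw [nonneg_iff_ae]
    filter_upwards [mul_ae (chi m p k) f, chi_bd (m := m) p k, nonneg_iff_ae.1 f0] with x a1 a2 a3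
    rw [a1]; exact mul_nonneg a2.1 a3
  have hkle : ∀ k : ℕ, chi m p k * f ≤ f := fun k => by
    rw [le_iff_ae]
    filter_upwards [mul_ae (chi m p k) f, chi_bd (m := m) p k, nonneg_iff_ae.1 f0] with x a1 a2 a3
    rw [a1]; nlinarith [a2.2]
  have hkm : ∀ k : ℕ, I ((sob m).P t (chi m p k * f)) = I (chi m p k * f) := fun k => by
    refine mass_bs (n := n) (K := K) hC hfin h3 (hk2 k) (hk1 k) (hk0 k) (p := p) (R := k) ?_ ht
    filter_upwards [mul_ae (chi m p k) f, chi_ae (m := m) p k] with x a1 a2 hx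
    rw [a1, a2, indicator_of_notMem, zero_mul]
    rw [Metric.mem_ball]; exact not_lt.2 hx
  have hlim : Tendsto (fun k : ℕ => I (chi m p k * f)) atTop (𝓝 (I f)) := by
    have h := I_tendsto_of_bdd (u := fun k => chi m p k) (v := 1) (G := f) (K := 1)
      (fun k => (chi_bd p k).mono fun x hx => by rw [abs_of_nonneg hx.1]; exact hx.2) ?_ hf1
    · rw [one_mul] at h; exact h
    · filter_upwards [chi_lim (m := m) p, one_ae (M := M) (m := m)] with x a1 a2
      rw [a2]; exact a1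
  refine le_of_tendsto hlim (Eventually.of_forall fun k => ?_)
  rw [← hkm k]
  exact I_mono (hC.P_L1_nonneg ht (hk2 k) (hk1 k) (hk0 k)).1 (hC.P_L1_nonneg ht hf hf1 f0).1
    (hC.P_mono ht (hk2 k) hf (hkle k))

theorem mass [Nonempty M] (hC : IsDir (sob m))
    (hfin : ∀ (x : M) (r : ℝ), m (Metric.ball x r) < ∞)
    (h3 : ∀ (p : M) (δ : ℝ), 0 < δ → ∀ φ ∈ (sob m).W, 0 ≤ φ →
      -I ((sob m).Γ (cl m (ww δ p)) φ) ≤
        ∫ x in {x | gg p x < δ}, (n - 2 * K / 3 * gg p x) * φ x ∂m)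
    {f : M →ₘ[m] ℝ} (hf : MemLp f 2 m) (hf1 : MemLp f 1 m) {t : ℝ} (ht : 0 ≤ t) :
    I ((sob m).P t f) = I f := by
  have e := pprt_sub f
  have p2 : MemLp (pprt f) 2 m := pprt_mem hf
  have p1 : MemLp (pprt f) 1 m := pprt_mem hf1
  have q2 : MemLp (pprt (-f)) 2 m := pprt_mem (mem_neg hf)
  have q1 : MemLp (pprt (-f)) 1 m := pprt_mem (mem_neg hf1)
  have a1 := mass_nonneg hC hfin h3 p2 p1 (pprt_nonneg f) ht
  have a2 := mass_nonneg hC hfin h3 q2 q1 (pprt_nonneg (-f)) ht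
  have b1 := (hC.P_L1_nonneg ht p2 p1 (pprt_nonneg f)).1
  have b2 := (hC.P_L1_nonneg ht q2 q1 (pprt_nonneg (-f))).1
  rw [← e, hC.P_sub t p2 q2, I_sub b1 b2, I_sub p1 q1, a1, a2]

end space

/-- Block H1, from H3a. -/
theorem blk_H1 (h3 : Blk_H3a.{u}) : Blk_H1.{u} := by
  intro M _ _ _ _ _ m n K θ h t ht f hf hf1
  have hC := h.isDir
  rcases isEmpty_or_nonempty M with he | hne
  · have : m = 0 := Measure.eq_zero_of_isEmpty m
    unfold I
    subst this
    simp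
  · exact mass hC h.fin (h3 M m n K θ h) hf hf1 (by linarith)

end Vale.Agent.P233.H368.RH1
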