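import Vale.Agent.P233.H886.KD2
import Vale.Agent.P233.H103.Semi5

/-! P233, RCDA (helper368): functions with bounded Laplacian are Lipschitz (`reg_B`), and the
Taylor estimate of the heat flow in the sup norm (`P_taylor`). -/

set_option linter.all false

open MeasureTheory Filter Topology Set
open scoped ENNReal NNReal

namespace Vale.Agent.P233.H368

variable {M : Type*} [MeasurableSpace M] {m : Measure M} {C : Calc m}

theorem Γ_tri (hC : IsDir C) {u v : M →ₘ[m] ℝ} (hu : u ∈ C.W) (hv : v ∈ C.W) {a b : ℝ}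
    (ha : 0 ≤ a) (hb : 0 ≤ b) (h1 : ∀ᵐ x ∂m, C.Γ u u x ≤ a ^ 2)
    (h2 : ∀ᵐ x ∂m, C.Γ v v x ≤ b ^ 2) : ∀ᵐ x ∂m, C.Γ (u + v) (u + v) x ≤ (a + b) ^ 2 := by
  have e := hC.Γ_expand 1 hu hv
  rw [one_smul, mul_one, one_pow, one_smul] at e
  filter_upwards [hC.Γ_cs_ae hu hv, h1, h2, hC.Γ_nonneg_ae hu, hC.Γ_nonneg_ae hv,
    add_ae (C.Γ u u + (2 : ℝ) • C.Γ u v) (C.Γ v v), add_ae (C.Γ u u) ((2 : ℝ) • C.Γ u v),
    smul_ae (C.Γ u v) (2 : ℝ)] with x a1 a2 a3 a4 a5 a6 a7 a8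
  rw [e, a6, a7, a8]
  have h3 : C.Γ u v x ^ 2 ≤ (a * b) ^ 2 := by
    rw [mul_pow]
    exact a1.trans (mul_le_mul a2 a3 a5 (sq_nonneg a))
  have h4 : C.Γ u v x ≤ a * b := by
    have := abs_le_of_sq_le_sq h3 (mul_nonneg ha hb)
    exact (abs_le.1 this).2
  nlinarith

theorem closed_bd (hC : IsDir C) {X : ℕ → M →ₘ[m] ℝ} {x : M →ₘ[m] ℝ} (h : C.TW X x) {c : ℝ}
    (hc : 0 ≤ c) (hb : ∀ n, ∀ᵐ y ∂m, C.Γ (X n) (X n) y ≤ c) : ∀ᵐ y ∂m, C.Γ x x y ≤ c := by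
  refine le_const_of_forall (hC.mem1 x h.mem') hc fun ψ h0 h2 h1 ht => ?_
  have l := hC.TW_Γ (Tb.const ht) h h
  rw [mul_comm (C.Γ x x)]
  refine le_of_tendsto' l fun n => ?_
  rw [← I_smul]
  refine I_mono (mem_mul_top ht (hC.mem1 _ (h.mem n))) (mem_smul _ h1) ?_
  rw [le_iff_ae]
  filter_upwards [mul_ae ψ (C.Γ (X n) (X n)), smul_ae ψ c, hb n, nonneg_iff_ae.1 h0]
    with y a1 a2 a3 a4
  rw [a1, a2, mul_comm]
  exact mul_le_mul_of_nonneg_right a3 a4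

theorem TW_P0 (hC : IsDir C) {f : M →ₘ[m] ℝ} (hf : f ∈ C.W) :
    C.TW (fun k : ℕ => C.P ((1 / 2 : ℝ) ^ k) f) f := by
  refine ⟨fun k => hC.P_memW _ hf, hf, ?_⟩
  have h1 := hC.P_contW hf 0
  rw [hC.P_zero_time (hC.memLp f hf)] at h1
  exact h1.comp (tendsto_pow_atTop_nhds_zero_of_lt_one (by norm_num) (by norm_num))

theorem reg_aux (hC : IsGamma C) {κ : ℝ} (hB : C.BEi κ) {f h : M →ₘ[m] ℝ} (hfh : C.IsLap f h)
    {b0 H : ℝ} (hH : 0 < H) (hf : ∀ᵐ x ∂m, |f x| ≤ b0) (hh : ∀ᵐ x ∂m, |h x| ≤ H) {q A S B0 : ℝ}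
    (hq0 : 0 < q) (hq1 : q < 1) (hq : q ^ 2 = 1 / 2)
    (hA : A = √(Real.exp (2 * |κ|) * H ^ 2 / 2)) (hS : S = (1 - q)⁻¹)
    (hB0 : B0 = √(Real.exp (2 * |κ|) * b0 ^ 2 / 2)) (k : ℕ) :
    ∀ᵐ x ∂m, C.Γ (C.P ((1 / 2 : ℝ) ^ k) f) (C.P ((1 / 2 : ℝ) ^ k) f) x
      ≤ (B0 + A * (S * (1 - q ^ k))) ^ 2 := by
  have hD := hC.toIsDir
  have hf2 : MemLp f 2 m := hD.memLp f hfh.1
  have hA0 : 0 ≤ A := by rw [hA]; exact Real.sqrt_nonneg _
  have hB00 : 0 ≤ B0 := by rw [hB0]; exact Real.sqrt_nonneg _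
  have hS0 : 0 ≤ S := by rw [hS]; exact inv_nonneg.2 (by linarith)
  have hSq : S * (1 - q) = 1 := by rw [hS]; exact inv_mul_cancel₀ (by linarith)
  have hA2 : A ^ 2 = Real.exp (2 * |κ|) * H ^ 2 / 2 := by
    rw [hA]; exact Real.sq_sqrt (by positivity)
  have hB2 : B0 ^ 2 = Real.exp (2 * |κ|) * b0 ^ 2 / 2 := by
    rw [hB0]; exact Real.sq_sqrt (by positivity)
  induction k with
  | zero =>
    simp only [pow_zero, sub_self, mul_zero, add_zero]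
    filter_upwards [IsGamma.P_gradB hC hB one_pos hf2 hf] with x hx
    rw [hB2]
    rw [mul_one, mul_one] at hx
    exact hx
  | succ k ih =>
    set r : ℝ := (1 / 2 : ℝ) ^ (k + 1) with hr
    have hr0 : 0 < r := by positivity
    have hr1 : r ≤ 1 := pow_le_one₀ (by norm_num) (by norm_num)
    have hrr : (1 / 2 : ℝ) ^ k = r + r := by rw [hr, pow_succ]; ring
    have hrq : r = (q ^ (k + 1)) ^ 2 := by
      rw [← pow_mul, mul_comm (k + 1) 2, pow_mul, hq]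
    have hg2 : MemLp (f - C.P r f : M →ₘ[m] ℝ) 2 m := mem_sub hf2 (hD.P_mem2 r hf2)
    have hgb : ∀ᵐ x ∂m, |(f - C.P r f : M →ₘ[m] ℝ) x| ≤ r * H := by
      filter_upwards [hD.P_sub_bd hr0 hH hfh hh, sub_ae f (C.P r f), sub_ae (C.P r f) f]
        with x a1 a2 a3
      rw [a2, abs_sub_comm]
      rw [a3] at a1
      exact a1
    have e : C.P r f = C.P ((1 / 2 : ℝ) ^ k) f + C.P r (f - C.P r f) := by
      rw [hD.P_sub r hf2 (hD.P_mem2 r hf2), hD.P_P hr0.le hr0.le hf2, hrr]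
      abel
    have h1 : ∀ᵐ x ∂m, C.Γ (C.P r (f - C.P r f)) (C.P r (f - C.P r f)) x
        ≤ (A * q ^ (k + 1)) ^ 2 := by
      filter_upwards [IsGamma.P_gradB hC hB hr0 hg2 hgb] with x hx
      refine hx.trans ?_
      rw [mul_pow A, hA2, ← hrq]
      have h3 : Real.exp (2 * |κ| * r) ≤ Real.exp (2 * |κ|) := by
        apply Real.exp_le_exp.2
        have := abs_nonneg κ
        nlinarith
      have h4 : Real.exp (2 * |κ| * r) * (r * H) ^ 2 / (2 * r)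
          = Real.exp (2 * |κ| * r) * (H ^ 2 / 2 * r) := by field_simp
      have h5 : Real.exp (2 * |κ|) * H ^ 2 / 2 * r = Real.exp (2 * |κ|) * (H ^ 2 / 2 * r) := by ring
      rw [h4, h5]
      exact mul_le_mul_of_nonneg_right h3 (by positivity)
    have hW1 : C.P ((1 / 2 : ℝ) ^ k) f ∈ C.W := hD.P_memW _ hfh.1
    have hW2 : C.P r (f - C.P r f) ∈ C.W := hD.P_mem hr0 hg2
    have hqk : q ^ k ≤ 1 := pow_le_one₀ hq0.le hq1.le
    have hc1 : 0 ≤ B0 + A * (S * (1 - q ^ k)) :=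
      add_nonneg hB00 (mul_nonneg hA0 (mul_nonneg hS0 (by linarith)))
    have h2 := Γ_tri hD hW1 hW2 hc1 (by positivity) ih h1
    rw [← e] at h2
    filter_upwards [h2] with x hx
    refine hx.trans ?_
    refine pow_le_pow_left₀ (add_nonneg hc1 (by positivity)) ?_ 2
    have h6 : S * (1 - q ^ (k + 1)) = S * (1 - q ^ k) + q ^ k := by
      have : S * (1 - q ^ (k + 1)) = S * (1 - q ^ k) + q ^ k * (S * (1 - q)) := by
        rw [pow_succ]; ring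
      rw [this, hSq, mul_one]
    rw [h6, mul_add, ← add_assoc]
    have h7 : q ^ (k + 1) ≤ q ^ k := by
      rw [pow_succ]
      exact mul_le_of_le_one_right (by positivity) hq1.le
    have := mul_le_mul_of_nonneg_left h7 hA0
    linarith

/-- A bounded function with bounded Laplacian is Lipschitz. -/
theorem reg_B (hC : IsGamma C) {κ : ℝ} (hB : C.BEi κ) {f h : M →ₘ[m] ℝ} (hfh : C.IsLap f h)
    (hf : MemLp f ∞ m) (hh : MemLp h ∞ m) : f ∈ C.B := by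
  have hD := hC.toIsDir
  obtain ⟨b0, hb0⟩ := mem_top_iff.1 hf
  obtain ⟨H0, hH0⟩ := mem_top_iff.1 hh
  have hH : 0 < |H0| + 1 := by positivity
  have hh' : ∀ᵐ x ∂m, |h x| ≤ |H0| + 1 := hH0.mono fun x hx => by
    have := le_abs_self H0; linarith
  set q : ℝ := √(1 / 2) with hq
  have hq2 : q ^ 2 = 1 / 2 := Real.sq_sqrt (by norm_num)
  have hq0 : 0 < q := Real.sqrt_pos.2 (by norm_num)
  have hq1 : q < 1 := by nlinarith
  set A := √(Real.exp (2 * |κ|) * (|H0| + 1) ^ 2 / 2) with hA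
  set B0 := √(Real.exp (2 * |κ|) * b0 ^ 2 / 2) with hB0
  set S := (1 - q)⁻¹ with hS
  have hA0 : 0 ≤ A := Real.sqrt_nonneg _
  have hB00 : 0 ≤ B0 := Real.sqrt_nonneg _
  have hS0 : 0 ≤ S := inv_nonneg.2 (by linarith)
  have key : ∀ k : ℕ, ∀ᵐ x ∂m, C.Γ (C.P ((1 / 2 : ℝ) ^ k) f) (C.P ((1 / 2 : ℝ) ^ k) f) x
      ≤ (B0 + A * S) ^ 2 := by
    intro k
    filter_upwards [reg_aux hC hB hfh hH hb0 hh' hq0 hq1 hq2 hA hS hB0 k] with x hx
    refine hx.trans (pow_le_pow_left₀ ?_ ?_ 2)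
    · have hqk : q ^ k ≤ 1 := pow_le_one₀ hq0.le hq1.le
      exact add_nonneg hB00 (mul_nonneg hA0 (mul_nonneg hS0 (by linarith)))
    · have hqk : 0 < q ^ k := by positivity
      have : S * (1 - q ^ k) ≤ S := by nlinarith
      have := mul_le_mul_of_nonneg_left this hA0
      linarith
  have h1 := closed_bd hD (TW_P0 hD hfh.1) (sq_nonneg _) key
  refine (hC.lip_iff f hfh.1).2 ⟨hf, ?_⟩
  rw [mem_top_iff]
  refine ⟨(B0 + A * S) ^ 2, ?_⟩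
  filter_upwards [h1, hD.Γ_nonneg_ae hfh.1] with x a1 a2
  rw [abs_of_nonneg a2]; exact a1

end Vale.Agent.P233.H368
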