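import Vale.Agent.P233.Gig.Defs
import Vale.Agent.P233.H368.Deriv

/-!
P233, block F2S (helper368): the density `exp L` of a pair satisfies `RhoL`.
-/

open MeasureTheory Filter Topology
open scoped ENNReal NNReal

universe u

namespace Vale.Agent.P233

variable {M : Type u} [MeasurableSpace M] {m : Measure M} {C : Calc m}

namespace H368

theorem ex_ae (f : M →ₘ[m] ℝ) : ∀ᵐ x ∂m, ex f x = Real.exp (f x) :=
  AEEqFun.coeFn_comp _ _ f

theorem ex_nonneg (f : M →ₘ[m] ℝ) : 0 ≤ ex f := by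
  rw [nonneg_iff_ae]
  filter_upwards [ex_ae f] with x hx
  rw [hx]
  exact (Real.exp_pos _).le

/-- `exp l - 1` is a test function, with the chain rule -/
theorem ex_testI (hC : IsGamma C) {κ : ℝ} (hB : C.BEi κ) {l : M →ₘ[m] ℝ} (hl : l ∈ C.TestI) :
    ex l - 1 ∈ C.TestI ∧ (∀ g ∈ C.W, C.Γ (ex l - 1) g = ex l * C.Γ l g) ∧
      C.lap (ex l - 1) = ex l * (C.lap l + C.Γ l l) := by
  have hd : deriv (fun x : ℝ => Real.exp x - 1) = Real.exp := by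
    ext x
    rw [deriv_sub_const, Real.deriv_exp]
  obtain ⟨g, hg, hge, hgΓ, hgl⟩ := hC.testI_comp hB hl (fun x => Real.exp x - 1)
    (Real.contDiff_exp.sub contDiff_const) (by simp)
  have e : ex l - 1 = g := by
    rw [eq_iff_ae]
    filter_upwards [sub_ae (ex l) 1, ex_ae l, one_ae (M := M) (m := m), hge] with x a1 a2 a3 a4
    rw [a1, a2, a3, a4]
  rw [e]
  refine ⟨hg, fun h hh => ?_, ?_⟩
  · rw [eq_iff_ae]
    filter_upwards [hgΓ h hh, ex_ae l, mul_ae (ex l) (C.Γ l h)] with x a1 a2 a3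
    rw [a1, a3, a2, hd]
  · rw [eq_iff_ae]
    filter_upwards [hgl, ex_ae l, mul_ae (ex l) (C.lap l + C.Γ l l), add_ae (C.lap l) (C.Γ l l)]
      with x a1 a2 a3 a4
    rw [a1, a3, a2, a4, hd, Real.deriv_exp]
    ring

theorem rhoL_ex (hC : IsGamma C) {κ : ℝ} (hB : C.BEi κ) {l : M →ₘ[m] ℝ} (hl : l ∈ C.TestI) :
    C.RhoL (ex l) l where
  r_mem := (ex_testI hC hB hl).1
  l_mem := hl
  nn := ex_nonneg l
  gr := (ex_testI hC hB hl).2.1

variable {P : ℝ → (M →ₘ[m] ℝ) → (M →ₘ[m] ℝ)} {ε a b : ℝ} {φ u : ℝ → M →ₘ[m] ℝ} {t : ℝ}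

theorem LL_mem (hC : IsGamma C) {κ : ℝ} (hB : C.BEi κ) (h : Pair C P ε a b φ u)
    (ht : t ∈ Set.Icc a b) : LL ε φ u t ∈ C.TestI := by
  have h1 := hC.testI_add hB (h.φ_mem t ht) (hC.testI_smul hB (-1) (h.u_mem t ht))
  have h2 := hC.testI_smul hB ε⁻¹ h1
  rwa [show φ t + (-1 : ℝ) • u t = φ t - u t by rw [neg_one_smul]; abel] at h2

theorem th_mem (hC : IsGamma C) {κ : ℝ} (hB : C.BEi κ) (h : Pair C P ε a b φ u)
    (ht : t ∈ Set.Icc a b) : th φ u t ∈ C.TestI :=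
  hC.testI_smul hB _ (hC.testI_add hB (h.φ_mem t ht) (h.u_mem t ht))

theorem pair_rhoL (hC : IsGamma C) {κ : ℝ} (hB : C.BEi κ) (h : Pair C P ε a b φ u)
    (ht : t ∈ Set.Icc a b) : C.RhoL (rh ε φ u t) (LL ε φ u t) :=
  rhoL_ex hC hB (LL_mem hC hB h ht)

end H368

end Vale.Agent.P233
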