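import Vale.Agent.P233.Gig.IfB
import Vale.Agent.P233.H368.Deriv
import Vale.Agent.P233.H368.RhoL
import Vale.Agent.P233.H66.Time3

/-!
P233, block F2S (helper368), step S2: the integrated inequality for `E<∇F,∇θ>` at level `ε` with
an error `O(√ε)`, from the blocks B0r, B1-B4.
-/

set_option linter.all false

open MeasureTheory Filter Topology Set
open scoped ENNReal NNReal

universe u v

namespace Vale.Agent.P233

namespace H368

section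

variable {M : Type u} [MeasurableSpace M] {m : Measure M} {C : Calc m}

/-- `L`, `θ`, `ρ` at a time -/
theorem reg_rhoL {κ : ℝ} (hC : IsGamma C) (hB : C.BEi κ) {ε a b : ℝ} {φ u : ℝ → M →ₘ[m] ℝ}
    (hR : C.Reg ε a b φ u) {t : ℝ} (ht : t ∈ Icc a b) :
    LL ε φ u t ∈ C.TestI ∧ th φ u t ∈ C.TestI ∧ C.RhoL (rh ε φ u t) (LL ε φ u t) := by
  have h1 := hC.testI_add hB (hR.φ_mem t ht) (hC.testI_smul hB (-1) (hR.u_mem t ht))
  have h2 := hC.testI_smul hB ε⁻¹ h1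
  have h3 : LL ε φ u t ∈ C.TestI := by
    rwa [show φ t + (-1 : ℝ) • u t = φ t - u t by rw [neg_one_smul]; abel] at h2
  exact ⟨h3, hC.testI_smul hB _ (hC.testI_add hB (hR.φ_mem t ht) (hR.u_mem t ht)),
    rhoL_ex hC hB h3⟩

theorem rhoL_top (hC : IsGamma C) {ρ l : M →ₘ[m] ℝ} (h : C.RhoL ρ l) : MemLp ρ ∞ m := by
  have := mem_add (hC.test_A h.r_mem.1).2 mem_top_one
  rwa [sub_add_cancel] at this

/-- time derivatives in `W` of the density and of `θ` (with the memberships) -/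
theorem reg_dw [SigmaFinite m] (h0r : Blk_B0r.{u}) {κ : ℝ} (hC : IsGamma C) (hB : C.BEi κ)
    {ε a b : ℝ} {φ u : ℝ → M →ₘ[m] ℝ} (hR : C.Reg ε a b φ u) {t : ℝ} (ht : t ∈ Icc a b) :
    C.DW (rh ε φ u)
      (-(rh ε φ u t * C.lap (th φ u t) + C.Γ (th φ u t) (rh ε φ u t - 1))) (Icc a b) t ∧
    C.DW (th φ u) (-((2 : ℝ)⁻¹ • C.Γ (th φ u t) (th φ u t))
      - (ε ^ 2 / 8) • Q C (LL ε φ u t)) (Icc a b) t := by
  have hD := hC.toIsDir
  obtain ⟨-, h2, h3, -⟩ := h0r M m C κ hC hB ε a b φ u hR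
  have hm : ∀ s ∈ Icc a b, LL ε φ u s ∈ C.TestI ∧ th φ u s ∈ C.TestI ∧
      C.RhoL (rh ε φ u s) (LL ε φ u s) := fun s hs => reg_rhoL hC hB hR hs
  obtain ⟨hl, hθ, hp⟩ := hm t ht
  have hr : ∀ s ∈ Icc a b, rh ε φ u s - 1 ∈ C.A := fun s hs => hC.test_A (hm s hs).2.2.r_mem.1
  refine ⟨⟨fun s hs => ?_, ?_, h2 t ht⟩, ⟨fun s hs => ?_, ?_, h3 t ht⟩⟩
  · have e : rh ε φ u s - rh ε φ u t = (rh ε φ u s - 1) - (rh ε φ u t - 1) := by ring
    rw [e]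
    exact hD.sub_mem (hr s hs).1 (hr t ht).1
  · have hlap := hC.testI_lap_A hB hθ
    have e : rh ε φ u t * C.lap (th φ u t) = (rh ε φ u t - 1) * C.lap (th φ u t)
        + C.lap (th φ u t) := by ring
    rw [e]
    exact hD.neg_mem (hD.add_mem _ (hD.add_mem _ (hD.mul_mem_A (hr t ht) hlap).1 _ hlap.1) _
      (hC.Γ_mem hB hθ.1 hp.r_mem.1).1)
  · exact hD.sub_mem (hC.test_A (hm s hs).2.1.1).1 (hC.test_A hθ.1).1
  · exact hD.sub_mem (hD.neg_mem (hD.A_smul _ (hC.Γ_mem hB hθ.1 hθ.1)).1)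
      (hD.A_smul _ (Q_mem hC hB hl)).1

/-- continuity in time of `∫ ρ w |∇θ|²` -/
theorem cont_quad [SigmaFinite m] (h0r : Blk_B0r.{u}) {κ : ℝ} (hC : IsGamma C) (hB : C.BEi κ)
    {ε a b : ℝ} {φ u : ℝ → M →ₘ[m] ℝ} (hR : C.Reg ε a b φ u) {w : M →ₘ[m] ℝ}
    (hw : MemLp w ∞ m) :
    ContinuousOn (fun t => I (rh ε φ u t * w * C.Γ (th φ u t) (th φ u t))) (Icc a b) := by
  have hD := hC.toIsDir
  intro t ht
  obtain ⟨d1, d2⟩ := reg_dw h0r hC hB hR ht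
  have hW : ∀ s ∈ Icc a b, φ s ∈ C.W ∧ u s ∈ C.W := fun s hs =>
    ⟨(hC.test_A (hR.φ_mem s hs).1).1, (hC.test_A (hR.u_mem s hs).1).1⟩
  obtain ⟨B, hBd⟩ := hR.bdd
  have g1 : C.BdG φ (Icc a b) := ⟨B, fun s hs => (hBd s hs).mono fun x h => h.2.2.1⟩
  have g2 : C.BdG u (Icc a b) := ⟨B, fun s hs => (hBd s hs).mono fun x h => h.2.2.2.1⟩
  have g3 : C.BdG (th φ u) (Icc a b) :=
    hD.BdG_smul (2 : ℝ)⁻¹ (hD.BdG_add g1 g2 (fun s hs => (hW s hs).1) (fun s hs => (hW s hs).2))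
      (fun s hs => hD.add_mem _ (hW s hs).1 _ (hW s hs).2)
  have g4 : BdS (rh ε φ u) (Icc a b) := by
    refine ⟨Real.exp (ε⁻¹ * (2 * B)), fun s hs => ?_⟩
    filter_upwards [hBd s hs, ex_ae (ε⁻¹ • (φ s - u s)), smul_ae (φ s - u s) ε⁻¹,
      sub_ae (φ s) (u s)] with x h1 h2 h3 h4
    rw [rh, h2, h3, h4, abs_of_pos (Real.exp_pos _)]
    refine Real.exp_le_exp.2 (mul_le_mul_of_nonneg_left ?_ (inv_nonneg.2 hR.hε.le))
    have := abs_le.1 h1.1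
    have := abs_le.1 h1.2.1
    linarith
  have hθt : th φ u t ∈ C.W := (hC.test_A (reg_rhoL hC hB hR ht).2.1.1).1
  have h1 := hD.I_aΓ ((hD.DW_DL2 d1).const_mul hw) ((BdS.const hw).mul g4) d2 d2 ht hθt hθt g3 g3
  refine h1.continuousWithinAt.congr (fun s hs => ?_) ?_
  · rw [mul_comm w]
  · rw [mul_comm w]

theorem I_Q_sq_le (hC : IsGamma C) {κ : ℝ} (hB : C.BEi κ) {ρ l : M →ₘ[m] ℝ}
    (h : C.RhoL ρ l) : I (ρ * Q C l ^ 2) ≤ 8 * I (ρ * C.lap l ^ 2) + 2 * I (ρ * C.Γ l l ^ 2) := by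
  have hρ := rhoL_top hC h
  have hlap := hC.testI_lap_A hB h.l_mem
  have hΓ := hC.Γ_mem hB h.l_mem.1 h.l_mem.1
  have hQ := Q_mem hC hB h.l_mem
  have hD := hC.toIsDir
  have sq1 : ∀ f ∈ C.A, MemLp (ρ * f ^ 2 : M →ₘ[m] ℝ) 1 m := fun f hf =>
    mem_mul_top hρ (mem_sq (hD.memLp _ hf.1))
  rw [← I_smul, ← I_smul, ← I_add (mem_smul _ (sq1 _ hlap)) (mem_smul _ (sq1 _ hΓ))]
  refine I_mono (sq1 _ hQ) (mem_add (mem_smul _ (sq1 _ hlap)) (mem_smul _ (sq1 _ hΓ)))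
    (le_iff_ae.2 ?_)
  filter_upwards [mul_ae ρ (Q C l ^ 2), sq_ae (Q C l), add_ae ((8 : ℝ) • (ρ * C.lap l ^ 2))
    ((2 : ℝ) • (ρ * C.Γ l l ^ 2)), smul_ae (ρ * C.lap l ^ 2) 8, smul_ae (ρ * C.Γ l l ^ 2) 2,
    mul_ae ρ (C.lap l ^ 2), mul_ae ρ (C.Γ l l ^ 2), sq_ae (C.lap l), sq_ae (C.Γ l l),
    add_ae ((2 : ℝ) • C.lap l) (C.Γ l l), smul_ae (C.lap l) 2, nonneg_iff_ae.1 h.nn]
    with x a1 a2 a3 a4 a5 a6 a7 a8 a9 a10 a11 a12
  rw [a1, a2, a3, a4, a5, a6, a7, a8, a9, Q, a10, a11]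
  nlinarith [mul_nonneg a12 (sq_nonneg (2 * C.lap l x - C.Γ l l x))]

theorem Q_lower (hC : IsGamma C) {κ : ℝ} (hB : C.BEi κ) {ε a b : ℝ} {φ u : ℝ → M →ₘ[m] ℝ}
    (hR : C.Reg ε a b φ u) {t : ℝ} (ht : t ∈ Icc a b) {P P' : ℝ}
    (h1 : ∀ᵐ x ∂m, -P ≤ C.lap (φ t) x) (h2 : ∀ᵐ x ∂m, C.lap (u t) x ≤ P') :
    0 ≤ Q C (LL ε φ u t) + (2 * (P + P') / ε) • 1 := by
  have hD := hC.toIsDir
  obtain ⟨hl, -, -⟩ := reg_rhoL hC hB hR ht
  have hlapL : C.lap (LL ε φ u t) = ε⁻¹ • (C.lap (φ t) - C.lap (u t)) := by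
    have e1 : LL ε φ u t = ε⁻¹ • (φ t + (-1 : ℝ) • u t) := by
      rw [LL, neg_one_smul]; congr 1; abel
    have k1 := hC.test_isLap (hR.φ_mem t ht).1
    have k2 := hC.test_isLap (hR.u_mem t ht).1
    have k3 := hD.isLap_smul ε⁻¹ (hD.isLap_add k1 (hD.isLap_smul (-1 : ℝ) k2))
    rw [← e1] at k3
    rw [hD.lap_eq k3, neg_one_smul]
    congr 1; abel
  rw [nonneg_iff_ae]
  filter_upwards [add_ae (Q C (LL ε φ u t)) ((2 * (P + P') / ε) • 1),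
    smul_ae (1 : M →ₘ[m] ℝ) (2 * (P + P') / ε),
    one_ae (M := M) (m := m), add_ae ((2 : ℝ) • C.lap (LL ε φ u t))
      (C.Γ (LL ε φ u t) (LL ε φ u t)), smul_ae (C.lap (LL ε φ u t)) 2,
    hD.Γ_nonneg_ae (hC.test_A hl.1).1, smul_ae (C.lap (φ t) - C.lap (u t)) ε⁻¹,
    sub_ae (C.lap (φ t)) (C.lap (u t)), h1, h2]
    with x a1 a2 a3 a4 a5 a6 a7 a8 a9 a10
  rw [a1, a2, a3, Q, a4, a5, hlapL, a7, a8]
  have k3 : 0 ≤ ε⁻¹ := inv_nonneg.2 hR.hε.le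
  have k4 : 0 ≤ 2 * (ε⁻¹ * (C.lap (φ t) x - C.lap (u t) x)) + 2 * (P + P') / ε * 1 := by
    rw [show 2 * (ε⁻¹ * (C.lap (φ t) x - C.lap (u t) x)) + 2 * (P + P') / ε * 1
      = ε⁻¹ * (2 * ((C.lap (φ t) x - C.lap (u t) x) + (P + P'))) by
        rw [div_eq_mul_inv (2 * (P + P'))]; ring]
    exact mul_nonneg k3 (by linarith)
  linarith

theorem real_fin {ε X KF q2 J mu Y Z : ℝ} (hε : 0 < ε) (hε1 : ε ≤ 1) (hX0 : 0 ≤ X)
    (hKF0 : 0 ≤ KF) (hq20 : 0 ≤ q2) (hJ0 : 0 ≤ J) (hmu0 : 0 ≤ mu) (hY0 : 0 ≤ Y) (hZ0 : 0 ≤ Z) :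
    ε ^ 2 / 8 * ((X / ε + KF * (q2 / √ε) / ε) * J + (mu / ε) * (Y + Z * (q2 / √ε)))
      ≤ ((X + KF * q2) * J + mu * (Y + Z * q2)) * √ε := by
  have hsε : 0 < √ε := Real.sqrt_pos.2 hε
  have hsq : √ε * √ε = ε := Real.mul_self_sqrt hε.le
  have hs1' : √ε ≤ 1 := Real.sqrt_le_one.2 hε1
  have h19 : ε ^ 2 / 8 * ((X / ε + KF * (q2 / √ε) / ε) * J
      + (mu / ε) * (Y + Z * (q2 / √ε))) = 8⁻¹ * √ε * ((√ε * X + KF * q2) * J
        + mu * (√ε * Y + Z * q2)) := by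
    have h20 : ε = √ε ^ 2 := by rw [sq, hsq]
    set r := √ε with hr
    rw [h20]
    field_simp
  rw [h19]
  have h21 : (√ε * X + KF * q2) * J ≤ (X + KF * q2) * J :=
    mul_le_mul_of_nonneg_right (by nlinarith) hJ0
  have h22 : mu * (√ε * Y + Z * q2) ≤ mu * (Y + Z * q2) :=
    mul_le_mul_of_nonneg_left (by nlinarith) hmu0
  have h23 : 0 ≤ (X + KF * q2) * J + mu * (Y + Z * q2) := by positivity
  nlinarith

theorem err_int {a' b' A1 A2 J : ℝ} {q : ℝ → ℝ} (hab : a' ≤ b') (hab1 : b' - a' ≤ 1)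
    (iqab : IntervalIntegrable q volume a' b') (hJ : ∫ t in a'..b', q t ≤ J) (hA1 : 0 ≤ A1)
    (hA2 : 0 ≤ A2) :
    IntervalIntegrable (fun t => A1 * (1 + q t) + A2) volume a' b' ∧
      ∫ t in a'..b', (A1 * (1 + q t) + A2) ≤ A1 * (1 + J) + A2 := by
  have i1 : IntervalIntegrable (fun t => 1 + q t) volume a' b' :=
    (_root_.intervalIntegrable_const).add iqab
  refine ⟨(i1.const_mul _).add _root_.intervalIntegrable_const, ?_⟩
  rw [intervalIntegral.integral_add (i1.const_mul _) _root_.intervalIntegrable_const,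
    intervalIntegral.integral_const_mul, intervalIntegral.integral_add
      _root_.intervalIntegrable_const iqab, intervalIntegral.integral_const,
    intervalIntegral.integral_const]
  simp only [smul_eq_mul, mul_one]
  have h15 : b' - a' + ∫ t in a'..b', q t ≤ 1 + J := by linarith
  have h16 := mul_le_mul_of_nonneg_left h15 hA1
  have h17 : (b' - a') * A2 ≤ 1 * A2 := mul_le_mul_of_nonneg_right hab1 hA2
  linarith

/-- the static error bound at one time -/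
theorem err_static (hC : IsGamma C) {κ : ℝ} (hB : C.BEi κ) {F G ρ l : M →ₘ[m] ℝ}
    (hF : C.FLap F G) (hp : C.RhoL ρ l) {ε mu Lp KF q2 e v : ℝ} (hε : 0 < ε)
    (hmu0 : 0 ≤ mu) (hmuQ : 0 ≤ Q C l + (mu / ε) • 1) (hLp0 : 0 ≤ Lp)
    (hR : ∀ᵐ x ∂m, ρ x ≤ Lp) (hKF0 : 0 ≤ KF)
    (hKF : ∀ᵐ x ∂m, C.Γ F F x ≤ KF ^ 2) (hq2 : 0 ≤ q2)
    (hA : ε * I (ρ * C.Γ l l) ≤ q2 ^ 2) (he : ε ^ 2 * I (ρ * C.lap l ^ 2) ≤ e)
    (hv : v = I (ρ * C.Γ l l ^ 2)) :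
    -I (ρ * C.Γ F (Q C l)) ≤ (√(Lp * I (G ^ 2)) / ε + KF * (q2 / √ε) / ε)
        * (1 + (8 * e + 2 * (ε ^ 2 * v)))
      + (mu / ε) * (Lp * I G + √(Lp * I (C.Γ F F)) * (q2 / √ε)) := by
  set q : ℝ := 8 * e + 2 * (ε ^ 2 * v) with hq
  have hsε : 0 < √ε := Real.sqrt_pos.2 hε
  have he0 : 0 ≤ e := (mul_nonneg (sq_nonneg ε) (I_nonneg (mul_nonneg hp.nn (sq_nonneg' _)))).trans he
  have hv0 : 0 ≤ v := by rw [hv]; exact I_nonneg (mul_nonneg hp.nn (sq_nonneg' _))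
  have hq0 : 0 ≤ q := by positivity
  have hA' : I (ρ * C.Γ l l) ≤ (q2 / √ε) ^ 2 := by
    rw [div_pow, Real.sq_sqrt hε.le, le_div_iff₀ hε, mul_comm]
    exact hA
  have hQ2 : I (ρ * Q C l ^ 2) ≤ (√q / ε) ^ 2 := by
    rw [div_pow, Real.sq_sqrt hq0, le_div_iff₀ (by positivity)]
    have h5 := I_Q_sq_le hC hB hp
    rw [hq, hv]
    nlinarith [mul_le_mul_of_nonneg_right h5 (sq_nonneg ε)]
  have hR' : ρ ≤ Lp • (1 : M →ₘ[m] ℝ) := by
    rw [le_iff_ae]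
    filter_upwards [hR, smul_ae (1 : M →ₘ[m] ℝ) Lp, one_ae (M := M) (m := m)]
      with x a1 a2 a3
    rwa [a2, a3, mul_one]
  have h5 := stat2 hC hB hF hp (μ := mu / ε) (R := Lp) (KF := KF) (A := q2 / √ε)
    (B := √q / ε) (by positivity) hmuQ hR' hKF0 hKF hA' (by positivity) hQ2 (by positivity)
  have h6 : √q ≤ 1 + q := by
    have := Real.sq_sqrt hq0
    nlinarith [Real.sqrt_nonneg q, sq_nonneg (√q - 1)]
  refine h5.trans ?_
  set X := √(Lp * I (G ^ 2))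
  set Z := √(Lp * I (C.Γ F F))
  have hX0 : 0 ≤ X := Real.sqrt_nonneg _
  have h7 : X * (√q / ε) + KF * (√q / ε) * (q2 / √ε)
      = (X / ε + KF * (q2 / √ε) / ε) * √q := by
    field_simp
  have h8 : (X / ε + KF * (q2 / √ε) / ε) * √q ≤ (X / ε + KF * (q2 / √ε) / ε) * (1 + q) :=
    mul_le_mul_of_nonneg_left h6 (by positivity)
  have h9 : mu / ε * (Lp * I G) + mu / ε * (Z * (q2 / √ε))
      = mu / ε * (Lp * I G + Z * (q2 / √ε)) := by ring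
  linarith

/-- **S2**: the inequality at one level, integrated over `[a',b'] ⊆ [s',b]`, `b < 1`, with an error
`c √ε` that does not depend on the level. -/
theorem level [SigmaFinite m] (h0r : Blk_B0r.{u}) (h1 : Blk_B1.{u}) (h2 : Blk_B2.{u, v})
    (h3 : Blk_B3.{u, v}) (h4 : Blk_B4.{u, v}) {K N : ℝ}
    {E : Type v} [NormedAddCommGroup E] [InnerProductSpace ℝ E] [CompleteSpace E]
    {Gr : (M →ₘ[m] ℝ) → M → E} {U : (M →ₘ[m] ℝ) → (M →ₘ[m] ℝ) → M → E}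
    {D : (M →ₘ[m] ℝ) → (M →ₘ[m] ℝ)} (hct : CtB C K N Gr U D) {F G w : M →ₘ[m] ℝ}
    (hF : C.FLap F G) (hw : MemLp w ∞ m)
    (hW : ∀ h ∈ C.TestI, ∀ ρ : M →ₘ[m] ℝ, ρ - 1 ∈ C.TestI → 0 ≤ ρ →
      C.wH1 F h ρ ≤ I (ρ * w * C.Γ h h))
    {s s' b Λ : ℝ} (hs : 0 < s) (hss : s < s') (hsb : s' < b) (hb : b < 1) :
    ∃ c : ℝ, ∀ (ε : ℝ) (l : M →ₘ[m] ℝ) (φ u : ℝ → M →ₘ[m] ℝ), LvB C ε s Λ l φ u →
      ContinuousOn (fun t => I (rh ε φ u t * w * C.Γ (th φ u t) (th φ u t))) (Icc s 1) ∧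
      ∀ a' b', s' ≤ a' → a' ≤ b' → b' ≤ b →
        I (rh ε φ u b' * C.Γ F (th φ u b')) - I (rh ε φ u a' * C.Γ F (th φ u a'))
          ≤ (∫ t in a'..b', I (rh ε φ u t * w * C.Γ (th φ u t) (th φ u t))) + c * √ε := by
  have hC := hct.gam
  have hB := hC.bei hct.hN hct.be
  have hD := hC.toIsDir
  obtain ⟨c2, hc2⟩ := h2 K N s s' Λ hs hss (hsb.trans hb)
  obtain ⟨c3, hc3⟩ := h3 K N s s' Λ hs hss (hsb.trans hb)
  obtain ⟨c4, hc4⟩ := h4 K N s s' Λ hs hss (hsb.trans hb)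
  obtain ⟨KF, hKF0, hKF⟩ : ∃ k : ℝ, 0 ≤ k ∧ ∀ᵐ x ∂m, C.Γ F F x ≤ k ^ 2 := by
    obtain ⟨k, hk⟩ := mem_top_iff.1 hF.lip
    refine ⟨√|k|, Real.sqrt_nonneg _, ?_⟩
    filter_upwards [hk] with x hx
    rw [Real.sq_sqrt (abs_nonneg _)]
    exact (le_abs_self _).trans (hx.trans (le_abs_self _))
  set Lp : ℝ := max Λ 0 with hLp
  have hLp0 : 0 ≤ Lp := le_max_right _ _
  have hG0 : 0 ≤ I G := I_nonneg hF.Gnn
  set X : ℝ := √(Lp * I (G ^ 2)) with hX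
  set Y : ℝ := Lp * I G with hY
  set Z : ℝ := √(Lp * I (C.Γ F F)) with hZ
  have hX0 : 0 ≤ X := Real.sqrt_nonneg _
  have hZ0 : 0 ≤ Z := Real.sqrt_nonneg _
  have hY0 : 0 ≤ Y := mul_nonneg hLp0 hG0
  set mu : ℝ := 2 * (Lp / (1 - b) + Lp) with hmu
  have hb1 : 0 < 1 - b := by linarith
  have hmu0 : 0 ≤ mu := by positivity
  set q2 : ℝ := √|c2| with hq2
  have hq20 : 0 ≤ q2 := Real.sqrt_nonneg _
  set J : ℝ := 8 * |c3| + 2 * |c4| with hJ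
  have hJ0 : 0 ≤ J := by positivity
  refine ⟨(X + KF * q2) * (1 + J) + mu * (Y + Z * q2), fun ε l φ u L => ?_⟩
  have hε : 0 < ε := L.reg.hε
  have hε1 := L.hε1
  refine ⟨cont_quad h0r hC hB L.reg hw, fun a' b' ha hab hb' => ?_⟩
  have hsub : Icc a' b' ⊆ Icc s 1 := Icc_subset_Icc (by linarith) (by linarith)
  have hsub' : Icc a' b' ⊆ Icc s' 1 := Icc_subset_Icc ha (by linarith)
  have hm : ∀ t ∈ Icc s 1, LL ε φ u t ∈ C.TestI ∧ th φ u t ∈ C.TestI ∧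
      C.RhoL (rh ε φ u t) (LL ε φ u t) := fun t ht => reg_rhoL hC hB L.reg ht
  obtain ⟨e, he, hei, hel⟩ := hc3 M m C E Gr U D hct ε l φ u L
  have hV4 := hc4 M m C E Gr U D hct ε l φ u L
  obtain ⟨-, -, -, -, -, -, -, cV4, -⟩ := h1 M m C K hC hB ε s 1 φ u L.reg
  have cV4' : ContinuousOn (C.EV4 ε φ u) (Icc s' 1) := cV4.mono (Icc_subset_Icc_left hss.le)
  have V40 : ∀ t ∈ Icc s 1, 0 ≤ C.EV4 ε φ u t := fun t ht =>
    I_nonneg (mul_nonneg (hm t ht).2.2.nn (sq_nonneg' _))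
  have he' : ∀ t ∈ Icc s' 1, ε ^ 2 * I (rh ε φ u t * C.lap (LL ε φ u t) ^ 2) ≤ e t := by
    intro t ht
    have ht' : t ∈ Icc s 1 := ⟨hss.le.trans ht.1, ht.2⟩
    have h5 := hel t ht
    have h6 : 0 ≤ I (rh ε φ u t * D (th φ u t) ^ 2) :=
      I_nonneg (mul_nonneg (hm t ht').2.2.nn (sq_nonneg' _))
    have h7 : 0 ≤ I (rh ε φ u t * D (LL ε φ u t) ^ 2) :=
      I_nonneg (mul_nonneg (hm t ht').2.2.nn (sq_nonneg' _))
    nlinarith [mul_nonneg (sq_nonneg ε) h7]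
  have he0 : ∀ t ∈ Icc s' 1, 0 ≤ e t := fun t ht =>
    (mul_nonneg (sq_nonneg ε) (I_nonneg (mul_nonneg
      (hm t ⟨hss.le.trans ht.1, ht.2⟩).2.2.nn (sq_nonneg' _)))).trans (he' t ht)
  set q : ℝ → ℝ := fun t => 8 * e t + 2 * (ε ^ 2 * C.EV4 ε φ u t) with hq
  have hq0 : ∀ t ∈ Icc s' 1, 0 ≤ q t := fun t ht => by
    have h5 := he0 t ht
    have h6 := V40 t ⟨hss.le.trans ht.1, ht.2⟩
    simp only [hq]
    positivity
  have hqc : ContinuousOn q (Icc s' 1) :=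
    (he.const_mul 8).add ((cV4'.const_mul (ε ^ 2)).const_mul 2)
  have hs1 : s' ≤ 1 := (hsb.trans hb).le
  have iE : IntervalIntegrable e volume s' 1 := (he.intervalIntegrable_of_Icc hs1)
  have iV : IntervalIntegrable (fun t => ε ^ 2 * C.EV4 ε φ u t) volume s' 1 :=
    ((cV4'.const_mul (ε ^ 2)).intervalIntegrable_of_Icc hs1)
  have iq : ∫ t in s'..1, q t ≤ J := by
    simp only [hq]
    rw [intervalIntegral.integral_add (iE.const_mul 8) (iV.const_mul 2),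
      intervalIntegral.integral_const_mul, intervalIntegral.integral_const_mul (2 : ℝ)]
    have := le_abs_self c3
    have := le_abs_self c4
    linarith
  have iqq : IntervalIntegrable q volume s' 1 := hqc.intervalIntegrable_of_Icc hs1
  have iq' : ∫ t in a'..b', q t ≤ J := by
    refine le_trans ?_ iq
    rw [intervalIntegral.integral_of_le hab, intervalIntegral.integral_of_le hs1]
    refine setIntegral_mono_set ((intervalIntegrable_iff_integrableOn_Ioc_of_le hs1).1 iqq) ?_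
      (Ioc_subset_Ioc ha (by linarith)).eventuallyLE
    refine (ae_restrict_iff' measurableSet_Ioc).2 (Eventually.of_forall fun t ht => ?_)
    exact hq0 t ⟨ht.1.le, ht.2⟩
  have iqab : IntervalIntegrable q volume a' b' :=
    (hqc.mono hsub').intervalIntegrable_of_Icc hab
  have hbound : ∀ t ∈ Icc a' b', -I (rh ε φ u t * C.Γ F (Q C (LL ε φ u t)))
      ≤ (X / ε + KF * (q2 / √ε) / ε) * (1 + q t) + (mu / ε) * (Y + Z * (q2 / √ε)) := by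
    intro t ht
    have ht1 := hsub ht
    have ht2 := hsub' ht
    have htb : t ≤ b := ht.2.trans hb'
    have hL1 : Λ ≤ Lp := le_max_left _ _
    refine err_static hC hB hF (hm t ht1).2.2 hε hmu0 ?_ hLp0
      ((L.bd.rho t ht1).mono fun x h => h.trans hL1) hKF0 hKF hq20 ?_ (he' t ht2) rfl
    · refine Q_lower hC hB L.reg ht1 ?_ ((L.bd.lu t ht1).mono fun x h => h.trans hL1)
      filter_upwards [L.bd.lφ' t ⟨ht1.1, by linarith⟩] with x a9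
      refine le_trans (neg_le_neg ?_) a9
      exact (div_le_div_of_nonneg_right hL1 (by linarith)).trans
        (div_le_div_of_nonneg_left hLp0 hb1 (by linarith))
    · have h5 := (hc2 M m C E Gr U D hct ε l φ u L t ht2).1
      rw [hq2, Real.sq_sqrt (abs_nonneg _)]
      exact h5.trans (le_abs_self _)
  have hsε : 0 < √ε := Real.sqrt_pos.2 hε
  have hA1 : 0 ≤ X / ε + KF * (q2 / √ε) / ε := by positivity
  have hA2 : 0 ≤ (mu / ε) * (Y + Z * (q2 / √ε)) := by positivity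
  obtain ⟨ierr, h11⟩ := err_int hab (by linarith) iqab iq' hA1 hA2
  have icq := ((cont_quad h0r hC hB L.reg hw).mono hsub).intervalIntegrable_of_Icc hab
    (μ := volume)
  have h10 := integrated hC hB (F := F) (Λ := w) (ε := ε) (ρ := rh ε φ u) (l := LL ε φ u)
    (θ := th φ u) hF.W hF.lip hab
    (fun t ht => (hm t (hsub ht)).2.2) (fun t ht => (hm t (hsub ht)).2.1)
    (fun t ht => ?_) (fun t ht => ?_)
    (fun t ht => hW _ (hm t (hsub ht)).2.1 _ (hm t (hsub ht)).2.2.r_mem (hm t (hsub ht)).2.2.nn)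
    hbound ierr icq
  · refine h10.trans (add_le_add le_rfl ?_)
    exact (mul_le_mul_of_nonneg_left h11 (by positivity)).trans
      (real_fin hε hε1 hX0 hKF0 hq20 (by positivity) hmu0 hY0 hZ0)
  · -- `L²` derivative of the density
    have hd := (hD.DW_DL2 (reg_dw h0r hC hB L.reg (hsub ht)).1).lim.mono_left
      (nhdsWithin_mono t (diff_subset_diff_left hsub))
    refine hd.congr fun r => ?_
    rw [add_comm (C.Γ (rh ε φ u t - 1) (th φ u t)),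
      hD.symm _ (hC.test_A (hm t (hsub ht)).2.2.r_mem.1).1 _
        (hC.test_A (hm t (hsub ht)).2.1.1).1]
  · exact (reg_dw h0r hC hB L.reg (hsub ht)).2.lim.mono_left
      (nhdsWithin_mono t (diff_subset_diff_left hsub))

end

end H368

end Vale.Agent.P233
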