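import Vale.Agent.P233.Bd3.B9

/-!
P233, block F2S (helper368): the weak Hessian bound of a bounded Lipschitz function `F`,
used for the functions of the entropic interpolation at one fixed time.
-/

open MeasureTheory Filter Topology
open scoped ENNReal NNReal

namespace Vale.Agent.P233

variable {M : Type*} [MeasurableSpace M] {m : Measure M}

/-- `∫ ρ Hess F (∇h,∇h)` in the weak form, for a density `ρ` with `ρ - 1 ∈ W`
(the constant has no gradient) -/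
noncomputable def Calc.wH1 (C : Calc m) (F h ρ : M →ₘ[m] ℝ) : ℝ :=
  -I (C.Γ F h * (ρ * C.lap h + C.Γ h (ρ - 1))) - 2⁻¹ * I (ρ * C.Γ F (C.Γ h h))

/-- Input of the block F2S: `F` is bounded, Lipschitz and in `W`, and `ΔF ≤ G` weakly,
`0 ≤ G ∈ L¹ ∩ L∞`, on constants + bounded Sobolev functions. -/
structure Calc.FLap (C : Calc m) (F G : M →ₘ[m] ℝ) : Prop where
  W : F ∈ C.W
  bdd : MemLp F ∞ m
  lip : MemLp (C.Γ F F) ∞ m
  Gnn : 0 ≤ G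
  G1 : MemLp G 1 m
  Gt : MemLp G ∞ m
  lap : ∀ w ∈ C.A, ∀ c : ℝ, 0 ≤ w + c • 1 → -I (C.Γ F w) ≤ I (G * (w + c • 1))

/-- One time of the entropic interpolation: density `ρ`, `L = log ρ`. -/
structure Calc.RhoL (C : Calc m) (ρ l : M →ₘ[m] ℝ) : Prop where
  r_mem : ρ - 1 ∈ C.TestI
  l_mem : l ∈ C.TestI
  nn : 0 ≤ ρ
  gr : ∀ g ∈ C.W, C.Γ (ρ - 1) g = ρ * C.Γ l g

variable {C : Calc m}

namespace H368

/-- `Q = 2 ΔL + |∇L|²` -/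
noncomputable def Q (C : Calc m) (l : M →ₘ[m] ℝ) : M →ₘ[m] ℝ := (2 : ℝ) • C.lap l + C.Γ l l

section

variable (hC : IsGamma C) {κ : ℝ} (hB : C.BEi κ)
variable {F G ρ l h : M →ₘ[m] ℝ}

include hC hB

theorem Q_mem (hl : l ∈ C.TestI) : Q C l ∈ C.A :=
  hC.toIsDir.A_add (hC.toIsDir.A_smul 2 (hC.testI_lap_A hB hl)) (hC.Γ_mem hB hl.1 hl.1)

/-- the static inequality: `-∫ ρ <∇F,∇Q> ≤ ∫ G ρ (Q + μ) + μ ∫ ρ <∇F,∇L> + ∫ ρ Q <∇F,∇L>` -/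
theorem stat1 (hF : C.FLap F G) (hp : C.RhoL ρ l) {μ : ℝ}
    (hμ : 0 ≤ Q C l + μ • 1) :
    -I (ρ * C.Γ F (Q C l)) ≤ I (G * (ρ * (Q C l + μ • 1)))
      + μ * I (ρ * C.Γ F l) + I (ρ * (Q C l * C.Γ F l)) := by
  have hD := hC.toIsDir
  have hQ := Q_mem hC hB hp.l_mem
  obtain ⟨r, hr⟩ : ∃ r, r = ρ - 1 := ⟨_, rfl⟩
  have hρ : ρ = r + 1 := by rw [hr]; ring
  have hrA : r ∈ C.A := hr ▸ hC.test_A hp.r_mem.1
  have hlA : l ∈ C.A := hC.test_A hp.l_mem.1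
  have hρt : MemLp ρ ∞ m := by rw [hρ]; exact mem_add hrA.2 mem_top_one
  set q := Q C l with hq
  -- w + μ = ρ (q + μ)
  have hw : r * q + q + μ • r ∈ C.A :=
    hD.A_add (hD.A_add (hD.mul_mem_A hrA hQ) hQ) (hD.A_smul μ hrA)
  have e1 : r * q + q + μ • r + μ • (1 : M →ₘ[m] ℝ) = ρ * (q + μ • 1) := by
    rw [hρ]; simp only [Algebra.smul_def]; ring
  have h1 := hF.lap _ hw μ (by rw [e1]; exact mul_nonneg hp.nn hμ)
  rw [e1] at h1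
  have e3 : C.Γ F r = ρ * C.Γ F l := by
    rw [hD.symm F hF.W r hrA.1, hr, hp.gr F hF.W, hD.symm l hlA.1 F hF.W]
  have e2 : C.Γ F (r * q + q + μ • r)
      = ρ * C.Γ F q + ρ * (q * C.Γ F l) + μ • (ρ * C.Γ F l) := by
    rw [hD.Γ_add_right hF.W (hD.A_add (hD.mul_mem_A hrA hQ) hQ).1
      (hD.A_smul μ hrA).1, hD.Γ_add_right hF.W (hD.mul_mem_A hrA hQ).1 hQ.1,
      hD.Γ_smul_right μ hF.W hrA.1, hD.Γ_mul_right hrA hQ hF.W, e3]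
    rw [hρ]; simp only [Algebra.smul_def]; ring
  have i1 : MemLp (ρ * C.Γ F q : M →ₘ[m] ℝ) 1 m := mem_mul_top hρt (hD.Γ_mem1 hF.W hQ.1)
  have i3 : MemLp (ρ * C.Γ F l : M →ₘ[m] ℝ) 1 m := mem_mul_top hρt (hD.Γ_mem1 hF.W hlA.1)
  have i2 : MemLp (ρ * (q * C.Γ F l) : M →ₘ[m] ℝ) 1 m :=
    mem_mul_top hρt (mem_mul_top hQ.2 (hD.Γ_mem1 hF.W hlA.1))
  rw [e2, I_add (mem_add i1 i2) (mem_smul μ i3), I_add i1 i2, I_smul] at h1
  linarith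

omit hC hB in
/-- Cauchy-Schwarz with a bounded weight -/
theorem cs_w {ρ a b : M →ₘ[m] ℝ} (hρ0 : 0 ≤ ρ) (hρ : MemLp ρ ∞ m) (ha : MemLp a 2 m)
    (hb : MemLp b 2 m) : I (ρ * (a * b)) ^ 2 ≤ I (ρ * a ^ 2) * I (ρ * b ^ 2) := by
  have ia : MemLp (ρ * a ^ 2 : M →ₘ[m] ℝ) 1 m := mem_mul_top hρ (mem_sq ha)
  have ib : MemLp (ρ * b ^ 2 : M →ₘ[m] ℝ) 1 m := mem_mul_top hρ (mem_sq hb)
  have iab : MemLp (ρ * (a * b) : M →ₘ[m] ℝ) 1 m := mem_mul_top hρ (mem_mul_22 ha hb)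
  refine disc_of_forall fun t => ?_
  have h1 : I (ρ * (a + t • b) ^ 2)
      = I (ρ * a ^ 2) + 2 * t * I (ρ * (a * b)) + t ^ 2 * I (ρ * b ^ 2) := by
    have e : ρ * (a + t • b) ^ 2
        = ρ * a ^ 2 + (2 * t) • (ρ * (a * b)) + (t ^ 2) • (ρ * b ^ 2) := by
      simp only [Algebra.smul_def, map_mul, map_pow, map_ofNat]
      ring
    rw [e, I_add (mem_add ia (mem_smul _ iab)) (mem_smul _ ib), I_add ia (mem_smul _ iab),
      I_smul, I_smul]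
  rw [← h1]
  exact I_nonneg (mul_nonneg hρ0 (sq_nonneg' _))

omit hC hB in
/-- Cauchy-Schwarz for `Γ` with a bounded weight -/
theorem cs_Γ (hD : IsDir C) {ρ a b : M →ₘ[m] ℝ} (hρ0 : 0 ≤ ρ) (hρ : MemLp ρ ∞ m) (ha : a ∈ C.W)
    (hb : b ∈ C.W) : I (ρ * C.Γ a b) ^ 2 ≤ I (ρ * C.Γ a a) * I (ρ * C.Γ b b) := by
  have ia : MemLp (ρ * C.Γ a a : M →ₘ[m] ℝ) 1 m := mem_mul_top hρ (hD.Γ_mem1 ha ha)
  have ib : MemLp (ρ * C.Γ b b : M →ₘ[m] ℝ) 1 m := mem_mul_top hρ (hD.Γ_mem1 hb hb)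
  have iab : MemLp (ρ * C.Γ a b : M →ₘ[m] ℝ) 1 m := mem_mul_top hρ (hD.Γ_mem1 ha hb)
  refine disc_of_forall fun t => ?_
  have h1 : I (ρ * C.Γ (a + t • b) (a + t • b))
      = I (ρ * C.Γ a a) + 2 * t * I (ρ * C.Γ a b) + t ^ 2 * I (ρ * C.Γ b b) := by
    rw [hD.Γ_expand t ha hb]
    have e : ρ * (C.Γ a a + (2 * t) • C.Γ a b + (t ^ 2) • C.Γ b b)
        = ρ * C.Γ a a + (2 * t) • (ρ * C.Γ a b) + (t ^ 2) • (ρ * C.Γ b b) := by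
      simp only [mul_add, mul_smul_comm]
    rw [e, I_add (mem_add ia (mem_smul _ iab)) (mem_smul _ ib), I_add ia (mem_smul _ iab),
      I_smul, I_smul]
  rw [← h1]
  exact I_nonneg (mul_nonneg hρ0 (hD.nonneg _ (hD.add_mem _ ha _ (hD.smul_mem t _ hb))))

/-- the error estimate of F2S at one time, in terms of `A² ≥ E|∇L|²` and `B² ≥ E Q²` -/
theorem stat2 (hF : C.FLap F G) (hp : C.RhoL ρ l) {μ R KF A B : ℝ}
    (hμ0 : 0 ≤ μ) (hμ : 0 ≤ Q C l + μ • 1) (hR : ρ ≤ R • (1 : M →ₘ[m] ℝ))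
    (hKF0 : 0 ≤ KF) (hKF : ∀ᵐ x ∂m, C.Γ F F x ≤ KF ^ 2)
    (hA : I (ρ * C.Γ l l) ≤ A ^ 2) (hA0 : 0 ≤ A)
    (hB' : I (ρ * Q C l ^ 2) ≤ B ^ 2) (hB0 : 0 ≤ B) :
    -I (ρ * C.Γ F (Q C l)) ≤ √(R * I (G ^ 2)) * B + μ * (R * I G)
      + μ * (√(R * I (C.Γ F F)) * A) + KF * B * A := by
  have hD := hC.toIsDir
  have hQ := Q_mem hC hB hp.l_mem
  have hrA : ρ - 1 ∈ C.A := hC.test_A hp.r_mem.1
  have hlA : l ∈ C.A := hC.test_A hp.l_mem.1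
  have hρt : MemLp ρ ∞ m := by
    have := mem_add hrA.2 mem_top_one
    rwa [sub_add_cancel] at this
  have h0 := stat1 hC hB hF hp hμ
  set q := Q C l with hq
  have hG2 : MemLp G 2 m := by
    refine memLp_two_of_sq ?_
    rw [sq]; exact mem_mul_top hF.Gt hF.G1
  have hQ2 : MemLp q 2 m := hD.memLp _ hQ.1
  -- helper : from squares
  have key : ∀ {x y z : ℝ}, x ^ 2 ≤ y * z → 0 ≤ y → ∀ {Y Z : ℝ}, y ≤ Y → z ≤ Z ^ 2 → 0 ≤ Z →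
      x ≤ √Y * Z := by
    intro x y z h hy Y Z hY hZ hZ0
    have h1 : x ^ 2 ≤ (√Y * Z) ^ 2 := by
      rw [mul_pow, Real.sq_sqrt (hy.trans hY)]
      calc x ^ 2 ≤ y * z := h
        _ ≤ y * Z ^ 2 := mul_le_mul_of_nonneg_left hZ hy
        _ ≤ Y * Z ^ 2 := mul_le_mul_of_nonneg_right hY (sq_nonneg Z)
    exact (abs_le.1 (abs_le_of_sq_le_sq h1 (by positivity))).2
  -- the first term
  have t1 : I (G * (ρ * (q + μ • 1))) = I (ρ * (G * q)) + μ * I (ρ * G) := by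
    have e : G * (ρ * (q + μ • 1)) = ρ * (G * q) + μ • (ρ * G) := by
      simp only [Algebra.smul_def]; ring
    rw [e, I_add (mem_mul_top hρt (mem_mul_22 hG2 hQ2)) (mem_smul _ (mem_mul_top hρt hF.G1)),
      I_smul]
  have t2 : I (ρ * (G * q)) ≤ √(R * I (G ^ 2)) * B := by
    refine key (cs_w hp.nn hρt hG2 hQ2) (I_nonneg (mul_nonneg hp.nn (sq_nonneg' _))) ?_ hB' hB0
    rw [← I_smul]
    refine I_mono (mem_mul_top hρt (mem_sq hG2)) (mem_smul _ (mem_sq hG2)) ?_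
    calc ρ * G ^ 2 ≤ (R • 1) * G ^ 2 := mul_le_mul_of_nonneg_right hR (sq_nonneg' _)
      _ = R • G ^ 2 := by rw [smul_mul_assoc, one_mul]
  have t3 : I (ρ * G) ≤ R * I G := by
    rw [← I_smul]
    refine I_mono (mem_mul_top hρt hF.G1) (mem_smul _ hF.G1) ?_
    calc ρ * G ≤ (R • 1) * G := mul_le_mul_of_nonneg_right hR hF.Gnn
      _ = R • G := by rw [smul_mul_assoc, one_mul]
  have t4 : I (ρ * C.Γ F l) ≤ √(R * I (C.Γ F F)) * A := by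
    refine key (cs_Γ hD hp.nn hρt hF.W hlA.1)
      (I_nonneg (mul_nonneg hp.nn (hD.nonneg _ hF.W))) ?_ hA hA0
    rw [← I_smul]
    refine I_mono (mem_mul_top hρt (hD.mem1 _ hF.W)) (mem_smul _ (hD.mem1 _ hF.W)) ?_
    calc ρ * C.Γ F F ≤ (R • 1) * C.Γ F F := mul_le_mul_of_nonneg_right hR (hD.nonneg _ hF.W)
      _ = R • C.Γ F F := by rw [smul_mul_assoc, one_mul]
  have hFl2 : MemLp (C.Γ F l) 2 m := hD.Γ_mem2 hF.W hF.lip hlA.1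
  have t5 : I (ρ * (q * C.Γ F l)) ≤ KF * B * A := by
    have e1 := cs_w hp.nn hρt hFl2 hQ2
    rw [mul_comm (C.Γ F l) q] at e1
    have e2 : I (ρ * C.Γ F l ^ 2) ≤ KF ^ 2 * A ^ 2 := by
      have e3 : I (ρ * C.Γ F l ^ 2) ≤ I (KF ^ 2 • (ρ * C.Γ l l)) := by
        refine I_mono (mem_mul_top hρt (mem_sq hFl2))
          (mem_smul _ (mem_mul_top hρt (hD.mem1 _ hlA.1))) ?_
        rw [le_iff_ae]
        have hn := nonneg_iff_ae.1 hp.nn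
        filter_upwards [hD.Γ_cs_ae hF.W hlA.1, hKF, hn, mul_ae ρ (C.Γ F l ^ 2), sq_ae (C.Γ F l),
          smul_ae (ρ * C.Γ l l) (KF ^ 2), mul_ae ρ (C.Γ l l), hD.Γ_nonneg_ae hlA.1]
          with x a1 a2 a3 a4 a5 a6 a7 a8
        rw [a4, a5, a6, a7]
        calc ρ x * C.Γ F l x ^ 2 ≤ ρ x * (C.Γ F F x * C.Γ l l x) :=
              mul_le_mul_of_nonneg_left a1 a3
          _ ≤ ρ x * (KF ^ 2 * C.Γ l l x) :=
              mul_le_mul_of_nonneg_left (mul_le_mul_of_nonneg_right a2 a8) a3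
          _ = KF ^ 2 * (ρ x * C.Γ l l x) := by ring
      rw [I_smul] at e3
      exact e3.trans (mul_le_mul_of_nonneg_left hA (sq_nonneg _))
    have e4 : I (ρ * (q * C.Γ F l)) ≤ √(KF ^ 2 * A ^ 2) * B :=
      key e1 (I_nonneg (mul_nonneg hp.nn (sq_nonneg' _))) e2 hB' hB0
    rw [show KF ^ 2 * A ^ 2 = (KF * A) ^ 2 by ring, Real.sqrt_sq (by positivity)] at e4
    linarith
  have t6 := mul_le_mul_of_nonneg_left t3 hμ0
  have t7 := mul_le_mul_of_nonneg_left t4 hμ0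
  rw [t1] at h0
  linarith

end

end H368

end Vale.Agent.P233
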