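import Vale.Agent.P233.H368.S3b
import Vale.Agent.P233.H866.S4

/-!
P233, block F2S (helper368), step S3: the limit `ε → 0` of the integrated inequality
(`PF.Blk_S3`).
-/

set_option linter.all false

open MeasureTheory Filter Topology Set
open scoped ENNReal NNReal

universe u v

namespace Vale.Agent.P233

namespace H368

open UST
open Vale.Agent.P233.PC
open Vale.Agent.P233.PA (en OutA PotLim)

theorem en_pos (n : ℕ) : 0 < en n := by unfold en; positivity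

theorem en_tendsto : Tendsto en atTop (𝓝 0) := by
  unfold en
  have := tendsto_one_div_add_atTop_nhds_zero_nat (𝕜 := ℝ)
  simpa [one_div] using this

section

variable {M : Type u} [MeasurableSpace M] {m : Measure M} {C : Calc m}

/-- gradient bound of `θ` from those of `φ`, `u` -/
theorem th_grad (hC : IsGamma C) {ε a b K : ℝ} {φ u : ℝ → M →ₘ[m] ℝ}
    (hR : C.Reg ε a b φ u) {t : ℝ} (ht : t ∈ Icc a b)
    (h1 : ∀ᵐ x ∂m, C.Γ (φ t) (φ t) x ≤ K) (h2 : ∀ᵐ x ∂m, C.Γ (u t) (u t) x ≤ K) :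
    ∀ᵐ x ∂m, C.Γ (th φ u t) (th φ u t) x ≤ K := by
  have hD := hC.toIsDir
  have hφ := (hC.test_A (hR.φ_mem t ht).1).1
  have hu := (hC.test_A (hR.u_mem t ht).1).1
  have e2 : C.Γ (th φ u t) (th φ u t) = (2 : ℝ)⁻¹ ^ 2 • C.Γ (φ t + u t) (φ t + u t) := by
    rw [th, Γ_smul_self hD _ (hD.add_mem _ hφ _ hu)]
  filter_upwards [Γ_add_le4 hD hφ hu h1 h2,
    smul_ae (C.Γ (φ t + u t) (φ t + u t)) ((2 : ℝ)⁻¹ ^ 2)] with x b1 b2
  rw [e2, b2]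
  linarith

end

section

variable {M : Type u} [MeasurableSpace M] {m : Measure M} {C : Calc m}

/-- the limit of the integrated inequality -/
theorem pass_limit (hD : IsDir C) {U : Ultrafilter ℕ} {a b R' K' A : ℝ} (hab : a ≤ b)
    {ρ θ u : ℕ → ℝ → M →ₘ[m] ℝ} {ell : ℝ → (M →ₘ[m] ℝ) → ℝ} {z : ℝ → M →ₘ[m] ℝ}
    {F X w : M →ₘ[m] ℝ}
    (hLS : ∀ t ∈ Icc a b, LimS C ((U : Filter ℕ) ×ˢ 𝓝[Icc a b] t) (fun i => ρ i.1 i.2)
      (fun i => θ i.1 i.2) (fun i => u i.1 i.2) (ell t) (z t) X R' K')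
    (hF : F ∈ C.W) (hFt : MemLp (C.Γ F F) ∞ m) (hXF : ∀ g ∈ C.W, X * C.Γ F g = C.Γ F g)
    (hA : 0 ≤ A) (hw : ∀ᵐ x ∂m, |w x| ≤ A * X x)
    (hcont : ∀ᶠ n in (U : Filter ℕ),
      ContinuousOn (fun t => I (ρ n t * w * C.Γ (θ n t) (θ n t))) (Icc a b))
    {e : ℕ → ℝ} (he : Tendsto e U (𝓝 0))
    (hi : ∀ᶠ n in (U : Filter ℕ), I (ρ n b * C.Γ F (θ n b)) - I (ρ n a * C.Γ F (θ n a))
      ≤ (∫ t in a..b, I (ρ n t * w * C.Γ (θ n t) (θ n t))) + e n) :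
    ell b (C.Γ F (z b)) - ell a (C.Γ F (z a)) ≤ ∫ t in a..b, ell t (w * C.Γ (z t) (z t)) := by
  have l1 : ∀ t ∈ Icc a b, Tendsto (fun n => I (ρ n t * C.Γ F (θ n t))) U
      (𝓝 (ell t (C.Γ F (z t)))) := fun t ht =>
    ((hLS t ht).lin hD hF hFt hXF).comp (tendsto_slice ht)
  have cc : CC (U : Filter ℕ) (Icc a b) (fun n t => I (ρ n t * w * C.Γ (θ n t) (θ n t)))
      (fun t => ell t (w * C.Γ (z t) (z t))) := fun t ht =>
    ((hLS t ht).quad hD hA hw).congr fun i => by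
      show I (ρ i.1 i.2 * (w * C.Γ (θ i.1 i.2) (θ i.1 i.2)))
        = I (ρ i.1 i.2 * w * C.Γ (θ i.1 i.2) (θ i.1 i.2))
      rw [mul_assoc]
  have l2 := cc.tendsto_intervalIntegral hab
    (hcont.mono fun n hn => hn.intervalIntegrable_of_Icc hab)
  have key := le_of_tendsto_of_tendsto
    ((l1 b ⟨hab, le_rfl⟩).sub (l1 a ⟨le_rfl, hab⟩)) (l2.add he) hi
  rwa [add_zero] at key

end

section metric

variable {M : Type u} [MetricSpace M] [SecondCountableTopology M] [MeasurableSpace M]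
  [BorelSpace M] {m : Measure M}

theorem std_sigma {K N : ℝ} (hS : Std m K N) [Nonempty M] : SigmaFinite m := by
  obtain ⟨x₀⟩ := ‹Nonempty M›
  exact ⟨⟨⟨fun n => Metric.ball x₀ n, fun n => trivial, fun n => hS.hfin _ _,
    Metric.iUnion_ball_nat x₀⟩⟩⟩

/-- the gradient of `F = md_κ(d_p)` (truncated at `r`) lives in the ball -/
theorem grad_mdr {K N : ℝ} (hS : Std m K N) {κ : ℝ} (p : M) {r : ℝ} (hr : 0 < r)
    {g : M →ₘ[m] ℝ} (hg : g ∈ (sob m).W) :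
    ∀ᵐ x ∂m, (sob m).Γ (cl m (mdr κ p r)) g x ≠ 0 → dist p x < r := by
  have hD := (H866.std_gamma hS).toIsDir
  have hF := (H866.mdr_mem hS p hr (κ := κ)).1.1
  filter_upwards [hD.Γ_ae_zero hF hg, H866.cl_ae (m := m) (H866.continuous_mdr κ p r)]
    with x h1 h2 h3
  by_contra h4
  refine h3 (h1 ?_)
  rw [h2, H866.mdr_supp x (not_lt.1 h4)]

/-- the gradient of `zc` lives in the moving ball -/
theorem grad_zc {K N : ℝ} (hS : Std m K N) {q : M} {s₀ C₀ t : ℝ} (hs : 0 < s₀) (hC0 : 0 < C₀)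
    (ht : t ∈ Icc (0 : ℝ) 1) (hz : zc m q s₀ C₀ t ∈ (sob m).W) :
    ∀ᵐ x ∂m, (sob m).Γ (zc m q s₀ C₀ t) (zc m q s₀ C₀ t) x ≠ 0 → dist q x < r1 s₀ C₀ := by
  have hD := (H866.std_gamma hS).toIsDir
  filter_upwards [hD.Γ_ae_zero hz hz, H866.cl_ae (m := m) (H866.continuous_zr q s₀ C₀ t)]
    with x h1 h2 h3
  by_contra h4
  refine h3 (h1 ?_)
  rw [zc, h2, zr]
  refine min_eq_right ?_
  have hT : 0 < t + s₀ := by linarith [ht.1]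
  have h5 : 2 * C₀ * (1 + s₀) ≤ dist q x ^ 2 := by
    have h6 := not_lt.1 h4
    rw [r1] at h6
    have h7 : 0 ≤ 2 * C₀ * (1 + s₀) := by positivity
    calc 2 * C₀ * (1 + s₀) = √(2 * C₀ * (1 + s₀)) ^ 2 := (Real.sq_sqrt h7).symm
      _ ≤ dist q x ^ 2 := pow_le_pow_left₀ (Real.sqrt_nonneg _) h6 2
  rw [sub_nonneg, le_div_iff₀ (by positivity)]
  nlinarith [ht.2]

/-- the cut-off function -/
theorem exists_X {K N : ℝ} (hS : Std m K N) (p q : M) (r r' : ℝ) :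
    ∃ χ ∈ (sob m).TestI, 0 ≤ χ ∧ (∀ᵐ x ∂m, |χ x| ≤ 1) ∧ (χ * χ : M →ₘ[m] ℝ) ∈ (sob m).TestI ∧
      ∀ᵐ x ∂m, (dist p x < r ∨ dist q x < r') → (χ * χ : M →ₘ[m] ℝ) x = 1 := by
  have hC := H866.std_gamma hS
  have hB := H866.std_bei hS
  obtain ⟨Cc, hcut⟩ := exists_cutI hS.hfin hC hS.hN hS.rcd.bochner p
  obtain ⟨χ, h1, h2, h3, h4, -⟩ := hcut (1 + |r| + (dist p q + |r'|)) (by
    have := abs_nonneg r; have := abs_nonneg r'; have : 0 ≤ dist p q := dist_nonneg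
    linarith)
  refine ⟨χ, h1, h2, ?_, hC.testI_mul hB h1 h1, ?_⟩
  · filter_upwards [nonneg_iff_ae.1 h2, le_iff_ae.1 h3, one_ae (M := M) (m := m)] with x a1 a2 a3
    rw [abs_of_nonneg a1]
    rwa [a3] at a2
  · filter_upwards [h4, mul_ae χ χ] with x a1 a2 a3
    have h5 : dist x p ≤ 1 + |r| + (dist p q + |r'|) := by
      have k1 := abs_nonneg r
      have k2 := abs_nonneg r'
      have k3 : 0 ≤ dist p q := dist_nonneg
      rw [dist_comm]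
      rcases a3 with a3 | a3
      · linarith [le_abs_self r]
      · linarith [le_abs_self r', dist_triangle p q x]
    rw [a2, a1 h5, one_mul]

/-- the data of one final density, in the form of `LimS`, along `U ×ˢ 𝓝[Icc a b] t` -/
theorem limS_cc [SigmaFinite m] (h0r : Blk_B0r.{u}) {K N κ : ℝ} {P : ℝ → (M →ₘ[m] ℝ) → (M →ₘ[m] ℝ)}
    {q : M} {s₀ C₀ : ℝ} (hyp : CHyp M m K N P q s₀ C₀)
    {E : Type} [NormedAddCommGroup E] [InnerProductSpace ℝ E] [CompleteSpace E]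
    {Gr : (M →ₘ[m] ℝ) → M → E} {V : (M →ₘ[m] ℝ) → (M →ₘ[m] ℝ) → M → E}
    {D : (M →ₘ[m] ℝ) → (M →ₘ[m] ℝ)}
    {u : ℕ → ℝ → M →ₘ[m] ℝ} {φ : (M →ₘ[m] ℝ) → ℕ → ℝ → M →ₘ[m] ℝ}
    (hO : OutA m K N P q s₀ C₀ u φ) (hLB : LevB m Gr V D κ u φ)
    {U : Ultrafilter ℕ} (hU : (U : Filter ℕ) ≤ atTop)
    {φ₀ ρ : ℝ → M →ₘ[m] ℝ} {R : ℝ → ℝ → (M →ₘ[m] ℝ) → (M →ₘ[m] ℝ)} {Y : ℝ → M → M}
    (hLim : Lim m K N q s₀ C₀ φ₀ ρ R) (hStr : Strong q s₀ C₀ U u φ Y)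
    {l : M →ₘ[m] ℝ} (hl : l ∈ (sob m).TestI) {s a b Λ : ℝ} (hs : 0 < s) (hsa : s ≤ a)
    (hab : a ≤ b) (hb : b < 1)
    (hLv : ∀ᶠ n in atTop, LvB (sob m) (en n) s Λ l (φ l n) (u n))
    {χ : M →ₘ[m] ℝ} (hχ : χ ∈ (sob m).TestI) (hχ1 : ∀ᵐ x ∂m, |χ x| ≤ 1)
    (hχχ : (χ * χ : M →ₘ[m] ℝ) ∈ (sob m).TestI) :
    ∃ R' K' : ℝ, ∀ t ∈ Icc a b, LimS (sob m) ((U : Filter ℕ) ×ˢ 𝓝[Icc a b] t)
      (fun i => rh (en i.1) (φ l i.1) (u i.1) i.2) (fun i => th (φ l i.1) (u i.1) i.2)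
      (fun i => u i.1 i.2) (fun f => ∫ x, f (Y t x) * Real.exp (l x) ∂m) (zc m q s₀ C₀ t)
      (χ * χ) R' K' := by
  have hS := hyp.std
  have hC := H866.std_gamma hS
  have hB := H866.std_bei hS
  have hD := hC.toIsDir
  have hLvU : ∀ᶠ n in (U : Filter ℕ), LvB (sob m) (en n) s Λ l (φ l n) (u n) := hU hLv
  obtain ⟨Lz, hLz⟩ := hLim.z_grad
  obtain ⟨c2, hc2⟩ := hLB.b2 l hl s ⟨hs, by linarith⟩
  obtain ⟨Du, Du', hLevU⟩ := hO.levU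
  set Lp : ℝ := max Λ 0 with hLp
  have hLp0 : 0 ≤ Lp := le_max_right _ _
  have hΛ : Λ ≤ Lp := le_max_left _ _
  set K' : ℝ := max Lp Lz with hK'
  have hK'0 : 0 ≤ K' := hLp0.trans (le_max_left _ _)
  have hsub : Icc a b ⊆ Icc s 1 := Icc_subset_Icc hsa hb.le
  have hsub0 : Icc a b ⊆ Icc 0 1 := Icc_subset_Icc (hs.le.trans hsa) hb.le
  have hen1 : ∀ n, en n ≤ 1 := fun n => by
    unfold en; exact inv_le_one_of_one_le₀ (by linarith [Nat.cast_nonneg (α := ℝ) n])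
  -- energies
  have hEn : ∀ᶠ n in (U : Filter ℕ), ∀ t ∈ Icc a b,
      I (rh (en n) (φ l n) (u n) t * (sob m).Γ (th (φ l n) (u n) t) (th (φ l n) (u n) t))
        ≤ 2 * |c2| ∧
      I (rh (en n) (φ l n) (u n) t * (sob m).Γ (th (φ l n) (u n) t - u n t)
        (th (φ l n) (u n) t - u n t)) ≤ |c2| * en n := by
    filter_upwards [hLvU, hU hc2] with n h1 h2 t ht
    obtain ⟨k1, k2, k3, -⟩ := h2 t (hsub ht)
    exact energy_th hC hB h1.reg (hsub ht) (hen1 n) k1 k2 k3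
  -- weak convergence
  have hW := dens_wcc h0r hC hB (U := U) (ε := en) (φ := φ l) (u := u) hsa hab hb.le hLp0
    (hLvU.mono fun n h => h.reg)
    (hLvU.mono fun n h t ht => (h.bd.rho t (hsub ht)).mono fun x hx => hx.trans hΛ)
    (hEn.mono fun n h t ht => (h t ht).1)
    (hLvU.mono fun n h t ht => h.bd.l2 t (hsub ht))
  refine ⟨Lp, K', fun t ht => ?_⟩
  have hzA := hLim.z_mem t (hsub0 ht)
  have hzK : ∀ᵐ x ∂m, (sob m).Γ (zc m q s₀ C₀ t) (zc m q s₀ C₀ t) x ≤ K' :=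
    (hLz t (hsub0 ht)).mono fun x hx => hx.trans (le_max_right _ _)
  have hp : ∀ᶠ i : ℕ × ℝ in (U : Filter ℕ) ×ˢ 𝓝[Icc a b] t,
      LvB (sob m) (en i.1) s Λ l (φ l i.1) (u i.1) ∧ i.2 ∈ Icc a b := ev_prod hLvU
  refine ⟨hLp0, hK'0, ?_, ?_, (hC.test_A hχχ.1).2, ?_, ?_, ?_, ?_, ?_, ?_, hzA.1, hzK,
    fun f hf1 hf2 => ?_, ?_, ?_⟩
  · rw [← sq]; exact sq_nonneg' χ
  · rw [← sq]; exact mem_sq (hD.memLp _ (hC.test_A hχ.1).1)
  · filter_upwards [hp] with i hi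
    exact (reg_rhoL hC hB hi.1.reg (hsub hi.2)).2.2.nn
  · filter_upwards [hp] with i hi
    exact (hi.1.bd.rho i.2 (hsub hi.2)).mono fun x hx => hx.trans hΛ
  · filter_upwards [hp] with i hi
    exact (hC.test_A (reg_rhoL hC hB hi.1.reg (hsub hi.2)).2.1.1).1
  · filter_upwards [hp] with i hi
    refine th_grad hC hi.1.reg (hsub hi.2) ?_ ?_
    · exact (hi.1.bd.gφ i.2 (hsub hi.2)).mono fun x hx => (hx.trans hΛ).trans (le_max_left _ _)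
    · exact (hi.1.bd.gu i.2 (hsub hi.2)).mono fun x hx => (hx.trans hΛ).trans (le_max_left _ _)
  · filter_upwards [hp] with i hi
    exact (hC.test_A (hi.1.reg.u_mem i.2 (hsub hi.2)).1).1
  · filter_upwards [hp] with i hi
    exact (hi.1.bd.gu i.2 (hsub hi.2)).mono fun x hx => (hx.trans hΛ).trans (le_max_left _ _)
  · exact weak_ell hW ht hf1 hf2 (hStr.ρ_lim l hl t ⟨hs.trans_le (hsa.trans ht.1),
      (hsub ht).2⟩ f hf1)
  · rw [← sq]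
    refine strong_cc hC ht (K := K') (Lam := Lp) (D := Du) hK'0 hLp0 hzA.1 hzK ?_ ?_ ?_ hχ hχ1
    · filter_upwards [hLvU] with n h r hr
      refine ⟨h.reg.u_mem r (hsub hr), ?_, (h.bd.lu r (hsub hr)).mono fun x hx => hx.trans hΛ⟩
      exact (h.bd.gu r (hsub hr)).mono fun x hx => (hx.trans hΛ).trans (le_max_left _ _)
    · filter_upwards [hU hLevU] with n h r hr
      exact h.time t (hsub0 ht) r (hsub0 hr)
    · exact (hO.ulim.conv t (hsub0 ht)).mono_left hU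
  · have h1 : Tendsto (fun i : ℕ × ℝ => |c2| * en i.1) ((U : Filter ℕ) ×ˢ 𝓝[Icc a b] t) (𝓝 0) := by
      have := ((en_tendsto.mono_left hU).comp (tendsto_fst (g := 𝓝[Icc a b] t))).const_mul |c2|
      simpa [Function.comp_def] using this
    refine squeeze_zero' ?_ ?_ h1
    · filter_upwards [hp] with i hi
      refine I_nonneg (mul_nonneg (reg_rhoL hC hB hi.1.reg (hsub hi.2)).2.2.nn
        (hD.nonneg _ (hD.sub_mem (hC.test_A (reg_rhoL hC hB hi.1.reg (hsub hi.2)).2.1.1).1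
          (hC.test_A (hi.1.reg.u_mem i.2 (hsub hi.2)).1).1)))
    · filter_upwards [ev_prod (S := Icc a b) (t := t) hEn] with i hi
      exact (hi.1 i.2 hi.2).2

theorem Lam_ae (κ : ℝ) (p : M) (r Λ₀ : ℝ) :
    ∃ c : ℝ, 0 ≤ c ∧ ∀ᵐ x ∂m, |cl m (PF.Lam κ p r Λ₀) x| ≤ c := by
  obtain ⟨cL, hcL0, hcL⟩ := PF.Lam_bdd κ p r Λ₀
  refine ⟨cL, hcL0, ?_⟩
  have : AEStronglyMeasurable (PF.Lam κ p r Λ₀) m :=
    (PF.Lam_measurable κ p r Λ₀).aestronglyMeasurable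
  rw [cl, dif_pos this]
  filter_upwards [AEEqFun.coeFn_mk _ this] with x hx
  rw [hx]; exact hcL x

/-- the right hand side without the cut-off -/
theorem rhs_eq {K N : ℝ} (hS : Std m K N) {q : M} {s₀ C₀ : ℝ} (hs : 0 < s₀) (hC0 : 0 < C₀)
    {Y : ℝ → M → M} (hY : RFlow m K N q s₀ C₀ Y)
    (hz : ∀ t ∈ Icc (0 : ℝ) 1, zc m q s₀ C₀ t ∈ (sob m).A) {X Lm l : M →ₘ[m] ℝ} {r' : ℝ}
    (hX1 : ∀ᵐ x ∂m, dist q x < r1 s₀ C₀ → X x = 1) {a b : ℝ} (ha : 0 < a) (hab : a ≤ b)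
    (hb : b < 1) :
    ∫ t in a..b, ∫ x, ((X * Lm) * (sob m).Γ (zc m q s₀ C₀ t) (zc m q s₀ C₀ t) :
      M →ₘ[m] ℝ) (Y t x) * Real.exp (l x) ∂m
      = ∫ t in a..b, ∫ x, Real.exp (l x) *
          (Lm (Y t x) * (sob m).Γ (zc m q s₀ C₀ t) (zc m q s₀ C₀ t) (Y t x)) ∂m := by
  refine intervalIntegral.integral_congr fun t ht => ?_
  rw [uIcc_of_le hab] at ht
  have ht0 : t ∈ Icc (0 : ℝ) 1 := ⟨by linarith [ht.1], by linarith [ht.2]⟩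
  refine integral_congr_ae ?_
  have h6 : ∀ᵐ y ∂m, ((X * Lm) * (sob m).Γ (zc m q s₀ C₀ t) (zc m q s₀ C₀ t) :
      M →ₘ[m] ℝ) y = Lm y * (sob m).Γ (zc m q s₀ C₀ t) (zc m q s₀ C₀ t) y := by
    filter_upwards [hX1, grad_zc hS hs hC0 ht0 (hz t ht0).1, mul_ae (X * Lm)
      ((sob m).Γ (zc m q s₀ C₀ t) (zc m q s₀ C₀ t)), mul_ae X Lm] with y a1 a2 a3 a4
    rw [a3, a4]
    by_cases h : (sob m).Γ (zc m q s₀ C₀ t) (zc m q s₀ C₀ t) y = 0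
    · rw [h, mul_zero, mul_zero]
    · rw [a1 (a2 h), one_mul]
  filter_upwards [PF.flow_ae hY ⟨by linarith [ht.1], ht0.2⟩ h6] with x hx
  rw [hx]; ring

/-- **S3** -/
theorem s3 (h0r : Blk_B0r.{u}) (h1 : Blk_B1.{u}) (h2 : Blk_B2.{u, 0})
    (h3 : Blk_B3.{u, 0}) (h4 : Blk_B4.{u, 0})
    {K N κ : ℝ} {P : ℝ → (M →ₘ[m] ℝ) → (M →ₘ[m] ℝ)}
    {q : M} {s₀ C₀ : ℝ} (hyp : CHyp M m K N P q s₀ C₀)
    {E : Type} [NormedAddCommGroup E] [InnerProductSpace ℝ E] [CompleteSpace E]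
    {Gr : (M →ₘ[m] ℝ) → M → E} {V : (M →ₘ[m] ℝ) → (M →ₘ[m] ℝ) → M → E}
    {D : (M →ₘ[m] ℝ) → (M →ₘ[m] ℝ)} (hct : CtB (sob m) K N Gr V D)
    {u : ℕ → ℝ → M →ₘ[m] ℝ} {φ : (M →ₘ[m] ℝ) → ℕ → ℝ → M →ₘ[m] ℝ}
    (hO : OutA m K N P q s₀ C₀ u φ) (hLB : LevB m Gr V D κ u φ)
    (hLv : ∀ l ∈ (sob m).TestI, ∀ s ∈ Ioo (0 : ℝ) 1, ∃ Λ : ℝ, ∀ᶠ n in atTop,
      LvB (sob m) (en n) s Λ l (φ l n) (u n))
    {U : Ultrafilter ℕ} (hU : (U : Filter ℕ) ≤ atTop)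
    {φ₀ ρ : ℝ → M →ₘ[m] ℝ} {R : ℝ → ℝ → (M →ₘ[m] ℝ) → (M →ₘ[m] ℝ)} {Y : ℝ → M → M}
    (hLim : Lim m K N q s₀ C₀ φ₀ ρ R) (hY : RFlow m K N q s₀ C₀ Y)
    (hStr : Strong q s₀ C₀ U u φ Y) {p : M} {r Λ₀ : ℝ} (hr : 0 < r)
    (hW : (sob m).WHess (cl m (mdr κ p r)) (cl m (PF.Lam κ p r Λ₀)))
    {G : M →ₘ[m] ℝ} (hG : (sob m).FLap (cl m (mdr κ p r)) G) :
    PF.IntConc m (cl m (mdr κ p r)) (cl m (PF.Lam κ p r Λ₀)) q s₀ C₀ Y := by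
  intro l hl a ha b hb
  haveI : Nonempty M := ⟨q⟩
  haveI := std_sigma hyp.std
  have hS := hyp.std
  have hC := H866.std_gamma hS
  have hB := H866.std_bei hS
  have hD := hC.toIsDir
  have ha0 := ha.1
  have hab : a ≤ b := hb.1.le
  obtain ⟨Λ, hΛ⟩ := hLv l hl (a / 2) ⟨by linarith, by linarith [ha.2]⟩
  obtain ⟨χ, hχ, hχ0, hχ1, hχχ, hX1⟩ := exists_X hS p q r (r1 s₀ C₀)
  have hXF : ∀ g ∈ (sob m).W, ∀ᵐ x ∂m, (sob m).Γ (cl m (mdr κ p r)) g x ≠ 0 →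
      (χ * χ : M →ₘ[m] ℝ) x = 1 := fun g hg => by
    filter_upwards [hX1, grad_mdr hS p hr hg (κ := κ)] with x a1 a2 a3
    exact a1 (Or.inl (a2 a3))
  have hXF' : ∀ g ∈ (sob m).W, (χ * χ) * (sob m).Γ (cl m (mdr κ p r)) g
      = (sob m).Γ (cl m (mdr κ p r)) g := fun g hg => by
    rw [eq_iff_ae]
    filter_upwards [hXF g hg, mul_ae (χ * χ) ((sob m).Γ (cl m (mdr κ p r)) g)] with x a1 a2
    rw [a2]
    by_cases h : (sob m).Γ (cl m (mdr κ p r)) g x = 0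
    · rw [h, mul_zero]
    · rw [a1 h, one_mul]
  obtain ⟨cL, hcL0, hLmae⟩ := Lam_ae (m := m) κ p r Λ₀
  have hX0 : 0 ≤ (χ * χ : M →ₘ[m] ℝ) := by rw [← sq]; exact sq_nonneg' χ
  obtain ⟨c, hc⟩ := level h0r h1 h2 h3 h4 hct hG
    (mem_mul_top (hC.test_A hχχ.1).2 (mem_top_iff.2 ⟨cL, hLmae⟩))
    (fun h hh ρ' hρ' hρ0 => wH1_cut hC hB hG.W hχχ hX0 hXF hW hh hρ' hρ0)
    (s := a / 2) (s' := 3 / 4 * a) (b := b) (Λ := Λ) (by linarith) (by linarith)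
    (by linarith [hb.1]) hb.2
  obtain ⟨R', K', hLS⟩ := limS_cc h0r hyp hO hLB hU hLim hStr hl (s := a / 2) (a := a) (b := b)
    (Λ := Λ) (by linarith) (by linarith) hab hb.2 hΛ hχ hχ1 hχχ
  have hwX : ∀ᵐ x ∂m, |((χ * χ) * cl m (PF.Lam κ p r Λ₀) : M →ₘ[m] ℝ) x|
      ≤ cL * (χ * χ : M →ₘ[m] ℝ) x := by
    filter_upwards [mul_ae (χ * χ) (cl m (PF.Lam κ p r Λ₀)), hLmae, nonneg_iff_ae.1 hX0]
      with x a1 a2 a3
    rw [a1, abs_mul, abs_of_nonneg a3, mul_comm]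
    exact mul_le_mul_of_nonneg_right a2 a3
  have hΛU : ∀ᶠ n in (U : Filter ℕ), LvB (sob m) (en n) (a / 2) Λ l (φ l n) (u n) := hU hΛ
  have l3 : Tendsto (fun n => c * √(en n)) U (𝓝 0) := by
    have := ((Real.continuous_sqrt.tendsto 0).comp (en_tendsto.mono_left hU)).const_mul c
    simpa [Function.comp_def] using this
  have key := pass_limit hD hab hLS hG.W hG.lip hXF' hcL0 hwX
    (hΛU.mono fun n hn => (hc (en n) l (φ l n) (u n) hn).1.mono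
      (Icc_subset_Icc (by linarith) hb.2.le : Icc a b ⊆ Icc (a / 2) 1)) l3
    (hΛU.mono fun n hn => (hc (en n) l (φ l n) (u n) hn).2 a b (by linarith) hab le_rfl)
  have e1 : ∀ t, ∫ x, (sob m).Γ (cl m (mdr κ p r)) (zc m q s₀ C₀ t) (Y t x) * Real.exp (l x) ∂m
      = ∫ x, Real.exp (l x) * (sob m).Γ (cl m (mdr κ p r)) (zc m q s₀ C₀ t) (Y t x) ∂m :=
    fun t => by
      congr 1; ext x; ring
  rw [rhs_eq hS hyp.hs hyp.hC0 hY hLim.z_mem (r' := 0)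
    (hX1.mono fun x hx h => hx (Or.inr h)) ha0 hab hb.2, e1, e1] at key
  exact key

end metric

end H368

end Vale.Agent.P233
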