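import Vale.Agent.P233.H368.S3
import Vale.Agent.P233.H866.F2Asm2
import Vale.Agent.P233.H343.CloseB

/-! P233, block F2S (helper368): step S3 as the block `PF.Blk_S3`. -/

set_option linter.all false

open MeasureTheory Filter Topology Set
open scoped ENNReal NNReal

universe u

namespace Vale.Agent.P233.H368

open Vale.Agent.P233.PC

theorem blk_S3_of (h0r : Blk_B0r.{u}) (h1 : Blk_B1.{u}) (h2 : Blk_B2.{u, 0})
    (h3 : Blk_B3.{u, 0}) (h4 : Blk_B4.{u, 0}) : PF.Blk_S3.{u} := by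
  intro M _ _ _ _ _ m K N κ P q s₀ C₀ hyp E _ _ _ Gr V D HO e hE hct u φ hO hLB hLv U hU φ₀ L B
    R₀ c ρ R Y hpot hLO hLim hMult hMaps hY hStr p r Λ₀ hr hW G hG
  exact s3 h0r h1 h2 h3 h4 hyp hct hO hLB hLv hU hLim hY hStr hr.1 hW hG

/-- **Blk_S3** -/
theorem blk_S3 : PF.Blk_S3.{u} :=
  blk_S3_of H343.blk_B0r H343.blk_B1 H343.blk_B2 H343.blk_B3 H343.blk_B4

end Vale.Agent.P233.H368
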