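import Vale.Agent.P233.H368.Lim
import Vale.Agent.P233.H368.S2
import Vale.Agent.P233.H589.Lat

/-!
P233, block F2S (helper368), step S3, abstract part: the limit of the quadratic and of the linear
term along a filter (one time, or continuous convergence in time along a product filter); the
localisation of the weight; the continuity equation of one level.
-/

set_option linter.all false

open MeasureTheory Filter Topology Set
open scoped ENNReal NNReal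

universe u v

namespace Vale.Agent.P233

namespace H368

section static

variable {M : Type*} [MeasurableSpace M] {m : Measure M} {C : Calc m}
variable {ι : Type*} {L : Filter ι}

/-- Hypotheses along a filter: densities `ρ`, current velocities `∇θ`, forward potentials `u` with
limit `u₀`; `ell` is the limit functional of the densities; `χ` is a local weight. -/
structure LimS (C : Calc m) (L : Filter ι) (ρ θ u : ι → M →ₘ[m] ℝ)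
    (ell : (M →ₘ[m] ℝ) → ℝ) (u₀ χ : M →ₘ[m] ℝ) (R K : ℝ) : Prop where
  hR : 0 ≤ R
  hK : 0 ≤ K
  χ0 : 0 ≤ χ
  χ1 : MemLp χ 1 m
  χt : MemLp χ ∞ m
  ρ0 : ∀ᶠ i in L, 0 ≤ ρ i
  ρR : ∀ᶠ i in L, ∀ᵐ x ∂m, ρ i x ≤ R
  θW : ∀ᶠ i in L, θ i ∈ C.W
  θK : ∀ᶠ i in L, ∀ᵐ x ∂m, C.Γ (θ i) (θ i) x ≤ K
  uW : ∀ᶠ i in L, u i ∈ C.W
  uK : ∀ᶠ i in L, ∀ᵐ x ∂m, C.Γ (u i) (u i) x ≤ K
  u₀W : u₀ ∈ C.W
  u₀K : ∀ᵐ x ∂m, C.Γ u₀ u₀ x ≤ K
  weak : ∀ f : M →ₘ[m] ℝ, MemLp f 1 m → MemLp f 2 m →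
    Tendsto (fun i => I (ρ i * f)) L (𝓝 (ell f))
  strong : Tendsto (fun i => I (χ * C.Γ (u i - u₀) (u i - u₀))) L (𝓝 0)
  /-- `ε ∇L → 0` in `L²(ρ)` -/
  osm : Tendsto (fun i => I (ρ i * C.Γ (θ i - u i) (θ i - u i))) L (𝓝 0)

theorem tendsto_sqrt' {x y : ι → ℝ} {K : ℝ} (h : Tendsto y L (𝓝 0))
    (h' : ∀ᶠ i in L, |x i| ≤ K * √(y i)) : Tendsto x L (𝓝 0) := by
  have h1 := (Real.continuous_sqrt.tendsto 0).comp h
  rw [Real.sqrt_zero] at h1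
  have h2 : Tendsto (fun i => K * √(y i)) L (𝓝 0) := by simpa using h1.const_mul K
  exact squeeze_zero_norm' (h'.mono fun i hi => by rwa [Real.norm_eq_abs]) h2

variable {ρ θ u : ι → M →ₘ[m] ℝ} {ell : (M →ₘ[m] ℝ) → ℝ} {u₀ χ : M →ₘ[m] ℝ} {R K : ℝ}

theorem top_of {f : M →ₘ[m] ℝ} {R : ℝ} (h0 : 0 ≤ f) (hR : ∀ᵐ x ∂m, f x ≤ R) : MemLp f ∞ m :=
  mem_top_iff.2 ⟨R, by
    filter_upwards [hR, nonneg_iff_ae.1 h0] with x h1 h2
    rwa [abs_of_nonneg h2]⟩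

/-- **quadratic term**: `∫ ρ w |∇θ|² → ell (w |∇u₀|²)`, for a local bounded weight,
`|w| ≤ A χ`. -/
theorem LimS.quad (hD : IsDir C) (H : LimS C L ρ θ u ell u₀ χ R K) {w : M →ₘ[m] ℝ}
    {A : ℝ} (hA : 0 ≤ A) (hw : ∀ᵐ x ∂m, |w x| ≤ A * χ x) :
    Tendsto (fun i => I (ρ i * (w * C.Γ (θ i) (θ i)))) L (𝓝 (ell (w * C.Γ u₀ u₀))) := by
  have hχ0 := nonneg_iff_ae.1 H.χ0
  obtain ⟨X, hX⟩ := mem_top_iff.1 H.χt
  have wt : MemLp w ∞ m := mem_top_iff.2 ⟨A * X, by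
    filter_upwards [hw, hX] with x h1 h2
    exact h1.trans (mul_le_mul_of_nonneg_left ((le_abs_self _).trans h2) hA)⟩
  have w1 : MemLp w 1 m := by
    refine mem_of_le (mem_smul A H.χ1) ?_
    filter_upwards [hw, smul_ae χ A, hχ0] with x h1 h2 h3
    rw [h2, abs_of_nonneg (mul_nonneg hA h3)]
    exact h1
  have w2 : MemLp (w ^ 2 : M →ₘ[m] ℝ) 1 m := by rw [sq]; exact mem_mul_top wt w1
  have w2t : MemLp (w ^ 2 : M →ₘ[m] ℝ) ∞ m := by rw [sq]; exact mem_mul_top wt wt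
  -- step 1 : replace `θ` by `u`
  have s1 : Tendsto (fun i => I (ρ i * (w * C.Γ (θ i) (θ i)))
      - I (ρ i * (w * C.Γ (u i) (u i)))) L (𝓝 0) := by
    refine tendsto_sqrt' (K := √(4 * K * (R * I (w ^ 2)))) H.osm ?_
    filter_upwards [H.ρ0, H.ρR, H.θW, H.θK, H.uW, H.uK] with i hρ0 hρR hθ hθK hu huK
    have hρt := top_of hρ0 hρR
    have e1 : I (ρ i * (w * C.Γ (θ i) (θ i))) - I (ρ i * (w * C.Γ (u i) (u i)))
        = I ((ρ i * w) * C.Γ (θ i - u i) (θ i + u i)) := by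
      rw [← I_sub (mem_mul_top hρt (mem_mul_top wt (hD.mem1 _ hθ)))
        (mem_mul_top hρt (mem_mul_top wt (hD.mem1 _ hu))), ← Γ_sub_sub hD hθ hu]
      congr 1; ring
    rw [e1]
    have e2 := cs3 hD (w := ρ i * w) (w₁ := ρ i) (w₂ := ρ i * w ^ 2)
      (mem_mul_top hρt wt) hρ0 hρt (mul_nonneg hρ0 (sq_nonneg' w))
      (mem_mul_top hρt w2t) (by
        filter_upwards [mul_ae (ρ i) w, mul_ae (ρ i) (w ^ 2), sq_ae w] with x b1 b2 b3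
        rw [b1, b2, b3]; exact le_of_eq (by ring))
      (hD.sub_mem hθ hu) (hD.add_mem _ hθ _ hu)
    refine e2.trans ?_
    rw [mul_comm]
    refine mul_le_mul_of_nonneg_right (Real.sqrt_le_sqrt ?_) (Real.sqrt_nonneg _)
    have e3 := I_wΓ_le (w := ρ i * w ^ 2) (w' := C.Γ (θ i + u i) (θ i + u i))
      (mem_mul_top (mem_mul_top hρt w2t) (hD.mem1 _ (hD.add_mem _ hθ _ hu)))
      (mul_nonneg hρ0 (sq_nonneg' w)) (mem_mul_top hρt w2)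
      (Γ_add_le4 hD hθ hu hθK huK)
    refine e3.trans (mul_le_mul_of_nonneg_left ?_ (by linarith [H.hK]))
    rw [← I_smul]
    refine I_mono (mem_mul_top hρt w2) (mem_smul _ w2) (le_iff_ae.2 ?_)
    filter_upwards [mul_ae (ρ i) (w ^ 2), smul_ae (w ^ 2) R, hρR, sq_ae w]
      with x b1 b2 b3 b4
    rw [b1, b2, b4]
    exact mul_le_mul_of_nonneg_right b3 (sq_nonneg _)
  -- step 2 : replace `u` by `u₀`
  have s2 : Tendsto (fun i => I (ρ i * (w * C.Γ (u i) (u i)))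
      - I (ρ i * (w * C.Γ u₀ u₀))) L (𝓝 0) := by
    refine tendsto_sqrt' (K := √(4 * K * ((A * R) ^ 2 * I χ))) H.strong ?_
    filter_upwards [H.ρ0, H.ρR, H.uW, H.uK] with i hρ0 hρR hu huK
    have hρt := top_of hρ0 hρR
    have hu₀ := H.u₀W
    have e1 : I (ρ i * (w * C.Γ (u i) (u i))) - I (ρ i * (w * C.Γ u₀ u₀))
        = I ((ρ i * w) * C.Γ (u i - u₀) (u i + u₀)) := by
      rw [← I_sub (mem_mul_top hρt (mem_mul_top wt (hD.mem1 _ hu)))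
        (mem_mul_top hρt (mem_mul_top wt (hD.mem1 _ hu₀))), ← Γ_sub_sub hD hu hu₀]
      congr 1; ring
    rw [e1]
    have hAR : 0 ≤ (A * R) ^ 2 := sq_nonneg _
    have e2 := cs3 hD (w := ρ i * w) (w₁ := χ) (w₂ := (A * R) ^ 2 • χ)
      (mem_mul_top hρt wt) H.χ0 H.χt (smul_nonneg' hAR H.χ0) (mem_smul _ H.χt) (by
        filter_upwards [mul_ae (ρ i) w, smul_ae χ ((A * R) ^ 2), hw, hρR, hχ0,
          nonneg_iff_ae.1 hρ0] with x b1 b2 b3 b4 b5 b6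
        rw [b1, b2]
        have c1 : |ρ i x * w x| ≤ R * (A * χ x) := by
          rw [abs_mul, abs_of_nonneg b6]
          exact mul_le_mul b4 b3 (abs_nonneg _) H.hR
        have c2 : (ρ i x * w x) ^ 2 ≤ (R * (A * χ x)) ^ 2 := by
          rw [← sq_abs]; exact pow_le_pow_left₀ (abs_nonneg _) c1 2
        exact c2.trans (le_of_eq (by ring)))
      (hD.sub_mem hu hu₀) (hD.add_mem _ hu _ hu₀)
    refine e2.trans ?_
    rw [mul_comm]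
    refine mul_le_mul_of_nonneg_right (Real.sqrt_le_sqrt ?_) (Real.sqrt_nonneg _)
    have e3 := I_wΓ_le (w := (A * R) ^ 2 • χ) (w' := C.Γ (u i + u₀) (u i + u₀))
      (mem_mul_top (mem_smul _ H.χt) (hD.mem1 _ (hD.add_mem _ hu _ hu₀)))
      (smul_nonneg' hAR H.χ0) (mem_smul _ H.χ1)
      (Γ_add_le4 hD hu hu₀ huK H.u₀K)
    rwa [I_smul] at e3
  -- step 3 : weak convergence
  have hΓt : MemLp (C.Γ u₀ u₀) ∞ m := top_of (hD.nonneg _ H.u₀W) H.u₀K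
  have wΓ1 : MemLp (w * C.Γ u₀ u₀ : M →ₘ[m] ℝ) 1 m := mem_mul_top wt (hD.mem1 _ H.u₀W)
  have s3 := H.weak _ wΓ1 (mem_mul_top wt (hD.Γ_mem2 H.u₀W hΓt H.u₀W))
  have s4 := (s1.add s2).add s3
  simp only [zero_add] at s4
  refine s4.congr fun i => ?_
  ring

/-- **linear term**: `∫ ρ <∇F,∇θ> → ell <∇F,∇u₀>` for a local Lipschitz function `F`
(`χ = 1` where `∇F ≠ 0`). -/
theorem LimS.lin (hD : IsDir C) (H : LimS C L ρ θ u ell u₀ χ R K) {F : M →ₘ[m] ℝ}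
    (hF : F ∈ C.W) (hFt : MemLp (C.Γ F F) ∞ m) (hχF : ∀ g ∈ C.W, χ * C.Γ F g = C.Γ F g) :
    Tendsto (fun i => I (ρ i * C.Γ F (θ i))) L (𝓝 (ell (C.Γ F u₀))) := by
  -- step 1 : replace `θ` by `u`
  have hFF0 : 0 ≤ I (C.Γ F F) := I_nonneg (hD.nonneg _ hF)
  have s1 : Tendsto (fun i => I (ρ i * C.Γ F (θ i)) - I (ρ i * C.Γ F (u i))) L (𝓝 0) := by
    refine tendsto_sqrt' (K := √(R * I (C.Γ F F))) H.osm ?_
    filter_upwards [H.ρ0, H.ρR, H.θW, H.uW] with i hρ0 hρR hθ hu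
    have hρt := top_of hρ0 hρR
    have e1 : I (ρ i * C.Γ F (θ i)) - I (ρ i * C.Γ F (u i)) = I (ρ i * C.Γ F (θ i - u i)) := by
      rw [← I_sub (mem_mul_top hρt (hD.Γ_mem1 hF hθ)) (mem_mul_top hρt (hD.Γ_mem1 hF hu)),
        hD.Γ_sub_right hF hθ hu]
      congr 1; ring
    rw [e1]
    have e2 := cs_Γ hD hρ0 hρt hF (hD.sub_mem hθ hu)
    have e3 := Real.abs_le_sqrt e2
    rw [Real.sqrt_mul (I_nonneg (mul_nonneg hρ0 (hD.nonneg _ hF)))] at e3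
    refine e3.trans (mul_le_mul_of_nonneg_right (Real.sqrt_le_sqrt ?_) (Real.sqrt_nonneg _))
    rw [← I_smul]
    refine I_mono (mem_mul_top hρt (hD.mem1 _ hF)) (mem_smul _ (hD.mem1 _ hF)) (le_iff_ae.2 ?_)
    filter_upwards [mul_ae (ρ i) (C.Γ F F), smul_ae (C.Γ F F) R, hρR, hD.Γ_nonneg_ae hF]
      with x b1 b2 b3 b4
    rw [b1, b2]
    exact mul_le_mul_of_nonneg_right b3 b4
  -- step 2 : replace `u` by `u₀`
  have s2 : Tendsto (fun i => I (ρ i * C.Γ F (u i)) - I (ρ i * C.Γ F u₀)) L (𝓝 0) := by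
    refine tendsto_sqrt' (K := √(R ^ 2 * I (χ * C.Γ F F))) H.strong ?_
    filter_upwards [H.ρ0, H.ρR, H.uW] with i hρ0 hρR hu
    have hρt := top_of hρ0 hρR
    have hu₀ := H.u₀W
    have e1 : I (ρ i * C.Γ F (u i)) - I (ρ i * C.Γ F u₀) = I ((ρ i * χ) * C.Γ F (u i - u₀)) := by
      rw [← I_sub (mem_mul_top hρt (hD.Γ_mem1 hF hu)) (mem_mul_top hρt (hD.Γ_mem1 hF hu₀)),
        mul_assoc, hχF _ (hD.sub_mem hu hu₀), hD.Γ_sub_right hF hu hu₀]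
      congr 1; ring
    rw [e1]
    have e2 := cs3 hD (w := ρ i * χ) (w₁ := R ^ 2 • χ) (w₂ := χ)
      (mem_mul_top hρt H.χt) (smul_nonneg' (sq_nonneg R) H.χ0) (mem_smul _ H.χt) H.χ0 H.χt (by
        filter_upwards [mul_ae (ρ i) χ, smul_ae χ (R ^ 2), hρR, nonneg_iff_ae.1 H.χ0,
          nonneg_iff_ae.1 hρ0] with x b1 b2 b3 b4 b5
        rw [b1, b2]
        have c2 : ρ i x ^ 2 ≤ R ^ 2 := pow_le_pow_left₀ b5 b3 2
        nlinarith [sq_nonneg (χ x)])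
      hF (hD.sub_mem hu hu₀)
    refine e2.trans (le_of_eq ?_)
    rw [smul_mul_assoc, I_smul]
  have hΓt : MemLp (C.Γ u₀ u₀) ∞ m := top_of (hD.nonneg _ H.u₀W) H.u₀K
  have s3 := H.weak (C.Γ F u₀) (hD.Γ_mem1 hF H.u₀W) (hD.Γ_mem2 hF hFt H.u₀W)
  have s4 := (s1.add s2).add s3
  simp only [zero_add] at s4
  refine s4.congr fun i => ?_
  ring

end static

section loc

variable {M : Type u} [MeasurableSpace M] {m : Measure M} {C : Calc m}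

theorem Γ_smul_self (hD : IsDir C) (c : ℝ) {f : M →ₘ[m] ℝ} (hf : f ∈ C.W) :
    C.Γ (c • f) (c • f) = c ^ 2 • C.Γ f f := by
  rw [hD.smul_left c f hf _ (hD.smul_mem c f hf), hD.Γ_smul_right c hf hf, smul_smul, sq]

/-- The weak Hessian bound with a cut-off `X`, `X = 1` where `∇F ≠ 0`. -/
theorem wH1_cut (hC : IsGamma C) {κ : ℝ} (hB : C.BEi κ) {F X Lam : M →ₘ[m] ℝ} (hF : F ∈ C.W)
    (hX : X ∈ C.TestI) (hX0 : 0 ≤ X) (hXF : ∀ g ∈ C.W, ∀ᵐ x ∂m, C.Γ F g x ≠ 0 → X x = 1)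
    (hW : C.WHess F Lam) {h ρ : M →ₘ[m] ℝ} (hh : h ∈ C.TestI) (hρ : ρ - 1 ∈ C.TestI)
    (hρ0 : 0 ≤ ρ) : C.wH1 F h ρ ≤ I (ρ * (X * Lam) * C.Γ h h) := by
  have hD := hC.toIsDir
  have hXA := hC.test_A hX.1
  have hrA := hC.test_A hρ.1
  have hhA := hC.test_A hh.1
  have hw : X * ρ ∈ C.TestI := by
    have e : X * ρ = X * (ρ - 1) + X := by ring
    rw [e]
    exact hC.testI_add hB (hC.testI_mul hB hX hρ) hX
  have hΓhh := hC.Γ_mem hB hh.1 hh.1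
  have e1 : C.Γ h (X * ρ) = X * C.Γ h (ρ - 1) + ρ * C.Γ h X := by
    have e : X * ρ = X * (ρ - 1) + X := by ring
    rw [e, hD.Γ_add_right hhA.1 (hD.mul_mem_A hXA hrA).1 hXA.1, hD.Γ_mul_right hXA hrA hhA.1]
    ring
  have e2 : C.Γ F h * (X * ρ * C.lap h + C.Γ h (X * ρ)) = C.Γ F h * (ρ * C.lap h + C.Γ h (ρ - 1)) := by
    rw [eq_iff_ae, e1]
    filter_upwards [hXF h hhA.1, hD.Γ_level hXA.1 hhA.1 1,
      mul_ae (C.Γ F h) (X * ρ * C.lap h + (X * C.Γ h (ρ - 1) + ρ * C.Γ h X)),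
      mul_ae (C.Γ F h) (ρ * C.lap h + C.Γ h (ρ - 1)),
      add_ae (X * ρ * C.lap h) (X * C.Γ h (ρ - 1) + ρ * C.Γ h X),
      add_ae (X * C.Γ h (ρ - 1)) (ρ * C.Γ h X), add_ae (ρ * C.lap h) (C.Γ h (ρ - 1)),
      mul_ae (X * ρ) (C.lap h), mul_ae X ρ, mul_ae X (C.Γ h (ρ - 1)), mul_ae ρ (C.Γ h X),
      mul_ae ρ (C.lap h)] with x a1 a2 a3 a4 a5 a6 a7 a8 a9 a10 a11 a12
    rw [a3, a4, a5, a6, a7, a8, a9, a10, a11, a12]
    by_cases h0 : C.Γ F h x = 0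
    · rw [h0, zero_mul, zero_mul]
    · have h1 := a1 h0
      have h2 : C.Γ h X x = 0 := by
        have := a2 h1
        rwa [hD.symm _ hXA.1 _ hhA.1] at this
      rw [h1, h2]; ring
  have e3 : X * ρ * C.Γ F (C.Γ h h) = ρ * C.Γ F (C.Γ h h) := by
    rw [eq_iff_ae]
    filter_upwards [hXF _ hΓhh.1, mul_ae (X * ρ) (C.Γ F (C.Γ h h)), mul_ae X ρ,
      mul_ae ρ (C.Γ F (C.Γ h h))] with x a1 a2 a3 a4
    rw [a2, a3, a4]
    by_cases h0 : C.Γ F (C.Γ h h) x = 0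
    · rw [h0, mul_zero, mul_zero]
    · rw [a1 h0, one_mul]
  have h1 := hW h hh (X * ρ) hw (mul_nonneg hX0 hρ0)
  rw [Calc.wH, e2, e3] at h1
  rw [Calc.wH1]
  refine h1.trans (le_of_eq ?_)
  congr 1; ring

/-- the continuity equation of one level -/
theorem mass_deriv [SigmaFinite m] (h0r : Blk_B0r.{u}) {κ : ℝ} (hC : IsGamma C) (hB : C.BEi κ)
    {ε a b : ℝ} {φ u : ℝ → M →ₘ[m] ℝ} (hR : C.Reg ε a b φ u) {t : ℝ} (ht : t ∈ Icc a b)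
    {g : M →ₘ[m] ℝ} (hg : g ∈ C.A) :
    HasDerivWithinAt (fun r => I (g * (rh ε φ u r - 1))) (I (rh ε φ u t * C.Γ g (th φ u t)))
      (Icc a b) t := by
  have hD := hC.toIsDir
  obtain ⟨hl, hθ, hp⟩ := reg_rhoL hC hB hR ht
  have d1 := (reg_dw h0r hC hB hR ht).1
  have hθA := hC.test_A hθ.1
  have hrA := hC.test_A hp.r_mem.1
  have d2 : DL2 (fun r => rh ε φ u r - 1)
      (-(rh ε φ u t * C.lap (th φ u t) + C.Γ (th φ u t) (rh ε φ u t - 1))) (Icc a b) t := by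
    have := (hD.DW_DL2 d1).add_const (-1)
    simpa only [sub_eq_add_neg] using this
  have h1 := d2.I_const_mul (hD.memLp _ hg.1) (hD.memLp _ hrA.1)
  refine h1.congr_deriv ?_
  have hlap := hC.testI_lap_A hB hθ
  have hgr : g * (rh ε φ u t - 1) ∈ C.A := hD.mul_mem_A hg hrA
  have hgρ : g * rh ε φ u t ∈ C.W := by
    have e : g * rh ε φ u t = g * (rh ε φ u t - 1) + g := by ring
    rw [e]; exact hD.add_mem _ hgr.1 _ hg.1
  have e1 : C.Γ (th φ u t) (g * rh ε φ u t)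
      = g * C.Γ (th φ u t) (rh ε φ u t - 1) + rh ε φ u t * C.Γ (th φ u t) g := by
    have e : g * rh ε φ u t = g * (rh ε φ u t - 1) + g := by ring
    rw [e, hD.Γ_add_right hθA.1 hgr.1 hg.1, hD.Γ_mul_right hg hrA hθA.1]
    ring
  have hρt := rhoL_top hC hp
  have i0 : MemLp (g * (rh ε φ u t * C.lap (th φ u t)) : M →ₘ[m] ℝ) 1 m := by
    have := mem_mul_22 (mem_mul_top hρt (hD.memLp _ hg.1)) (hD.memLp _ hlap.1)
    rwa [show rh ε φ u t * g * C.lap (th φ u t) = g * (rh ε φ u t * C.lap (th φ u t)) by ring]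
      at this
  have i1 : MemLp (g * C.Γ (th φ u t) (rh ε φ u t - 1) : M →ₘ[m] ℝ) 1 m :=
    mem_mul_top hg.2 (hD.Γ_mem1 hθA.1 hrA.1)
  have i2 : MemLp (rh ε φ u t * C.Γ (th φ u t) g : M →ₘ[m] ℝ) 1 m :=
    mem_mul_top hρt (hD.Γ_mem1 hθA.1 hg.1)
  have e2 : I (C.Γ (th φ u t) (g * rh ε φ u t)) = -I (C.lap (th φ u t) * (g * rh ε φ u t)) :=
    (hC.test_isLap hθ.1).2.2 _ hgρ
  rw [e1, I_add i1 i2] at e2
  have e3 : I (g * -(rh ε φ u t * C.lap (th φ u t) + C.Γ (th φ u t) (rh ε φ u t - 1)))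
      = -(I (g * (rh ε φ u t * C.lap (th φ u t)))
        + I (g * C.Γ (th φ u t) (rh ε φ u t - 1))) := by
    rw [show g * -(rh ε φ u t * C.lap (th φ u t) + C.Γ (th φ u t) (rh ε φ u t - 1))
      = -(g * (rh ε φ u t * C.lap (th φ u t)) + g * C.Γ (th φ u t) (rh ε φ u t - 1)) by ring,
      I_neg, I_add i0 i1]
  rw [e3, hD.symm _ hg.1 _ hθA.1]
  have e4 : C.lap (th φ u t) * (g * rh ε φ u t) = g * (rh ε φ u t * C.lap (th φ u t)) := by ring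
  rw [e4] at e2
  linarith

/-- Lipschitz continuity in time of the densities, tested with `g ∈ A` -/
theorem mass_lip [SigmaFinite m] (h0r : Blk_B0r.{u}) {κ : ℝ} (hC : IsGamma C) (hB : C.BEi κ)
    {ε a b : ℝ} {φ u : ℝ → M →ₘ[m] ℝ} (hR : C.Reg ε a b φ u) {a' R c : ℝ} (ha : a ≤ a')
    (hR0 : 0 ≤ R) (hρ : ∀ t ∈ Icc a' b, ∀ᵐ x ∂m, rh ε φ u t x ≤ R)
    (hθ : ∀ t ∈ Icc a' b, I (rh ε φ u t * C.Γ (th φ u t) (th φ u t)) ≤ c)
    {g : M →ₘ[m] ℝ} (hg : g ∈ C.A) : ∀ s ∈ Icc a' b, ∀ t ∈ Icc a' b,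
      |I (g * (rh ε φ u s - 1)) - I (g * (rh ε φ u t - 1))|
        ≤ √(R * I (C.Γ g g)) * √c * |s - t| := by
  have hD := hC.toIsDir
  have hsub : Icc a' b ⊆ Icc a b := Icc_subset_Icc_left ha
  intro s hs t ht
  have h1 := (convex_Icc a' b).norm_image_sub_le_of_norm_hasDerivWithin_le
    (f := fun r => I (g * (rh ε φ u r - 1)))
    (f' := fun r => I (rh ε φ u r * C.Γ g (th φ u r))) (C := √(R * I (C.Γ g g)) * √c)
    (fun r hr => (mass_deriv h0r hC hB hR (hsub hr) hg).mono hsub) (fun r hr => ?_) ht hs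
  · rwa [Real.norm_eq_abs, Real.norm_eq_abs] at h1
  · obtain ⟨hl, hθ', hp⟩ := reg_rhoL hC hB hR (hsub hr)
    have hρt := rhoL_top hC hp
    have e2 := Real.abs_le_sqrt (cs_Γ hD hp.nn hρt hg.1 (hC.test_A hθ'.1).1)
    rw [Real.sqrt_mul (I_nonneg (mul_nonneg hp.nn (hD.nonneg _ hg.1)))] at e2
    rw [Real.norm_eq_abs]
    refine e2.trans (mul_le_mul (Real.sqrt_le_sqrt ?_) (Real.sqrt_le_sqrt (hθ r hr))
      (Real.sqrt_nonneg _) (Real.sqrt_nonneg _))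
    rw [← I_smul]
    refine I_mono (mem_mul_top hρt (hD.mem1 _ hg.1)) (mem_smul _ (hD.mem1 _ hg.1))
      (le_iff_ae.2 ?_)
    filter_upwards [mul_ae (rh ε φ u r) (C.Γ g g), smul_ae (C.Γ g g) R, hρ r hr,
      hD.Γ_nonneg_ae hg.1] with x b1 b2 b3 b4
    rw [b1, b2]
    exact mul_le_mul_of_nonneg_right b3 b4

/-- bounds of the energy of `θ` and of `θ - u`, from B2 -/
theorem energy_th (hC : IsGamma C) {κ : ℝ} (hB : C.BEi κ) {ε a b : ℝ}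
    {φ u : ℝ → M →ₘ[m] ℝ} (hR : C.Reg ε a b φ u) {t c : ℝ} (ht : t ∈ Icc a b) (hε1 : ε ≤ 1)
    (h1 : ε * C.EV ε φ u t ≤ c) (h2 : |C.EA ε φ u t - C.EB ε φ u t| ≤ c * ε)
    (h3 : C.EA ε φ u t ≤ c) :
    I (rh ε φ u t * C.Γ (th φ u t) (th φ u t)) ≤ 2 * |c| ∧
    I (rh ε φ u t * C.Γ (th φ u t - u t) (th φ u t - u t)) ≤ |c| * ε := by
  have hD := hC.toIsDir
  have hε := hR.hε
  obtain ⟨hl, hθ, hp⟩ := reg_rhoL hC hB hR ht
  have hρt := rhoL_top hC hp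
  have hφ := (hC.test_A (hR.φ_mem t ht).1).1
  have hu := (hC.test_A (hR.u_mem t ht).1).1
  have hEV0 : 0 ≤ C.EV ε φ u t :=
    I_nonneg (mul_nonneg hp.nn (hD.nonneg _ (hC.test_A hl.1).1))
  have hc0 : 0 ≤ c := (mul_nonneg hε.le hEV0).trans h1
  constructor
  · have e1 : I (rh ε φ u t * C.Γ (th φ u t) (th φ u t))
        ≤ 2⁻¹ * C.EA ε φ u t + 2⁻¹ * C.EB ε φ u t := by
      rw [Calc.EA, Calc.EB, ← I_smul, ← I_smul, ← I_add
        (mem_smul _ (mem_mul_top hρt (hD.mem1 _ hφ))) (mem_smul _ (mem_mul_top hρt (hD.mem1 _ hu)))]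
      refine I_mono (mem_mul_top hρt (hD.mem1 _ (hC.test_A hθ.1).1))
        (mem_add (mem_smul _ (mem_mul_top hρt (hD.mem1 _ hφ)))
          (mem_smul _ (mem_mul_top hρt (hD.mem1 _ hu)))) (le_iff_ae.2 ?_)
      have e2 : C.Γ (th φ u t) (th φ u t) = (2 : ℝ)⁻¹ ^ 2 • C.Γ (φ t + u t) (φ t + u t) := by
        rw [th, Γ_smul_self hD _ (hD.add_mem _ hφ _ hu)]
      have e3 : C.Γ (φ t + u t) (φ t + u t)
          = C.Γ (φ t) (φ t) + (2 * (1 : ℝ)) • C.Γ (φ t) (u t) + ((1 : ℝ) ^ 2) • C.Γ (u t) (u t) := by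
        rw [← hD.Γ_expand 1 hφ hu, one_smul]
      filter_upwards [mul_ae (rh ε φ u t) (C.Γ (th φ u t) (th φ u t)),
        smul_ae (C.Γ (φ t + u t) (φ t + u t)) ((2 : ℝ)⁻¹ ^ 2),
        add_ae (C.Γ (φ t) (φ t) + (2 * (1 : ℝ)) • C.Γ (φ t) (u t)) (((1 : ℝ) ^ 2) • C.Γ (u t) (u t)),
        add_ae (C.Γ (φ t) (φ t)) ((2 * (1 : ℝ)) • C.Γ (φ t) (u t)),
        smul_ae (C.Γ (φ t) (u t)) (2 * 1), smul_ae (C.Γ (u t) (u t)) (1 ^ 2),
        add_ae ((2 : ℝ)⁻¹ • (rh ε φ u t * C.Γ (φ t) (φ t)))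
          ((2 : ℝ)⁻¹ • (rh ε φ u t * C.Γ (u t) (u t))),
        smul_ae (rh ε φ u t * C.Γ (φ t) (φ t)) (2 : ℝ)⁻¹,
        smul_ae (rh ε φ u t * C.Γ (u t) (u t)) (2 : ℝ)⁻¹,
        mul_ae (rh ε φ u t) (C.Γ (φ t) (φ t)), mul_ae (rh ε φ u t) (C.Γ (u t) (u t)),
        hD.Γ_cs_ae hφ hu, hD.Γ_nonneg_ae hφ, hD.Γ_nonneg_ae hu, nonneg_iff_ae.1 hp.nn]
        with x b1 b2 b3 b4 b5 b6 b7 b8 b9 b10 b11 c1 c2 c3 c4
      rw [b1, e2, b2, e3, b3, b4, b5, b6, b7, b8, b9, b10, b11]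
      have hcs := abs_le_of_sq_le_sq' (show C.Γ (φ t) (u t) x ^ 2
        ≤ ((C.Γ (φ t) (φ t) x + C.Γ (u t) (u t) x) / 2) ^ 2 by
          nlinarith [sq_nonneg (C.Γ (φ t) (φ t) x - C.Γ (u t) (u t) x)]) (by linarith)
      nlinarith [mul_nonneg c4 (sub_nonneg.2 hcs.2)]
    have h4 := (abs_le.1 h2).1
    have h5 : c * ε ≤ c := by nlinarith
    rw [abs_of_nonneg hc0]
    linarith
  · have e1 : th φ u t - u t = (ε / 2) • LL ε φ u t := by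
      rw [th, LL, smul_smul, show ε / 2 * ε⁻¹ = (2 : ℝ)⁻¹ by field_simp]
      have : u t = (2 : ℝ)⁻¹ • (u t + u t) := by
        rw [← two_smul ℝ (u t), smul_smul]; norm_num
      nth_rw 2 [this]
      rw [← smul_sub]; congr 1; abel
    rw [e1, Γ_smul_self hD _ (hC.test_A hl.1).1, mul_smul_comm, I_smul]
    have : I (rh ε φ u t * C.Γ (LL ε φ u t) (LL ε φ u t)) = C.EV ε φ u t := rfl
    rw [this, abs_of_nonneg hc0]
    nlinarith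

end loc

end H368

end Vale.Agent.P233
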