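import Vale.Agent.P233.H368.S3a
import Vale.Agent.P233.H196.UST3
import Vale.Agent.P233.H169.Grad

/-!
P233, block F2S (helper368), step S3, continuous convergence in time: densities (weakly) and
gradients (strongly, locally) along `U ×ˢ 𝓝[S] t`.
-/

set_option linter.all false

open MeasureTheory Filter Topology Set
open scoped ENNReal NNReal

universe u v

namespace Vale.Agent.P233

namespace H368

open UST

variable {M : Type u} [MeasurableSpace M] {m : Measure M} {C : Calc m}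

theorem ev_prod {ι : Type*} {l : Filter ι} {P : ι → Prop} {S : Set ℝ} {t : ℝ}
    (h : ∀ᶠ n in l, P n) : ∀ᶠ p : ι × ℝ in l ×ˢ 𝓝[S] t, P p.1 ∧ p.2 ∈ S :=
  (h.prod_inl _).and ((eventually_mem_nhdsWithin (a := t) (s := S)).prod_inr _)

/-- bounded Sobolev functions are dense in `L²` -/
theorem A_dense [SigmaFinite m] (hC : IsGamma C) {κ : ℝ} (hB : C.BEi κ) (G : M →ₘ[m] ℝ)
    (hG : MemLp G 2 m) (ε : ℝ) (hε : 0 < ε) : ∃ H ∈ C.A, MemLp H 2 m ∧ I ((G - H) ^ 2) < ε := by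
  have hD := hC.toIsDir
  obtain ⟨g, hg, h1⟩ := hD.dense_L2 G hG (ε / 4) (by positivity)
  obtain ⟨g', hg', h2⟩ := hC.testI_dense hB hg (ε := ε / 4) (by positivity)
  have hA := hC.test_A hg'.1
  refine ⟨g', hA, hD.memLp _ hA.1, ?_⟩
  have h3 : I ((g - g') ^ 2) < ε / 4 := by
    rw [hD.nrm2_sub_comm hA.1 hg] at h2
    exact (hD.I_sq_le_nrm2 (hD.sub_mem hg hA.1)).trans_lt h2
  have m1 : MemLp (G - g : M →ₘ[m] ℝ) 2 m := mem_sub hG (hD.memLp _ hg)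
  have m2 : MemLp (g - g' : M →ₘ[m] ℝ) 2 m := hD.memLp _ (hD.sub_mem hg hA.1)
  have h4 : I ((G - g') ^ 2) ≤ 2 * I ((G - g) ^ 2) + 2 * I ((g - g') ^ 2) := by
    rw [← I_smul, ← I_smul, ← I_add (mem_smul _ (mem_sq m1)) (mem_smul _ (mem_sq m2))]
    refine I_mono (mem_sq (mem_sub hG (hD.memLp _ hA.1))) (mem_add (mem_smul _ (mem_sq m1))
      (mem_smul _ (mem_sq m2))) (le_iff_ae.2 ?_)
    filter_upwards [sq_ae (G - g'), sub_ae G g', add_ae ((2 : ℝ) • (G - g) ^ 2)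
      ((2 : ℝ) • (g - g') ^ 2), smul_ae ((G - g) ^ 2) 2, smul_ae ((g - g') ^ 2) 2, sq_ae (G - g),
      sq_ae (g - g'), sub_ae G g, sub_ae g g'] with x a1 a2 a3 a4 a5 a6 a7 a8 a9
    rw [a1, a2, a3, a4, a5, a6, a7, a8, a9]
    nlinarith [sq_nonneg (G x - g x - (g x - g' x))]
  linarith

/-- weak convergence of the densities, continuously in time -/
theorem dens_wcc [SigmaFinite m] (h0r : Blk_B0r.{u}) {κ : ℝ} (hC : IsGamma C) (hB : C.BEi κ)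
    {U : Ultrafilter ℕ} {ε : ℕ → ℝ} {φ u : ℕ → ℝ → M →ₘ[m] ℝ} {s a b R c B2 : ℝ} (hsa : s ≤ a)
    (hab : a ≤ b) (hb : b ≤ 1) (hR0 : 0 ≤ R)
    (hreg : ∀ᶠ n in (U : Filter ℕ), C.Reg (ε n) s 1 (φ n) (u n))
    (hρ : ∀ᶠ n in (U : Filter ℕ), ∀ t ∈ Icc a b, ∀ᵐ x ∂m, rh (ε n) (φ n) (u n) t x ≤ R)
    (hθ : ∀ᶠ n in (U : Filter ℕ), ∀ t ∈ Icc a b,
      I (rh (ε n) (φ n) (u n) t * C.Γ (th (φ n) (u n) t) (th (φ n) (u n) t)) ≤ c)
    (hl2 : ∀ᶠ n in (U : Filter ℕ), ∀ t ∈ Icc a b, I ((rh (ε n) (φ n) (u n) t - 1) ^ 2) ≤ B2) :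
    WCC (U : Filter ℕ) (Icc a b) (fun n t => rh (ε n) (φ n) (u n) t - 1)
      (fun t => wlim U fun n => rh (ε n) (φ n) (u n) t - 1) := by
  have hD := hC.toIsDir
  have hmem : ∀ᶠ n in (U : Filter ℕ), ∀ t ∈ Icc a b,
      MemLp (rh (ε n) (φ n) (u n) t - 1 : M →ₘ[m] ℝ) 2 m := by
    filter_upwards [hreg] with n hn t ht
    exact hD.memLp _ (hC.test_A (reg_rhoL hC hB hn ⟨hsa.trans ht.1, ht.2.trans hb⟩).2.2.r_mem.1).1
  refine WCC.of_lipschitz (K := B2) (D := C.A) ?_ (fun t ht => ?_) (fun G hG ε hε =>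
    A_dense hC hB G hG ε hε) (fun g hg _ => ⟨√(R * I (C.Γ g g)) * √c, ?_⟩)
  · filter_upwards [hmem, hl2] with n h1 h2 t ht using ⟨h1 t ht, h2 t ht⟩
  · refine BddL2.wconv ⟨B2, ?_⟩
    filter_upwards [hmem, hl2] with n h1 h2 using ⟨h1 t ht, h2 t ht⟩
  · filter_upwards [hreg, hρ, hθ] with n h1 h2 h3 s' hs' t ht
    have hsub : Icc a b ⊆ Icc s 1 := Icc_subset_Icc hsa hb
    have h4 := (convex_Icc a b).norm_image_sub_le_of_norm_hasDerivWithin_le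
      (f := fun r => I (g * (rh (ε n) (φ n) (u n) r - 1)))
      (f' := fun r => I (rh (ε n) (φ n) (u n) r * C.Γ g (th (φ n) (u n) r)))
      (C := √(R * I (C.Γ g g)) * √c)
      (fun r hr => (mass_deriv h0r hC hB h1 (hsub hr) hg).mono hsub) (fun r hr => ?_) ht hs'
    · rwa [Real.norm_eq_abs, Real.norm_eq_abs] at h4
    · obtain ⟨hl, hθ', hp⟩ := reg_rhoL hC hB h1 (hsub hr)
      have hρt := rhoL_top hC hp
      have e2 := Real.abs_le_sqrt (cs_Γ hD hp.nn hρt hg.1 (hC.test_A hθ'.1).1)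
      rw [Real.sqrt_mul (I_nonneg (mul_nonneg hp.nn (hD.nonneg _ hg.1)))] at e2
      rw [Real.norm_eq_abs]
      refine e2.trans (mul_le_mul (Real.sqrt_le_sqrt ?_) (Real.sqrt_le_sqrt (h3 r hr))
        (Real.sqrt_nonneg _) (Real.sqrt_nonneg _))
      rw [← I_smul]
      refine I_mono (mem_mul_top hρt (hD.mem1 _ hg.1)) (mem_smul _ (hD.mem1 _ hg.1))
        (le_iff_ae.2 ?_)
      filter_upwards [mul_ae (rh (ε n) (φ n) (u n) r) (C.Γ g g), smul_ae (C.Γ g g) R, h2 r hr,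
        hD.Γ_nonneg_ae hg.1] with x b1 b2 b3 b4
      rw [b1, b2]
      exact mul_le_mul_of_nonneg_right b3 b4

/-- the weak limit as a functional -/
theorem weak_ell {U : Ultrafilter ℕ} {S : Set ℝ} {ρ : ℕ → ℝ → M →ₘ[m] ℝ} {ρ₀ : ℝ → M →ₘ[m] ℝ}
    (h : WCC (U : Filter ℕ) S (fun n t => ρ n t - 1) ρ₀) {t : ℝ} (ht : t ∈ S)
    {f : M →ₘ[m] ℝ} (hf1 : MemLp f 1 m) (hf2 : MemLp f 2 m) {x : ℝ}
    (hx : Tendsto (fun n => I (f * ρ n t)) U (𝓝 x)) :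
    Tendsto (fun p : ℕ × ℝ => I (ρ p.1 p.2 * f)) ((U : Filter ℕ) ×ˢ 𝓝[S] t) (𝓝 x) := by
  have hb := (h t ht).bdd
  obtain ⟨K, hK⟩ := hb
  have e1 : ∀ᶠ p : ℕ × ℝ in (U : Filter ℕ) ×ˢ 𝓝[S] t,
      I (f * (ρ p.1 p.2 - 1)) + I f = I (ρ p.1 p.2 * f) := by
    filter_upwards [hK] with p hp
    rw [← I_add (mem_mul_22 hf2 hp.1) hf1]
    congr 1; ring
  have h1 := ((h t ht).lim f hf2).add_const (I f)
  have h2 := h1.congr' e1
  have h3 := h2.comp (tendsto_slice ht)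
  have h4 : Tendsto (fun n => I (f * ρ n t)) U (𝓝 (I (f * ρ₀ t) + I f)) := by
    refine h3.congr fun n => ?_
    simp only [Function.comp]
    rw [mul_comm]
  rw [tendsto_nhds_unique hx h4]
  exact h2

/-- strong local convergence of the gradients, continuously in time -/
theorem strong_cc (hC : IsGamma C) {U : Filter ℕ} {S : Set ℝ} {t : ℝ} (ht : t ∈ S)
    {u : ℕ → ℝ → M →ₘ[m] ℝ} {z χ : M →ₘ[m] ℝ} {K Lam D : ℝ} (hK0 : 0 ≤ K) (hLam0 : 0 ≤ Lam)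
    (hz : z ∈ C.W) (hzK : ∀ᵐ x ∂m, C.Γ z z x ≤ K)
    (hu : ∀ᶠ n in U, ∀ t ∈ S, u n t ∈ C.TestI ∧ (∀ᵐ x ∂m, C.Γ (u n t) (u n t) x ≤ K) ∧
      ∀ᵐ x ∂m, C.lap (u n t) x ≤ Lam)
    (htime : ∀ᶠ n in U, ∀ s ∈ S, ∀ᵐ x ∂m, |u n s x - u n t x| ≤ D * |s - t|)
    (hlim : Tendsto (fun n => I ((u n t - z) ^ 2)) U (𝓝 0))
    (hχ : χ ∈ C.TestI) (hχ1 : ∀ᵐ x ∂m, |χ x| ≤ 1) :
    Tendsto (fun p : ℕ × ℝ => I (χ ^ 2 * C.Γ (u p.1 p.2 - z) (u p.1 p.2 - z)))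
      (U ×ˢ 𝓝[S] t) (𝓝 0) := by
  have hD := hC.toIsDir
  have hχA := hC.test_A hχ.1
  refine hD.tendsto_grad' (L := √K) (Lam := Lam) (Real.sqrt_nonneg _) hLam0 hz
    (by rwa [Real.sq_sqrt hK0]) ?_ hχA (hC.test_Γ_top hχ.1) ?_
  · filter_upwards [ev_prod (S := S) (t := t) hu] with p hp
    obtain ⟨h1, h2, h3⟩ := hp.1 p.2 hp.2
    have hA := hC.test_A h1.1
    refine ⟨hA.1, by rwa [Real.sq_sqrt hK0], fun g hg hg0 hg1 => ?_⟩
    have e1 : I (C.Γ (u p.1 p.2) g) = -I (C.lap (u p.1 p.2) * g) :=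
      (hC.test_isLap h1.1).2.2 _ hg.1
    rw [e1, neg_neg, ← I_smul]
    refine I_mono (mem_mul_top h1.2 hg1) (mem_smul _ hg1) (le_iff_ae.2 ?_)
    filter_upwards [mul_ae (C.lap (u p.1 p.2)) g, smul_ae g Lam, h3, nonneg_iff_ae.1 hg0]
      with x b1 b2 b3 b4
    rw [b1, b2]
    exact mul_le_mul_of_nonneg_right b3 b4
  · have l1 : Tendsto (fun p : ℕ × ℝ => 2 * ((D * |p.2 - t|) ^ 2 * I (χ ^ 2))
        + 2 * I ((u p.1 t - z) ^ 2)) (U ×ˢ 𝓝[S] t) (𝓝 0) := by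
      have a1 : Tendsto (fun p : ℕ × ℝ => p.2) (U ×ˢ 𝓝[S] t) (𝓝 t) :=
        tendsto_snd.mono_right nhdsWithin_le_nhds
      have a2 : Tendsto (fun p : ℕ × ℝ => 2 * ((D * |p.2 - t|) ^ 2 * I (χ ^ 2)))
          (U ×ˢ 𝓝[S] t) (𝓝 0) := by
        have : Continuous fun r : ℝ => 2 * ((D * |r - t|) ^ 2 * I (χ ^ 2)) := by fun_prop
        have := (this.tendsto t).comp a1
        simpa [Function.comp_def] using this
      have a3 : Tendsto (fun p : ℕ × ℝ => 2 * I ((u p.1 t - z) ^ 2)) (U ×ˢ 𝓝[S] t) (𝓝 0) := by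
        have := (hlim.comp (tendsto_fst (g := 𝓝[S] t))).const_mul 2
        simpa [Function.comp] using this
      simpa using a2.add a3
    refine squeeze_zero' (Eventually.of_forall fun p => I_nonneg (sq_nonneg' _)) ?_ l1
    filter_upwards [ev_prod (S := S) (t := t) (hu.and htime)] with p hp
    obtain ⟨⟨h1, h2⟩, h3⟩ := hp
    have hA := hC.test_A (h1 p.2 h3).1.1
    have hA' := hC.test_A (h1 t ht).1.1
    have m0 : MemLp (χ : M →ₘ[m] ℝ) 2 m := hD.memLp _ hχA.1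
    have m1 : MemLp (u p.1 t - z : M →ₘ[m] ℝ) 2 m := hD.memLp _ (hD.sub_mem hA'.1 hz)
    have m2 : MemLp (χ * (u p.1 p.2 - z) : M →ₘ[m] ℝ) 2 m :=
      mem_mul_top hχA.2 (hD.memLp _ (hD.sub_mem hA.1 hz))
    rw [← I_smul, ← I_smul, ← I_smul, ← I_add (mem_smul _ (mem_smul _ (mem_sq m0)))
      (mem_smul _ (mem_sq m1))]
    refine I_mono (mem_sq m2) (mem_add (mem_smul _ (mem_smul _ (mem_sq m0)))
      (mem_smul _ (mem_sq m1))) (le_iff_ae.2 ?_)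
    filter_upwards [sq_ae (χ * (u p.1 p.2 - z)), mul_ae χ (u p.1 p.2 - z), sub_ae (u p.1 p.2) z,
      add_ae ((2 : ℝ) • ((D * |p.2 - t|) ^ 2 • χ ^ 2)) ((2 : ℝ) • (u p.1 t - z) ^ 2),
      smul_ae ((D * |p.2 - t|) ^ 2 • χ ^ 2) 2, smul_ae (χ ^ 2) ((D * |p.2 - t|) ^ 2),
      smul_ae ((u p.1 t - z) ^ 2) 2, sq_ae χ, sq_ae (u p.1 t - z), sub_ae (u p.1 t) z,
      h2 p.2 h3, hχ1] with x a1 a2 a3 a4 a5 a6 a7 a8 a9 a10 a11 a12
    rw [a1, a2, a3, a4, a5, a6, a7, a8, a9, a10]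
    have b1 : (u p.1 p.2 x - u p.1 t x) ^ 2 ≤ (D * |p.2 - t|) ^ 2 := by
      rw [← sq_abs]; exact pow_le_pow_left₀ (abs_nonneg _) a11 2
    have b2 : χ x ^ 2 ≤ 1 := by rw [← sq_abs]; exact pow_le_one₀ (abs_nonneg _) a12
    have b3 : (u p.1 p.2 x - z x) ^ 2 ≤ 2 * (u p.1 p.2 x - u p.1 t x) ^ 2
        + 2 * (u p.1 t x - z x) ^ 2 := by
      nlinarith [sq_nonneg (u p.1 p.2 x - u p.1 t x - (u p.1 t x - z x))]
    have b4 : (χ x * (u p.1 p.2 x - z x)) ^ 2 = χ x ^ 2 * (u p.1 p.2 x - z x) ^ 2 := by ring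
    rw [b4]
    have b5 := mul_le_mul_of_nonneg_left b3 (sq_nonneg (χ x))
    have b6 := mul_le_mul_of_nonneg_left b1 (sq_nonneg (χ x))
    have b7 := mul_le_mul_of_nonneg_right b2 (sq_nonneg (u p.1 t x - z x))
    nlinarith

end H368

end Vale.Agent.P233
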