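import Mathlib

/-!
# P233, stage 3: the distortion coefficients (I): the function `sin (sqrt s) / sqrt s`

`Sf s = sin (sqrt s) / sqrt s` for `s > 0`, `1` at `0`, `sinh (sqrt (-s)) / sqrt (-s)` for `s < 0`,
its Euler product, and the function `hf t s = log (Sf (t^2 s)) - log (Sf s)` which is convex and
monotone in `s < pi^2`, vanishes at `0`.
-/

open Filter Topology Real Set Finset

namespace Vale.Agent.P233.H368.Tau

/-- `sin (sqrt s) / sqrt s`, continued analytically -/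
noncomputable def Sf (s : ℝ) : ℝ := if 0 ≤ s then sinc (√s) else sinh (√(-s)) / √(-s)

theorem Sf_zero : Sf 0 = 1 := by simp [Sf]

theorem Sf_pos_eq {s : ℝ} (h : 0 < s) : Sf s = sin (√s) / √s := by
  rw [Sf, if_pos h.le, sinc_of_ne_zero (sqrt_pos.2 h).ne']

theorem Sf_neg_eq {s : ℝ} (h : s < 0) : Sf s = sinh (√(-s)) / √(-s) := by
  rw [Sf, if_neg h.not_ge]

theorem Sf_nonneg_eq {s : ℝ} (h : 0 ≤ s) : Sf s = sinc (√s) := by rw [Sf, if_pos h]

/-- the factors of the Euler product -/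
noncomputable def cj (j : ℕ) : ℝ := 1 / (((j : ℝ) + 1) ^ 2 * π ^ 2)

theorem cj_pos (j : ℕ) : 0 < cj j := by unfold cj; positivity

theorem cj_mul_lt {s : ℝ} (h : s < π ^ 2) (j : ℕ) : cj j * s < 1 := by
  unfold cj
  rw [one_div, inv_mul_lt_iff₀ (by positivity), mul_one]
  have h1 : (1 : ℝ) ≤ ((j : ℝ) + 1) ^ 2 := by
    have : (0 : ℝ) ≤ j := Nat.cast_nonneg j
    nlinarith
  have h2 : 0 < π ^ 2 := by positivity
  nlinarith

theorem euler_Sf (s : ℝ) :
    Tendsto (fun n : ℕ => ∏ j ∈ range n, (1 - cj j * s)) atTop (𝓝 (Sf s)) := by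
  rcases lt_trichotomy s 0 with h | h | h
  · -- negative
    have hr : 0 < √(-s) := sqrt_pos.2 (by linarith)
    have hrr : √(-s) ^ 2 = -s := sq_sqrt (by linarith)
    set r := √(-s) with hrdef
    have key := Complex.tendsto_euler_sin_prod (Complex.I * (r / π : ℝ))
    have hne : (Complex.I * (r : ℂ)) ≠ 0 :=
      mul_ne_zero Complex.I_ne_zero (by exact_mod_cast hr.ne')
    have e1 : (π : ℂ) * (Complex.I * ((r / π : ℝ) : ℂ)) = Complex.I * r := by
      push_cast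
      have : (π : ℂ) ≠ 0 := by exact_mod_cast pi_ne_zero
      field_simp
    have e2 : Complex.sin (Complex.I * r) = Complex.I * ((sinh r : ℝ) : ℂ) := by
      rw [mul_comm, Complex.sin_mul_I, Complex.ofReal_sinh, mul_comm]
    rw [e1, e2] at key
    have key2 := key.const_mul ((Complex.I * (r : ℂ))⁻¹)
    have e3 : (Complex.I * (r : ℂ))⁻¹ * (Complex.I * ((sinh r : ℝ) : ℂ))
        = ((Sf s : ℝ) : ℂ) := by
      rw [Sf_neg_eq h, ← hrdef]
      push_cast
      have hr' : (r : ℂ) ≠ 0 := by exact_mod_cast hr.ne'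
      field_simp
    rw [e3] at key2
    have e4 : (fun n : ℕ => (Complex.I * (r : ℂ))⁻¹ * (Complex.I * (r : ℂ) *
        ∏ j ∈ range n, ((1 : ℂ) - (Complex.I * ((r / π : ℝ) : ℂ)) ^ 2 / ((j : ℂ) + 1) ^ 2)))
        = fun n : ℕ => (((∏ j ∈ range n, (1 - cj j * s)) : ℝ) : ℂ) := by
      funext n
      rw [← mul_assoc, inv_mul_cancel₀ hne, one_mul]
      push_cast
      refine Finset.prod_congr rfl fun j _ => ?_
      have h3 : ((s : ℝ) : ℂ) = -((r : ℂ) ^ 2) := by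
        have : s = -(r ^ 2) := by linarith
        rw [this]; push_cast; ring
      have hp : (π : ℂ) ≠ 0 := by exact_mod_cast pi_ne_zero
      have hj : ((j : ℂ) + 1) ≠ 0 := Nat.cast_add_one_ne_zero j
      rw [h3, mul_pow, Complex.I_sq]
      unfold cj
      push_cast
      field_simp
    rw [e4] at key2
    have key3 := (Complex.continuous_re.tendsto _).comp key2
    simpa only [Function.comp_def, Complex.ofReal_re] using key3
  · subst h; simp [Sf_zero]
  · have hr : 0 < √s := sqrt_pos.2 h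
    have hrr : √s ^ 2 = s := sq_sqrt h.le
    set r := √s with hrdef
    have key := (Real.tendsto_euler_sin_prod (r / π)).const_mul (r⁻¹)
    have e1 : π * (r / π) = r := by field_simp
    rw [e1] at key
    have e3 : r⁻¹ * sin r = Sf s := by rw [Sf_pos_eq h, ← hrdef]; field_simp
    rw [e3] at key
    refine key.congr fun n => ?_
    rw [← mul_assoc, inv_mul_cancel₀ hr.ne', one_mul]
    refine Finset.prod_congr rfl fun j _ => ?_
    unfold cj
    rw [div_pow, hrr]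
    have hj : ((j : ℝ) + 1) ≠ 0 := Nat.cast_add_one_ne_zero j
    field_simp

theorem Sf_pos {s : ℝ} (h : s < π ^ 2) : 0 < Sf s := by
  rcases lt_trichotomy s 0 with h0 | h0 | h0
  · rw [Sf_neg_eq h0]
    have : 0 < √(-s) := sqrt_pos.2 (by linarith)
    exact div_pos (sinh_pos_iff.2 this) this
  · subst h0; rw [Sf_zero]; exact one_pos
  · rw [Sf_pos_eq h0]
    have h1 : 0 < √s := sqrt_pos.2 h0
    have h2 : √s < π := by
      rw [Real.sqrt_lt' pi_pos]; exact h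
    exact div_pos (sin_pos_of_pos_of_lt_pi h1 h2) h1

/-- the logarithm of a factor -/
noncomputable def gj (t : ℝ) (j : ℕ) (s : ℝ) : ℝ := log (1 - cj j * (t ^ 2 * s)) - log (1 - cj j * s)

/-- `log (Sf (t² s)) - log (Sf s)` -/
noncomputable def hf (t s : ℝ) : ℝ := log (Sf (t ^ 2 * s)) - log (Sf s)

theorem mul_lt_of_lt {t s : ℝ} (h : s < π ^ 2) (ht0 : 0 ≤ t) (ht1 : t ≤ 1) : t ^ 2 * s < π ^ 2 := by
  have h1 : t ^ 2 ≤ 1 := pow_le_one₀ ht0 ht1
  have h2 : 0 < π ^ 2 := by positivity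
  rcases le_or_gt s 0 with h3 | h3
  · have : t ^ 2 * s ≤ 0 := mul_nonpos_of_nonneg_of_nonpos (by positivity) h3
    linarith
  · have : t ^ 2 * s ≤ 1 * s := mul_le_mul_of_nonneg_right h1 h3.le
    linarith

theorem tendsto_hf {t s : ℝ} (h : s < π ^ 2) (ht0 : 0 ≤ t) (ht1 : t ≤ 1) :
    Tendsto (fun n : ℕ => ∑ j ∈ range n, gj t j s) atTop (𝓝 (hf t s)) := by
  have h' := mul_lt_of_lt h ht0 ht1
  have a := (euler_Sf (t ^ 2 * s)).log (Sf_pos h').ne'
  have b := (euler_Sf s).log (Sf_pos h).ne'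
  refine (a.sub b).congr fun n => ?_
  rw [log_prod (fun j _ => (sub_pos.2 (cj_mul_lt h' j)).ne'),
    log_prod (fun j _ => (sub_pos.2 (cj_mul_lt h j)).ne'), ← Finset.sum_sub_distrib]
  rfl

theorem hf_zero (t : ℝ) : hf t 0 = 0 := by simp [hf]

theorem hf_one (s : ℝ) : hf 1 s = 0 := by simp [hf]

theorem hasDerivAt_gj {t s : ℝ} (h : s < π ^ 2) (ht0 : 0 ≤ t) (ht1 : t ≤ 1) (j : ℕ) :
    HasDerivAt (gj t j) (-(cj j * t ^ 2) / (1 - cj j * (t ^ 2 * s)) + cj j / (1 - cj j * s)) s := by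
  have h' := mul_lt_of_lt h ht0 ht1
  have p1 : 1 - cj j * (t ^ 2 * s) ≠ 0 := (sub_pos.2 (cj_mul_lt h' j)).ne'
  have p2 : 1 - cj j * s ≠ 0 := (sub_pos.2 (cj_mul_lt h j)).ne'
  have d1 : HasDerivAt (fun s => 1 - cj j * (t ^ 2 * s)) (-(cj j * t ^ 2)) s := by
    have := ((hasDerivAt_id s).const_mul (t ^ 2)).const_mul (cj j) |>.const_sub 1
    simpa using this
  have d2 : HasDerivAt (fun s => 1 - cj j * s) (-(cj j)) s := by
    have := ((hasDerivAt_id s).const_mul (cj j)).const_sub 1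
    simpa using this
  have := (d1.log p1).sub (d2.log p2)
  convert! this using 1
  ring

theorem gj_deriv_nonneg {t s : ℝ} (h : s < π ^ 2) (ht0 : 0 ≤ t) (ht1 : t ≤ 1) (j : ℕ) :
    0 ≤ -(cj j * t ^ 2) / (1 - cj j * (t ^ 2 * s)) + cj j / (1 - cj j * s) := by
  have h' := mul_lt_of_lt h ht0 ht1
  have p1 : 0 < 1 - cj j * (t ^ 2 * s) := sub_pos.2 (cj_mul_lt h' j)
  have p2 : 0 < 1 - cj j * s := sub_pos.2 (cj_mul_lt h j)
  have h1 : t ^ 2 ≤ 1 := pow_le_one₀ ht0 ht1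
  have hc := cj_pos j
  rw [div_add_div _ _ p1.ne' p2.ne']
  apply div_nonneg _ (mul_pos p1 p2).le
  nlinarith [mul_nonneg hc.le (sub_nonneg.2 h1)]

theorem gj_deriv_mono {t s s' : ℝ} (h : s' < π ^ 2) (hs : s ≤ s') (ht0 : 0 ≤ t) (ht1 : t ≤ 1)
    (j : ℕ) :
    -(cj j * t ^ 2) / (1 - cj j * (t ^ 2 * s)) + cj j / (1 - cj j * s) ≤
    -(cj j * t ^ 2) / (1 - cj j * (t ^ 2 * s')) + cj j / (1 - cj j * s') := by
  have h1 : t ^ 2 ≤ 1 := pow_le_one₀ ht0 ht1
  have h0 : 0 ≤ t ^ 2 := by positivity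
  have hs1 : s < π ^ 2 := lt_of_le_of_lt hs h
  have hc := cj_pos j
  set c := cj j
  set u := t ^ 2
  have A : 0 < 1 - c * (u * s) := sub_pos.2 (cj_mul_lt (mul_lt_of_lt hs1 ht0 ht1) j)
  have B : 0 < 1 - c * s := sub_pos.2 (cj_mul_lt hs1 j)
  have A' : 0 < 1 - c * (u * s') := sub_pos.2 (cj_mul_lt (mul_lt_of_lt h ht0 ht1) j)
  have B' : 0 < 1 - c * s' := sub_pos.2 (cj_mul_lt h j)
  -- c/(B') - c/B = c^2 (s'-s)/(B B'), and cu/A' - cu/A = c^2 u^2 (s'-s)/(A A')
  have e1 : c / (1 - c * s') - c / (1 - c * s) = c ^ 2 * (s' - s) / ((1 - c * s) * (1 - c * s')) := by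
    field_simp; ring
  have e2 : c * u / (1 - c * (u * s')) - c * u / (1 - c * (u * s)) =
      c ^ 2 * (s' - s) * (u ^ 2 / ((1 - c * (u * s)) * (1 - c * (u * s')))) := by
    rw [div_sub_div _ _ A'.ne' A.ne', mul_div_assoc', div_eq_div_iff (mul_pos A' A).ne'
      (mul_pos A A').ne']
    ring
  have k1 : u * (1 - c * s) ≤ 1 - c * (u * s) := by nlinarith
  have k2 : u * (1 - c * s') ≤ 1 - c * (u * s') := by nlinarith
  have e3 : u ^ 2 / ((1 - c * (u * s)) * (1 - c * (u * s'))) ≤ 1 / ((1 - c * s) * (1 - c * s')) := by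
    rw [div_le_div_iff₀ (mul_pos A A') (mul_pos B B')]
    have := mul_le_mul k1 k2 (mul_nonneg h0 B'.le) A.le
    nlinarith
  have e4 := mul_le_mul_of_nonneg_left e3 (show 0 ≤ c ^ 2 * (s' - s) by
    have := sub_nonneg.2 hs; positivity)
  have e5 : c ^ 2 * (s' - s) * (1 / ((1 - c * s) * (1 - c * s'))) =
      c ^ 2 * (s' - s) / ((1 - c * s) * (1 - c * s')) := by ring
  rw [e5] at e4
  have e6 : ∀ x, -(c * u) / x = -(c * u / x) := fun x => neg_div _ _
  rw [e6, e6]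
  linarith

theorem convexOn_gj {t : ℝ} (ht0 : 0 ≤ t) (ht1 : t ≤ 1) (j : ℕ) :
    ConvexOn ℝ (Iio (π ^ 2)) (gj t j) := by
  apply MonotoneOn.convexOn_of_deriv (convex_Iio _)
  · exact fun s hs => (hasDerivAt_gj hs ht0 ht1 j).continuousAt.continuousWithinAt
  · rw [interior_Iio]
    exact fun s hs => (hasDerivAt_gj hs ht0 ht1 j).differentiableAt.differentiableWithinAt
  · rw [interior_Iio]
    intro s hs s' hs' hle
    rw [(hasDerivAt_gj hs ht0 ht1 j).deriv, (hasDerivAt_gj hs' ht0 ht1 j).deriv]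
    exact gj_deriv_mono hs' hle ht0 ht1 j

theorem monotoneOn_gj {t : ℝ} (ht0 : 0 ≤ t) (ht1 : t ≤ 1) (j : ℕ) :
    MonotoneOn (gj t j) (Iio (π ^ 2)) := by
  apply monotoneOn_of_deriv_nonneg (convex_Iio _)
  · exact fun s hs => (hasDerivAt_gj hs ht0 ht1 j).continuousAt.continuousWithinAt
  · rw [interior_Iio]
    exact fun s hs => (hasDerivAt_gj hs ht0 ht1 j).differentiableAt.differentiableWithinAt
  · rw [interior_Iio]
    intro s hs
    rw [(hasDerivAt_gj hs ht0 ht1 j).deriv]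
    exact gj_deriv_nonneg hs ht0 ht1 j

theorem convexOn_hf {t : ℝ} (ht0 : 0 ≤ t) (ht1 : t ≤ 1) : ConvexOn ℝ (Iio (π ^ 2)) (hf t) := by
  refine ⟨convex_Iio _, fun x hx y hy a b ha hb hab => ?_⟩
  have hxy : a • x + b • y ∈ Iio (π ^ 2) := convex_Iio _ hx hy ha hb hab
  refine le_of_tendsto_of_tendsto' (tendsto_hf hxy ht0 ht1)
    (((tendsto_hf hx ht0 ht1).const_mul a).add ((tendsto_hf hy ht0 ht1).const_mul b)) fun n => ?_
  rw [Finset.mul_sum, Finset.mul_sum, ← Finset.sum_add_distrib]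
  exact Finset.sum_le_sum fun j _ => (convexOn_gj ht0 ht1 j).2 hx hy ha hb hab

theorem monotoneOn_hf {t : ℝ} (ht0 : 0 ≤ t) (ht1 : t ≤ 1) : MonotoneOn (hf t) (Iio (π ^ 2)) := by
  intro x hx y hy hxy
  refine le_of_tendsto_of_tendsto' (tendsto_hf hx ht0 ht1) (tendsto_hf hy ht0 ht1) fun n => ?_
  exact Finset.sum_le_sum fun j _ => monotoneOn_gj ht0 ht1 j hx hy hxy

theorem hf_nonneg {t s : ℝ} (ht0 : 0 ≤ t) (ht1 : t ≤ 1) (h0 : 0 ≤ s) (h : s < π ^ 2) :
    0 ≤ hf t s := by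
  rw [← hf_zero t]
  exact monotoneOn_hf ht0 ht1 (by simp; positivity) h h0

theorem hf_nonpos {t s : ℝ} (ht0 : 0 ≤ t) (ht1 : t ≤ 1) (h0 : s ≤ 0) : hf t s ≤ 0 := by
  rw [← hf_zero t]
  have hp : (0 : ℝ) < π ^ 2 := by positivity
  exact monotoneOn_hf ht0 ht1 (lt_of_le_of_lt h0 hp) hp h0

/-- star shape: `h(λ s) ≤ λ h(s)` -/
theorem hf_smul_le {t s l : ℝ} (ht0 : 0 ≤ t) (ht1 : t ≤ 1) (h : s < π ^ 2) (hl0 : 0 ≤ l)
    (hl1 : l ≤ 1) : hf t (l * s) ≤ l * hf t s := by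
  have hp : (0 : ℝ) < π ^ 2 := by positivity
  have := (convexOn_hf ht0 ht1).2 (show s ∈ Iio (π ^ 2) from h) (show (0 : ℝ) ∈ Iio (π ^ 2) from hp)
    hl0 (sub_nonneg.2 hl1) (by ring)
  simpa [hf_zero] using this

theorem continuous_Sf : Continuous Sf := by
  have h : ∀ s, Sf s = sinc (√s) * (if √(-s) = 0 then 1 else sinh (√(-s)) / √(-s)) := by
    intro s
    rcases le_or_gt 0 s with h | h
    · rw [Sf_nonneg_eq h, if_pos (sqrt_eq_zero_of_nonpos (by linarith)), mul_one]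
    · rw [Sf_neg_eq h, if_neg (sqrt_pos.2 (by linarith)).ne', sqrt_eq_zero_of_nonpos h.le,
        sinc_zero, one_mul]
  have hd : (fun x : ℝ => if x = 0 then 1 else sinh x / x) = dslope sinh 0 := by
    funext x
    rcases eq_or_ne x 0 with h | h
    · subst h; simp [dslope]
    · rw [if_neg h, dslope_of_ne _ h, slope_def_field]; simp
  have hc : Continuous (fun x : ℝ => if x = 0 then 1 else sinh x / x) := by
    rw [hd, ← continuousOn_univ]
    rw [continuousOn_dslope (by simp)]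
    exact ⟨continuous_sinh.continuousOn, differentiable_sinh.differentiableAt⟩
  have : Sf = fun s => sinc (√s) * (fun x : ℝ => if x = 0 then 1 else sinh x / x) (√(-s)) := by
    funext s; exact h s
  rw [this]
  exact (continuous_sinc.comp continuous_sqrt).mul (hc.comp (continuous_sqrt.comp continuous_neg))

theorem continuousOn_hf {t : ℝ} (ht0 : 0 ≤ t) (ht1 : t ≤ 1) : ContinuousOn (hf t) (Iio (π ^ 2)) := by
  intro s hs
  have h' := mul_lt_of_lt hs ht0 ht1
  have c1 : ContinuousAt (fun s => log (Sf (t ^ 2 * s))) s :=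
    ContinuousAt.log (continuous_Sf.comp (continuous_const.mul continuous_id)).continuousAt
      (Sf_pos h').ne'
  have c2 : ContinuousAt (fun s => log (Sf s)) s :=
    ContinuousAt.log continuous_Sf.continuousAt (Sf_pos hs).ne'
  exact (c1.sub c2).continuousWithinAt

end Vale.Agent.P233.H368.Tau
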