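import Vale.Agent.P233.H368.TauA

/-!
# P233, stage 3: the distortion coefficients (II): sigma, tau, the ladder in the dimension
-/

open Filter Topology Real Set
open scoped ENNReal

namespace Vale.Agent.P233.H368.Tau

/-- `sigma` of Lott-Villani-Sturm, with the value infinity past the diameter bound -/
noncomputable def sigE (K N t θ : ℝ) : ℝ≥0∞ :=
  if N * π ^ 2 ≤ K * θ ^ 2 then ⊤
  else if 0 < K * θ ^ 2 then ENNReal.ofReal (sin (t * θ * √(K / N)) / sin (θ * √(K / N)))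
  else if K * θ ^ 2 = 0 then ENNReal.ofReal t
  else ENNReal.ofReal (sinh (t * θ * √(-K / N)) / sinh (θ * √(-K / N)))

/-- `tau` of Lott-Villani-Sturm -/
noncomputable def tauE (K N t θ : ℝ) : ℝ≥0∞ :=
  ENNReal.ofReal t ^ (1 / N) * sigE K (N - 1) t θ ^ (1 - 1 / N)

/-- the generalised sine -/
noncomputable def snk (κ r : ℝ) : ℝ :=
  if κ = 0 then r
  else if 0 < κ then Real.sin (√κ * r) / √κ
  else Real.sinh (√(-κ) * r) / √(-κ)

/-- the real form of `sigma`: `sg t s`, `s = K θ² / N` -/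
noncomputable def sg (t s : ℝ) : ℝ := t * Sf (t ^ 2 * s) / Sf s

theorem sg_eq_exp {t s : ℝ} (ht0 : 0 ≤ t) (ht1 : t ≤ 1) (h : s < π ^ 2) :
    sg t s = t * exp (hf t s) := by
  have h' := mul_lt_of_lt h ht0 ht1
  rw [sg, hf, exp_sub, exp_log (Sf_pos h'), exp_log (Sf_pos h), mul_div_assoc]

theorem snk_eq {κ r : ℝ} (hr : 0 ≤ r) : snk κ r = r * Sf (κ * r ^ 2) := by
  rcases eq_or_lt_of_le hr with h0 | hr
  · subst h0
    simp [snk]
  rcases lt_trichotomy κ 0 with h | h | h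
  · have h1 : κ * r ^ 2 < 0 := mul_neg_of_neg_of_pos h (by positivity)
    have h2 : √(-(κ * r ^ 2)) = √(-κ) * r := by
      rw [← neg_mul, sqrt_mul (by linarith), sqrt_sq hr.le]
    have h3 : 0 < √(-κ) := sqrt_pos.2 (by linarith)
    rw [snk, if_neg h.ne, if_neg h.not_gt, Sf_neg_eq h1, h2]
    field_simp
  · subst h; simp [snk, Sf_zero]
  · have h1 : 0 < κ * r ^ 2 := by positivity
    have h2 : √(κ * r ^ 2) = √κ * r := by
      rw [sqrt_mul h.le, sqrt_sq hr.le]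
    have h3 : 0 < √κ := sqrt_pos.2 h
    rw [snk, if_neg h.ne', if_pos h, Sf_pos_eq h1, h2]
    field_simp

theorem snk_pos {κ r : ℝ} (hr : 0 < r) (h : κ * r ^ 2 < π ^ 2) : 0 < snk κ r := by
  rw [snk_eq hr.le]; exact mul_pos hr (Sf_pos h)

/-- `sigma` as the ratio of generalised sines -/
theorem sg_eq_snk {κ t θ : ℝ} (ht : 0 ≤ t) (hθ : 0 < θ) :
    sg t (κ * θ ^ 2) = snk κ (t * θ) / snk κ θ := by
  rw [snk_eq hθ.le, snk_eq (mul_nonneg ht hθ.le), sg, mul_pow]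
  rw [show κ * (t ^ 2 * θ ^ 2) = t ^ 2 * (κ * θ ^ 2) by ring]
  rw [show t * θ * Sf (t ^ 2 * (κ * θ ^ 2)) = θ * (t * Sf (t ^ 2 * (κ * θ ^ 2))) by ring]
  rw [mul_div_mul_left _ _ hθ.ne']

theorem sg_zero_left (s : ℝ) : sg 0 s = 0 := by simp [sg]

theorem sg_one_left {s : ℝ} (h : s < π ^ 2) : sg 1 s = 1 := by
  rw [sg_eq_exp zero_le_one le_rfl h, hf_one, exp_zero, mul_one]

theorem sg_zero_right (t : ℝ) : sg t 0 = t := by simp [sg, Sf_zero]

theorem sg_nonneg {t s : ℝ} (ht0 : 0 ≤ t) (ht1 : t ≤ 1) (h : s < π ^ 2) : 0 ≤ sg t s := by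
  rw [sg_eq_exp ht0 ht1 h]; positivity

/-- the literal `sigma` in real form -/
theorem sigE_eq {K N t θ : ℝ} (hN : 0 < N) (hθ : 0 ≤ θ) (ht : 0 ≤ t)
    (h : K * θ ^ 2 < N * π ^ 2) : sigE K N t θ = ENNReal.ofReal (sg t (K * θ ^ 2 / N)) := by
  rw [sigE, if_neg h.not_ge]
  rcases eq_or_lt_of_le hθ with h0 | hθ
  · subst h0
    simp [sg, Sf_zero]
  have e : K * θ ^ 2 / N = K / N * θ ^ 2 := by ring
  rw [e, sg_eq_snk ht hθ]
  rcases lt_trichotomy K 0 with hK | hK | hK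
  · have h1 : K * θ ^ 2 < 0 := mul_neg_of_neg_of_pos hK (by positivity)
    have h2 : K / N < 0 := div_neg_of_neg_of_pos hK hN
    rw [if_neg h1.not_gt, if_neg h1.ne, snk, snk, if_neg h2.ne, if_neg h2.not_gt, if_neg h2.ne,
      if_neg h2.not_gt]
    have h3 : 0 < √(-(K / N)) := sqrt_pos.2 (by linarith)
    rw [div_div_div_cancel_right₀ h3.ne', neg_div, mul_comm (t * θ), mul_comm θ]
  · subst hK
    simp [snk]
    field_simp
  · have h1 : 0 < K * θ ^ 2 := by positivity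
    have h2 : 0 < K / N := by positivity
    rw [if_pos h1, snk, snk, if_neg h2.ne', if_pos h2, if_neg h2.ne', if_pos h2]
    have h3 : 0 < √(K / N) := sqrt_pos.2 h2
    rw [div_div_div_cancel_right₀ h3.ne', mul_comm (t * θ), mul_comm θ]

theorem sigE_top {K N t θ : ℝ} (h : N * π ^ 2 ≤ K * θ ^ 2) : sigE K N t θ = ⊤ := by
  rw [sigE, if_pos h]

/-- the real form of `tau`, in terms of `K θ²` -/
noncomputable def tauR (K N t θ : ℝ) : ℝ :=
  t * exp ((N - 1) / N * hf t (K * θ ^ 2 / (N - 1)))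

theorem div_lt_pi {K N θ : ℝ} (hN : 1 < N) (h : K * θ ^ 2 < (N - 1) * π ^ 2) :
    K * θ ^ 2 / (N - 1) < π ^ 2 := by
  rw [div_lt_iff₀ (by linarith)]; linarith

theorem tauR_nonneg {K N t θ : ℝ} (ht : 0 ≤ t) : 0 ≤ tauR K N t θ := by
  unfold tauR; positivity

theorem tauR_pos {K N t θ : ℝ} (ht : 0 < t) : 0 < tauR K N t θ := by
  unfold tauR; positivity

theorem tauR_zero_left (K N θ : ℝ) : tauR K N 0 θ = 0 := by simp [tauR]

theorem tauR_one_left (K N θ : ℝ) : tauR K N 1 θ = 1 := by simp [tauR, hf_one]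

theorem tauR_zero_right (K N t : ℝ) : tauR K N t 0 = t := by simp [tauR, hf_zero]

theorem tauR_zero_K (N t θ : ℝ) : tauR 0 N t θ = t := by simp [tauR, hf_zero]

theorem tauR_eq {K N t θ : ℝ} (hN : 1 < N) (ht0 : 0 ≤ t) (ht1 : t ≤ 1)
    (h : K * θ ^ 2 < (N - 1) * π ^ 2) :
    tauR K N t θ = t ^ (1 / N) * (sg t (K * θ ^ 2 / (N - 1))) ^ (1 - 1 / N) := by
  have hs := div_lt_pi hN h
  rw [sg_eq_exp ht0 ht1 hs, mul_rpow ht0 (exp_pos _).le, ← mul_assoc]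
  rcases eq_or_lt_of_le ht0 with h0 | h0
  · subst h0
    have h1 : (1 : ℝ) / N ≠ 0 := by
      have : 0 < N := by linarith
      positivity
    rw [zero_rpow h1, tauR_zero_left]; ring
  · rw [← rpow_add h0, ← exp_mul, tauR]
    have e1 : 1 / N + (1 - 1 / N) = 1 := by ring
    rw [e1, rpow_one]
    have hN0 : N ≠ 0 := by linarith
    congr 2
    field_simp

theorem tauE_eq {K N t θ : ℝ} (hN : 1 < N) (hθ : 0 ≤ θ) (ht0 : 0 ≤ t) (ht1 : t ≤ 1)
    (h : K * θ ^ 2 < (N - 1) * π ^ 2) : tauE K N t θ = ENNReal.ofReal (tauR K N t θ) := by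
  have hs := div_lt_pi hN h
  have h1 : 0 ≤ 1 - 1 / N := by
    rw [sub_nonneg, div_le_one (by linarith)]; exact hN.le
  have h2 : (0 : ℝ) ≤ 1 / N := by
    have : 0 < N := by linarith
    positivity
  rw [tauE, sigE_eq (by linarith) hθ ht0 h, ENNReal.ofReal_rpow_of_nonneg ht0 h2,
    ENNReal.ofReal_rpow_of_nonneg (sg_nonneg ht0 ht1 hs) h1, ← ENNReal.ofReal_mul (by positivity),
    tauR_eq hN ht0 ht1 h]

theorem tauE_top {K N t θ : ℝ} (hN : 1 < N) (ht0 : 0 < t) (h : (N - 1) * π ^ 2 ≤ K * θ ^ 2) :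
    tauE K N t θ = ⊤ := by
  have h1 : 0 < 1 - 1 / N := by
    rw [sub_pos, div_lt_one (by linarith)]; exact hN
  rw [tauE, sigE_top h, ENNReal.top_rpow_of_pos h1, ENNReal.mul_top]
  exact (ENNReal.rpow_pos (ENNReal.ofReal_pos.2 ht0) ENNReal.ofReal_ne_top).ne'

/-- monotone in `K θ²` -/
theorem tauR_mono {K K' N t θ θ' : ℝ} (hN : 1 < N) (ht0 : 0 ≤ t) (ht1 : t ≤ 1)
    (hle : K * θ ^ 2 ≤ K' * θ' ^ 2) (h : K' * θ' ^ 2 < (N - 1) * π ^ 2) :
    tauR K N t θ ≤ tauR K' N t θ' := by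
  have h1 := div_lt_pi hN h
  have h2 : K * θ ^ 2 / (N - 1) ≤ K' * θ' ^ 2 / (N - 1) :=
    div_le_div_of_nonneg_right hle (by linarith)
  have h3 := monotoneOn_hf ht0 ht1 (lt_of_le_of_lt h2 h1) h1 h2
  have h4 : 0 ≤ (N - 1) / N := div_nonneg (by linarith) (by linarith)
  exact mul_le_mul_of_nonneg_left (exp_le_exp.2 (mul_le_mul_of_nonneg_left h3 h4)) ht0

theorem le_tauR {K N t θ : ℝ} (hN : 1 < N) (ht0 : 0 ≤ t) (ht1 : t ≤ 1) (hK : 0 ≤ K)
    (h : K * θ ^ 2 < (N - 1) * π ^ 2) : t ≤ tauR K N t θ := by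
  have := tauR_mono (K := 0) (θ := 0) hN ht0 ht1 (by rw [zero_mul]; positivity) h
  rwa [tauR_zero_K] at this

theorem tauR_le {K N t θ : ℝ} (hN : 1 < N) (ht0 : 0 ≤ t) (ht1 : t ≤ 1) (hK : K ≤ 0) :
    tauR K N t θ ≤ t := by
  have h0 : (0 : ℝ) * 0 ^ 2 < (N - 1) * π ^ 2 := by
    have h1 : 0 < N - 1 := by linarith
    have h2 : 0 < π ^ 2 := by positivity
    rw [zero_mul]; exact mul_pos h1 h2
  have := tauR_mono (K := K) (K' := 0) (θ := θ) (θ' := 0) hN ht0 ht1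
    (by rw [zero_mul]; exact mul_nonpos_of_nonpos_of_nonneg hK (by positivity)) h0
  rwa [tauR_zero_K] at this

/-- comparison in the dimension: `tau_{K,N'} ≤ tau_{K,N}^{N/N'} t^{1-N/N'}` -/
theorem tauR_dim {K N N' t θ : ℝ} (hN : 1 < N) (hNN : N ≤ N') (ht0 : 0 ≤ t) (ht1 : t ≤ 1)
    (h : K * θ ^ 2 < (N - 1) * π ^ 2) :
    tauR K N' t θ ≤ tauR K N t θ ^ (N / N') * t ^ (1 - N / N') := by
  rcases eq_or_lt_of_le ht0 with h0 | h0
  · subst h0
    rw [tauR_zero_left]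
    exact mul_nonneg (rpow_nonneg (tauR_nonneg le_rfl) _) (rpow_nonneg le_rfl _)
  have hN0 : 0 < N := by linarith
  have hN' : 0 < N' := by linarith
  have hs := div_lt_pi hN h
  rw [tauR, tauR, mul_rpow ht0 (exp_pos _).le, ← exp_mul]
  have e1 : t ^ (N / N') * rexp ((N - 1) / N * hf t (K * θ ^ 2 / (N - 1)) * (N / N')) *
      t ^ (1 - N / N') = t * rexp ((N - 1) / N' * hf t (K * θ ^ 2 / (N - 1))) := by
    rw [mul_right_comm, ← rpow_add h0]
    have : N / N' + (1 - N / N') = 1 := by ring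
    rw [this, rpow_one]
    congr 2
    field_simp
  rw [e1]
  refine mul_le_mul_of_nonneg_left (exp_le_exp.2 ?_) ht0
  have hl0 : 0 ≤ (N - 1) / (N' - 1) := div_nonneg (by linarith) (by linarith)
  have hl1 : (N - 1) / (N' - 1) ≤ 1 := by
    rw [div_le_one (by linarith)]; linarith
  have key := hf_smul_le ht0 ht1 hs hl0 hl1
  have hN1 : N - 1 ≠ 0 := by linarith
  have hN1' : N' - 1 ≠ 0 := by linarith
  have e2 : (N - 1) / (N' - 1) * (K * θ ^ 2 / (N - 1)) = K * θ ^ 2 / (N' - 1) := by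
    field_simp
  rw [e2] at key
  have h5 : 0 ≤ (N' - 1) / N' := div_nonneg (by linarith) hN'.le
  calc (N' - 1) / N' * hf t (K * θ ^ 2 / (N' - 1))
      ≤ (N' - 1) / N' * ((N - 1) / (N' - 1) * hf t (K * θ ^ 2 / (N - 1))) :=
        mul_le_mul_of_nonneg_left key h5
    _ = (N - 1) / N' * hf t (K * θ ^ 2 / (N - 1)) := by field_simp

/-- power concavity in the form used by the ladder -/
theorem rpow_split {x y t p : ℝ} (hx : 0 ≤ x) (hy : 0 ≤ y) (ht0 : 0 < t) (ht1 : t < 1)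
    (hp0 : 0 ≤ p) (hp1 : p ≤ 1) :
    x ^ p * (1 - t) ^ (1 - p) + y ^ p * t ^ (1 - p) ≤ (x + y) ^ p := by
  have hs : 0 < 1 - t := by linarith
  have key := (Real.concaveOn_rpow hp0 hp1).2 (show x / (1 - t) ∈ Ici (0 : ℝ) from
    div_nonneg hx hs.le) (show y / t ∈ Ici (0 : ℝ) from div_nonneg hy ht0.le) hs.le ht0.le
    (by ring)
  simp only [smul_eq_mul] at key
  have e1 : (1 - t) * (x / (1 - t)) + t * (y / t) = x + y := by field_simp
  rw [e1, div_rpow hx hs.le, div_rpow hy ht0.le] at key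
  refine le_trans (le_of_eq ?_) key
  rw [rpow_sub hs, rpow_sub ht0, rpow_one, rpow_one]
  ring

/-- THE LADDER: the pointwise density inequality for `n` implies the one for every `N' ≥ n` -/
theorem ladder {K n N' t θ r a b : ℝ} (hn : 1 < n) (hnN : n ≤ N') (ht0 : 0 < t) (ht1 : t < 1)
    (h : K * θ ^ 2 < (n - 1) * π ^ 2) (hr : 0 ≤ r) (ha : 0 ≤ a) (hb : 0 ≤ b)
    (H : tauR K n (1 - t) θ * a ^ (-(1 / n)) + tauR K n t θ * b ^ (-(1 / n)) ≤ r ^ (-(1 / n))) :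
    tauR K N' (1 - t) θ * a ^ (-(1 / N')) + tauR K N' t θ * b ^ (-(1 / N')) ≤
      r ^ (-(1 / N')) := by
  have hn0 : 0 < n := by linarith
  have hN' : 0 < N' := by linarith
  have hp0 : 0 ≤ n / N' := by positivity
  have hp1 : n / N' ≤ 1 := by rw [div_le_one hN']; exact hnN
  have hs : 0 < 1 - t := by linarith
  have e : ∀ z : ℝ, 0 ≤ z → (z ^ (-(1 / n))) ^ (n / N') = z ^ (-(1 / N')) := by
    intro z hz
    rw [← rpow_mul hz]
    congr 1
    field_simp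
  have h1 := tauR_dim hn hnN hs.le (by linarith) h
  have h2 := tauR_dim hn hnN ht0.le ht1.le h
  calc tauR K N' (1 - t) θ * a ^ (-(1 / N')) + tauR K N' t θ * b ^ (-(1 / N'))
      ≤ (tauR K n (1 - t) θ ^ (n / N') * (1 - t) ^ (1 - n / N')) * a ^ (-(1 / N')) +
        (tauR K n t θ ^ (n / N') * t ^ (1 - n / N')) * b ^ (-(1 / N')) :=
        add_le_add (mul_le_mul_of_nonneg_right h1 (rpow_nonneg ha _))
          (mul_le_mul_of_nonneg_right h2 (rpow_nonneg hb _))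
    _ = (tauR K n (1 - t) θ * a ^ (-(1 / n))) ^ (n / N') * (1 - t) ^ (1 - n / N') +
        (tauR K n t θ * b ^ (-(1 / n))) ^ (n / N') * t ^ (1 - n / N') := by
        rw [mul_rpow (tauR_nonneg hs.le) (rpow_nonneg ha _),
          mul_rpow (tauR_nonneg ht0.le) (rpow_nonneg hb _), e a ha, e b hb]
        ring
    _ ≤ (tauR K n (1 - t) θ * a ^ (-(1 / n)) + tauR K n t θ * b ^ (-(1 / n))) ^ (n / N') :=
        rpow_split (mul_nonneg (tauR_nonneg hs.le) (rpow_nonneg ha _))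
          (mul_nonneg (tauR_nonneg ht0.le) (rpow_nonneg hb _)) ht0 ht1 hp0 hp1
    _ ≤ (r ^ (-(1 / n))) ^ (n / N') :=
        rpow_le_rpow (add_nonneg (mul_nonneg (tauR_nonneg hs.le) (rpow_nonneg ha _))
          (mul_nonneg (tauR_nonneg ht0.le) (rpow_nonneg hb _))) H hp0
    _ = r ^ (-(1 / N')) := e r hr

theorem continuousOn_tauR {K N t : ℝ} (hN : 1 < N) (ht0 : 0 ≤ t) (ht1 : t ≤ 1) :
    ContinuousOn (tauR K N t) {θ | K * θ ^ 2 < (N - 1) * π ^ 2} := by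
  have h : ContinuousOn (fun θ => hf t (K * θ ^ 2 / (N - 1))) {θ | K * θ ^ 2 < (N - 1) * π ^ 2} :=
    (continuousOn_hf ht0 ht1).comp (by fun_prop) fun θ hθ => div_lt_pi hN hθ
  unfold tauR
  exact continuousOn_const.mul ((continuousOn_const.mul h).rexp)

end Vale.Agent.P233.H368.Tau
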