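import Vale.Agent.P233.MathlibUsed2

/-!
P233 (helper368): along an arbitrary filter (for instance an ultrafilter), pointwise limits of
equicontinuous families on `[a,b]` are uniform, and integrals pass to the limit.
-/

open MeasureTheory Filter Topology Set
open scoped ENNReal NNReal

namespace Vale.Agent.P233.H368

variable {ι : Type*} {L : Filter ι} {f : ι → ℝ → ℝ} {g : ℝ → ℝ} {a b : ℝ}

/-- equicontinuous (eventually) on `[a,b]` -/
def EqC (L : Filter ι) (f : ι → ℝ → ℝ) (a b : ℝ) : Prop :=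
  ∀ ε > 0, ∃ δ > 0, ∀ᶠ i in L, ∀ s ∈ Icc a b, ∀ t ∈ Icc a b, |s - t| < δ → |f i s - f i t| ≤ ε

/-- uniform convergence on `[a,b]` -/
def UnifC (L : Filter ι) (f : ι → ℝ → ℝ) (g : ℝ → ℝ) (a b : ℝ) : Prop :=
  ∀ ε > 0, ∀ᶠ i in L, ∀ t ∈ Icc a b, |f i t - g t| ≤ ε

theorem EqC.of_lip {K : ℝ} (h : ∀ᶠ i in L, ∀ s ∈ Icc a b, ∀ t ∈ Icc a b,
    |f i s - f i t| ≤ K * |s - t|) : EqC L f a b := by
  intro ε hε
  refine ⟨ε / (|K| + 1), by positivity, h.mono fun i hi s hs t ht hst => ?_⟩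
  have h1 := hi s hs t ht
  have h2 : K * |s - t| ≤ (|K| + 1) * (ε / (|K| + 1)) := by
    calc K * |s - t| ≤ |K| * |s - t| := mul_le_mul_of_nonneg_right (le_abs_self K) (abs_nonneg _)
      _ ≤ (|K| + 1) * |s - t| := mul_le_mul_of_nonneg_right (by linarith) (abs_nonneg _)
      _ ≤ (|K| + 1) * (ε / (|K| + 1)) := mul_le_mul_of_nonneg_left hst.le (by positivity)
  rw [mul_div_cancel₀ _ (by positivity : |K| + 1 ≠ 0)] at h2
  linarith

/-- the limit has the same modulus -/
theorem EqC.limit [L.NeBot] (h : EqC L f a b)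
    (hg : ∀ t ∈ Icc a b, Tendsto (fun i => f i t) L (𝓝 (g t))) :
    ∀ ε > 0, ∃ δ > 0, ∀ s ∈ Icc a b, ∀ t ∈ Icc a b, |s - t| < δ → |g s - g t| ≤ ε := by
  intro ε hε
  obtain ⟨δ, hδ, h1⟩ := h ε hε
  refine ⟨δ, hδ, fun s hs t ht hst => ?_⟩
  have h2 : Tendsto (fun i => |f i s - f i t|) L (𝓝 |g s - g t|) :=
    ((hg s hs).sub (hg t ht)).abs
  exact le_of_tendsto h2 (h1.mono fun i hi => hi s hs t ht hst)

theorem EqC.continuousOn [L.NeBot] (h : EqC L f a b)
    (hg : ∀ t ∈ Icc a b, Tendsto (fun i => f i t) L (𝓝 (g t))) : ContinuousOn g (Icc a b) := by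
  rw [Metric.continuousOn_iff]
  intro t ht ε hε
  obtain ⟨δ, hδ, h1⟩ := h.limit hg (ε / 2) (by positivity)
  refine ⟨δ, hδ, fun s hs hst => ?_⟩
  rw [Real.dist_eq] at hst ⊢
  exact (h1 s hs t ht hst).trans_lt (by linarith)

/-- pointwise limits of equicontinuous families are uniform -/
theorem EqC.unif [L.NeBot] (h : EqC L f a b)
    (hg : ∀ t ∈ Icc a b, Tendsto (fun i => f i t) L (𝓝 (g t))) : UnifC L f g a b := by
  intro ε hε
  obtain ⟨δ, hδ, h1⟩ := h (ε / 3) (by positivity)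
  obtain ⟨δ', hδ', h2⟩ := h.limit hg (ε / 3) (by positivity)
  obtain ⟨t, hts, htf, htc⟩ := (isCompact_Icc (a := a) (b := b)).finite_cover_balls
    (lt_min hδ hδ')
  have h3 : ∀ᶠ i in L, ∀ s ∈ t, |f i s - g s| ≤ ε / 3 := by
    rw [eventually_all_finite htf]
    intro s hs
    have h4 : Tendsto (fun i => |f i s - g s|) L (𝓝 0) := by
      have := ((hg s (hts hs)).sub_const (g s)).abs
      simpa using this
    exact (h4.eventually_lt_const (by positivity : (0 : ℝ) < ε / 3)).mono fun i hi => hi.le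
  filter_upwards [h1, h3] with i hi1 hi3 s hs
  obtain ⟨r, hr, hsr⟩ := mem_iUnion₂.1 (htc hs)
  rw [Metric.mem_ball, Real.dist_eq] at hsr
  have e1 := hi1 s hs r (hts hr) (hsr.trans_le (min_le_left _ _))
  have e2 := h2 s hs r (hts hr) (hsr.trans_le (min_le_right _ _))
  have e3 := hi3 r hr
  calc |f i s - g s| = |(f i s - f i r) + (f i r - g r) - (g s - g r)| := by ring_nf
    _ ≤ |f i s - f i r| + |f i r - g r| + |g s - g r| := by
        refine (abs_sub _ _).trans ?_
        exact add_le_add (abs_add_le _ _) le_rfl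
    _ ≤ ε := by linarith

theorem UnifC.tendsto (h : UnifC L f g a b) {t : ℝ} (ht : t ∈ Icc a b) :
    Tendsto (fun i => f i t) L (𝓝 (g t)) := by
  rw [Metric.tendsto_nhds]
  intro ε hε
  filter_upwards [h (ε / 2) (by positivity)] with i hi
  rw [Real.dist_eq]
  exact (hi t ht).trans_lt (by linarith)

/-- integrals pass to uniform limits -/
theorem UnifC.integral (h : UnifC L f g a b) (hab : a ≤ b)
    (hf : ∀ᶠ i in L, IntervalIntegrable (f i) volume a b)
    (hg : IntervalIntegrable g volume a b) :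
    Tendsto (fun i => ∫ t in a..b, f i t) L (𝓝 (∫ t in a..b, g t)) := by
  rw [Metric.tendsto_nhds]
  intro ε hε
  have hpos : 0 < ε / (2 * (|b - a| + 1)) := by positivity
  filter_upwards [h _ hpos, hf] with i hi hfi
  rw [Real.dist_eq, ← intervalIntegral.integral_sub hfi hg]
  have h1 : ∀ t ∈ uIoc a b, ‖f i t - g t‖ ≤ ε / (2 * (|b - a| + 1)) := by
    intro t ht
    rw [uIoc_of_le hab] at ht
    rw [Real.norm_eq_abs]
    exact hi t ⟨ht.1.le, ht.2⟩
  have h2 := intervalIntegral.norm_integral_le_of_norm_le_const h1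
  rw [Real.norm_eq_abs] at h2
  refine h2.trans_lt ?_
  have h3 : |b - a| < |b - a| + 1 := by linarith
  have h4 : 0 ≤ |b - a| := abs_nonneg _
  rw [div_mul_eq_mul_div, div_lt_iff₀ (by positivity)]
  nlinarith

theorem UnifC.add {f' : ι → ℝ → ℝ} {g' : ℝ → ℝ} (h : UnifC L f g a b) (h' : UnifC L f' g' a b) :
    UnifC L (fun i t => f i t + f' i t) (fun t => g t + g' t) a b := by
  intro ε hε
  filter_upwards [h (ε / 2) (by positivity), h' (ε / 2) (by positivity)] with i h1 h2 t ht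
  calc |f i t + f' i t - (g t + g' t)| = |(f i t - g t) + (f' i t - g' t)| := by ring_nf
    _ ≤ |f i t - g t| + |f' i t - g' t| := abs_add_le _ _
    _ ≤ ε := by linarith [h1 t ht, h2 t ht]

/-- a uniformly small perturbation -/
theorem UnifC.congr {f' : ι → ℝ → ℝ} {e : ι → ℝ} (h : UnifC L f g a b) (he : Tendsto e L (𝓝 0))
    (h' : ∀ᶠ i in L, ∀ t ∈ Icc a b, |f' i t - f i t| ≤ e i) : UnifC L f' g a b := by
  intro ε hε
  filter_upwards [h (ε / 2) (by positivity), h', he.eventually_lt_const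
    (by positivity : (0 : ℝ) < ε / 2)] with i h1 h2 h3 t ht
  calc |f' i t - g t| = |(f' i t - f i t) + (f i t - g t)| := by ring_nf
    _ ≤ |f' i t - f i t| + |f i t - g t| := abs_add_le _ _
    _ ≤ ε := by linarith [h1 t ht, h2 t ht]

end Vale.Agent.P233.H368
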